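import Vale.Agent.Lib.P254.Sec.Defs

open MeasureTheory Set

namespace Vale.Agent.Lib.P254

/-- Three-point chord inequality for a concave function. -/
theorem bo_chord_le {f : ℝ → ℝ} {s : Set ℝ} (hf : ConcaveOn ℝ s f) {x y z : ℝ}
    (hx : x ∈ s) (hz : z ∈ s) (hxy : x ≤ y) (hyz : y ≤ z) :
    (z - y) * f x + (y - x) * f z ≤ (z - x) * f y := by
  rcases eq_or_lt_of_le (hxy.trans hyz) with h | h
  · have hy : y = x := le_antisymm (h ▸ hyz) hxy
    subst hy
    subst h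
    simp
  · have hzx : 0 < z - x := sub_pos.mpr h
    have hne : z - x ≠ 0 := hzx.ne'
    have hsum : (z - y) / (z - x) + (y - x) / (z - x) = 1 := by
      rw [← add_div, div_eq_one_iff_eq hne]; ring
    have key := hf.2 hx hz (div_nonneg (sub_nonneg.mpr hyz) hzx.le)
      (div_nonneg (sub_nonneg.mpr hxy) hzx.le) hsum
    have e : ((z - y) / (z - x)) • x + ((y - x) / (z - x)) • z = y := by
      simp only [smul_eq_mul]
      field_simp
      ring
    rw [e] at key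
    simp only [smul_eq_mul] at key
    have h2 := mul_le_mul_of_nonneg_left key hzx.le
    have e2 : (z - x) * ((z - y) / (z - x) * f x + (y - x) / (z - x) * f z)
        = (z - y) * f x + (y - x) * f z := by
      field_simp
    linarith

/-- Integral of a quartic polynomial. -/
theorem bo_int_quartic (c0 c1 c2 c3 c4 x y : ℝ) :
    ∫ t in x..y, (c0 + c1 * t + c2 * t ^ 2 + c3 * t ^ 3 + c4 * t ^ 4) =
      c0 * (y - x) + c1 * (y ^ 2 - x ^ 2) / 2 + c2 * (y ^ 3 - x ^ 3) / 3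
        + c3 * (y ^ 4 - x ^ 4) / 4 + c4 * (y ^ 5 - x ^ 5) / 5 := by
  have hd : ∀ t ∈ Set.uIcc x y,
      HasDerivAt (fun t : ℝ => c0 * t + c1 * t ^ 2 / 2 + c2 * t ^ 3 / 3 + c3 * t ^ 4 / 4
          + c4 * t ^ 5 / 5)
        (c0 + c1 * t + c2 * t ^ 2 + c3 * t ^ 3 + c4 * t ^ 4) t := by
    intro t _
    have h1 : HasDerivAt (fun t : ℝ => c0 * t) c0 t := by
      simpa using (hasDerivAt_id t).const_mul c0
    have h2 : HasDerivAt (fun t : ℝ => c1 * t ^ 2 / 2) (c1 * t) t := by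
      have := ((hasDerivAt_pow 2 t).const_mul c1).div_const 2
      exact this.congr_deriv (by norm_num; ring)
    have h3 : HasDerivAt (fun t : ℝ => c2 * t ^ 3 / 3) (c2 * t ^ 2) t := by
      have := ((hasDerivAt_pow 3 t).const_mul c2).div_const 3
      exact this.congr_deriv (by norm_num; ring)
    have h4 : HasDerivAt (fun t : ℝ => c3 * t ^ 4 / 4) (c3 * t ^ 3) t := by
      have := ((hasDerivAt_pow 4 t).const_mul c3).div_const 4
      exact this.congr_deriv (by norm_num; ring)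
    have h5 : HasDerivAt (fun t : ℝ => c4 * t ^ 5 / 5) (c4 * t ^ 4) t := by
      have := ((hasDerivAt_pow 5 t).const_mul c4).div_const 5
      exact this.congr_deriv (by norm_num; ring)
    exact (((h1.add h2).add h3).add h4).add h5
  rw [intervalIntegral.integral_eq_sub_of_hasDerivAt hd
    (Continuous.intervalIntegrable (by fun_prop) _ _)]
  ring

/-- Integral of a quadratic weight against `v` in terms of the three moments. -/
theorem bo_int_quad_mul {v : ℝ → ℝ} {a : ℝ} (hv : IntervalIntegrable v volume 0 a)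
    (p0 p1 p2 : ℝ) :
    ∫ t in (0:ℝ)..a, (p0 + p1 * t + p2 * t ^ 2) * v t =
      p0 * (∫ t in (0:ℝ)..a, v t) + p1 * (∫ t in (0:ℝ)..a, t * v t)
        + p2 * (∫ t in (0:ℝ)..a, t ^ 2 * v t) := by
  have h1 : IntervalIntegrable (fun t : ℝ => t * v t) volume 0 a :=
    hv.continuousOn_mul (g := fun t : ℝ => t) continuous_id.continuousOn
  have h2 : IntervalIntegrable (fun t : ℝ => t ^ 2 * v t) volume 0 a :=
    hv.continuousOn_mul (g := fun t : ℝ => t ^ 2) (continuous_pow 2).continuousOn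
  have e : (fun t : ℝ => (p0 + p1 * t + p2 * t ^ 2) * v t)
      = fun t : ℝ => (p0 * v t + p1 * (t * v t)) + p2 * (t ^ 2 * v t) := by
    funext t; ring
  rw [e, intervalIntegral.integral_add ((hv.const_mul p0).add (h1.const_mul p1)) (h2.const_mul p2),
    intervalIntegral.integral_add (hv.const_mul p0) (h1.const_mul p1),
    intervalIntegral.integral_const_mul, intervalIntegral.integral_const_mul,
    intervalIntegral.integral_const_mul]

/-- A concave function on `[0, a]` changes sign at most twice, from negative to positive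
to negative. -/
theorem bo_single_crossing {D : ℝ → ℝ} {a : ℝ} (ha : 0 ≤ a)
    (hD : ConcaveOn ℝ (Icc 0 a) D) :
    ∃ t1 t2 : ℝ, 0 ≤ t1 ∧ t1 ≤ t2 ∧ t2 ≤ a ∧
      ∀ t ∈ Icc 0 a, (t - t1) * (t - t2) * D t ≤ 0 := by
  have hIc : Convex ℝ {t ∈ Icc 0 a | 0 < D t} := hD.convex_gt 0
  rcases ({t ∈ Icc 0 a | 0 < D t}).eq_empty_or_nonempty with hemp | hne
  · refine ⟨0, 0, le_rfl, le_rfl, ha, fun t ht => ?_⟩
    have hDt : D t ≤ 0 := by
      by_contra h
      push Not at h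
      have hmem : t ∈ {t ∈ Icc 0 a | 0 < D t} := ⟨ht, h⟩
      rw [hemp] at hmem
      exact hmem
    have h0 : 0 ≤ (t - 0) * (t - 0) := mul_self_nonneg _
    nlinarith [mul_nonneg h0 (neg_nonneg.mpr hDt)]
  · have hbb : BddBelow {t ∈ Icc 0 a | 0 < D t} := ⟨0, fun t ht => ht.1.1⟩
    have hba : BddAbove {t ∈ Icc 0 a | 0 < D t} := ⟨a, fun t ht => ht.1.2⟩
    refine ⟨sInf {t ∈ Icc 0 a | 0 < D t}, sSup {t ∈ Icc 0 a | 0 < D t},
      le_csInf hne (fun t ht => ht.1.1), csInf_le_csSup hne hbb hba,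
      csSup_le hne (fun t ht => ht.1.2), fun t ht => ?_⟩
    have h12 := csInf_le_csSup hne hbb hba
    rcases lt_trichotomy t (sInf {t ∈ Icc 0 a | 0 < D t}) with h1 | h1 | h1
    · have hDt : D t ≤ 0 := by
        by_contra h
        push Not at h
        have hmem : t ∈ {t ∈ Icc 0 a | 0 < D t} := ⟨ht, h⟩
        exact absurd (csInf_le hbb hmem) (not_le.mpr h1)
      have hp : 0 ≤ (t - sInf {t ∈ Icc 0 a | 0 < D t}) * (t - sSup {t ∈ Icc 0 a | 0 < D t}) :=
        mul_nonneg_of_nonpos_of_nonpos (by linarith) (by linarith)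
      nlinarith [mul_nonneg hp (neg_nonneg.mpr hDt)]
    · rw [h1]; simp
    · rcases lt_trichotomy t (sSup {t ∈ Icc 0 a | 0 < D t}) with h2 | h2 | h2
      · obtain ⟨s1, hs1, hs1t⟩ := exists_lt_of_csInf_lt hne h1
        obtain ⟨s2, hs2, hs2t⟩ := exists_lt_of_lt_csSup hne h2
        have htI : t ∈ {t ∈ Icc 0 a | 0 < D t} :=
          hIc.ordConnected.out hs1 hs2 ⟨hs1t.le, hs2t.le⟩
        have hDt : 0 < D t := htI.2
        have hp : 0 ≤ (t - sInf {t ∈ Icc 0 a | 0 < D t}) * (sSup {t ∈ Icc 0 a | 0 < D t} - t) :=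
          mul_nonneg (by linarith) (by linarith)
        nlinarith [mul_nonneg hp hDt.le]
      · rw [h2]; simp
      · have hDt : D t ≤ 0 := by
          by_contra h
          push Not at h
          have hmem : t ∈ {t ∈ Icc 0 a | 0 < D t} := ⟨ht, h⟩
          exact absurd (le_csSup hba hmem) (not_le.mpr h2)
        have hp : 0 ≤ (t - sInf {t ∈ Icc 0 a | 0 < D t}) * (t - sSup {t ∈ Icc 0 a | 0 < D t}) :=
          mul_nonneg (by linarith) (by linarith)
        nlinarith [mul_nonneg hp (neg_nonneg.mpr hDt)]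

/-- For a nonnegative profile with concave square root on `[0, a]`, `a ∫v ≤ 4 ∫tv`. -/
theorem bo_fact (v : ℝ → ℝ) (a : ℝ) (hapos : 0 < a)
    (hv0 : ∀ t, 0 ≤ v t) (hconc : ConcaveOn ℝ (Icc 0 a) (fun t => Real.sqrt (v t)))
    (hv : IntervalIntegrable v volume 0 a) :
    a * (∫ t in (0:ℝ)..a, v t) ≤ 4 * (∫ t in (0:ℝ)..a, t * v t) := by
  have ha : 0 ≤ a := hapos.le
  have hamem : a ∈ Icc 0 a := ⟨ha, le_rfl⟩
  have h4mem : a / 4 ∈ Icc 0 a := ⟨by positivity, by linarith⟩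
  have hw0 : ∀ t, 0 ≤ Real.sqrt (v t) := fun t => Real.sqrt_nonneg _
  have hw2 : ∀ t, Real.sqrt (v t) ^ 2 = v t := fun t => Real.sq_sqrt (hv0 t)
  have hpt : ∀ t ∈ Icc 0 a,
      0 ≤ (4 * t - a) * ((3 * a / 4) ^ 2 * v t - (a - t) ^ 2 * v (a / 4)) := by
    intro t ht
    have hwa := hw0 a
    rcases le_total t (a / 4) with h | h
    · have hc := bo_chord_le hconc ht hamem h (by linarith : a / 4 ≤ a)
      have h1 : 3 * a / 4 * Real.sqrt (v t) ≤ (a - t) * Real.sqrt (v (a / 4)) := by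
        nlinarith [mul_nonneg (sub_nonneg.mpr h) hwa]
      have h1' : 0 ≤ 3 * a / 4 * Real.sqrt (v t) := mul_nonneg (by positivity) (hw0 t)
      have h2 := pow_le_pow_left₀ h1' h1 2
      rw [mul_pow, mul_pow, hw2, hw2] at h2
      nlinarith [mul_nonneg (by linarith : 0 ≤ a - 4 * t) (sub_nonneg.mpr h2)]
    · have hc := bo_chord_le hconc h4mem hamem h ht.2
      have h1 : (a - t) * Real.sqrt (v (a / 4)) ≤ 3 * a / 4 * Real.sqrt (v t) := by
        nlinarith [mul_nonneg (sub_nonneg.mpr h) hwa]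
      have h1' : 0 ≤ (a - t) * Real.sqrt (v (a / 4)) :=
        mul_nonneg (by linarith [ht.2]) (hw0 _)
      have h2 := pow_le_pow_left₀ h1' h1 2
      rw [mul_pow, mul_pow, hw2, hw2] at h2
      exact mul_nonneg (by linarith) (sub_nonneg.mpr h2)
  have hint := intervalIntegral.integral_nonneg (μ := volume) ha hpt
  have e : (fun t : ℝ => (4 * t - a) * ((3 * a / 4) ^ 2 * v t - (a - t) ^ 2 * v (a / 4)))
      = fun t : ℝ => (-(9 * a ^ 3 / 16) + 9 * a ^ 2 / 4 * t + 0 * t ^ 2) * v t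
          - (v (a / 4) * (-a ^ 3) + v (a / 4) * (6 * a ^ 2) * t + v (a / 4) * (-9 * a) * t ^ 2
              + v (a / 4) * 4 * t ^ 3 + 0 * t ^ 4) := by
    funext t; ring
  rw [e, intervalIntegral.integral_sub
    (hv.continuousOn_mul (g := fun t : ℝ => -(9 * a ^ 3 / 16) + 9 * a ^ 2 / 4 * t + 0 * t ^ 2)
      (by fun_prop))
    (Continuous.intervalIntegrable (by fun_prop) _ _),
    bo_int_quad_mul hv, bo_int_quartic] at hint
  have h2 : 0 ≤ 9 * a ^ 2 / 16 * (4 * (∫ t in (0:ℝ)..a, t * v t)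
      - a * (∫ t in (0:ℝ)..a, v t)) := by
    have e2 : 9 * a ^ 2 / 16 * (4 * (∫ t in (0:ℝ)..a, t * v t) - a * (∫ t in (0:ℝ)..a, v t))
        = -(9 * a ^ 3 / 16) * (∫ t in (0:ℝ)..a, v t)
          + 9 * a ^ 2 / 4 * (∫ t in (0:ℝ)..a, t * v t)
          + 0 * (∫ t in (0:ℝ)..a, t ^ 2 * v t) -
        (v (a / 4) * (-a ^ 3) * (a - 0) + v (a / 4) * (6 * a ^ 2) * (a ^ 2 - 0 ^ 2) / 2
          + v (a / 4) * (-9 * a) * (a ^ 3 - 0 ^ 3) / 3 + v (a / 4) * 4 * (a ^ 4 - 0 ^ 4) / 4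
          + 0 * (a ^ 5 - 0 ^ 5) / 5) := by
      ring
    rw [e2]; exact hint
  by_contra hneg
  push Not at hneg
  nlinarith [mul_pos (pow_pos hapos 2) (sub_pos.mpr hneg)]

/-- Half-line form of the inequality. -/
theorem bo_half_line (v : ℝ → ℝ) (a : ℝ) (ha : 0 ≤ a)
    (hv0 : ∀ t, 0 ≤ v t) (hconc : ConcaveOn ℝ (Icc 0 a) (fun t => Real.sqrt (v t)))
    (hv : IntervalIntegrable v volume 0 a) :
    (∫ t in (0:ℝ)..a, v t) * (∫ t in (0:ℝ)..a, t ^ 2 * v t)
      ≤ 8 / 5 * (∫ t in (0:ℝ)..a, t * v t) ^ 2 := by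
  have hfact : 0 < a → a * (∫ t in (0:ℝ)..a, v t) ≤ 4 * (∫ t in (0:ℝ)..a, t * v t) :=
    fun hapos => bo_fact v a hapos hv0 hconc hv
  set A := ∫ t in (0:ℝ)..a, v t with hA
  set B := ∫ t in (0:ℝ)..a, t * v t with hB
  set M := ∫ t in (0:ℝ)..a, t ^ 2 * v t with hM
  have hA0 : 0 ≤ A := intervalIntegral.integral_nonneg ha (fun t _ => hv0 t)
  rcases eq_or_lt_of_le hA0 with hAz | hApos
  · rw [← hAz]; nlinarith [sq_nonneg B]
  have hapos : 0 < a := by
    rcases eq_or_lt_of_le ha with h | h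
    · exfalso
      rw [hA, ← h] at hApos
      simp at hApos
    · exact h
  have hw0 : ∀ t, 0 ≤ Real.sqrt (v t) := fun t => Real.sqrt_nonneg _
  have hw2 : ∀ t, Real.sqrt (v t) ^ 2 = v t := fun t => Real.sq_sqrt (hv0 t)
  have hfact1 : a * A ≤ 4 * B := hfact hapos
  have hBpos : 0 < B := by nlinarith [mul_pos hapos hApos]
  -- the comparison profile g t = α * (β - t) ^ 2
  set β := 4 * B / A with hβ
  have hβA : β * A = 4 * B := by
    rw [hβ]; field_simp
  have hβa : a ≤ β := by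
    rw [hβ, le_div_iff₀ hApos]; exact hfact1
  have hβpos : 0 < β := lt_of_lt_of_le hapos hβa
  set α := 3 * A / β ^ 3 with hα
  have hαβ : α * β ^ 3 = 3 * A := by
    rw [hα]; field_simp
  have hα0 : 0 ≤ α := by rw [hα]; positivity
  obtain ⟨κ, hκ0, hκ2⟩ : ∃ κ : ℝ, 0 ≤ κ ∧ κ ^ 2 = α :=
    ⟨Real.sqrt α, Real.sqrt_nonneg _, Real.sq_sqrt hα0⟩
  -- single crossing
  have hDconc : ConcaveOn ℝ (Icc 0 a) (fun t => Real.sqrt (v t) - κ * (β - t)) := by
    refine hconc.sub ⟨convex_Icc 0 a, ?_⟩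
    intro x _ y _ p q _ _ hpq
    have hq : q = 1 - p := by linarith
    subst hq
    simp only [smul_eq_mul]
    apply le_of_eq
    ring
  obtain ⟨t1, t2, ht1, ht12, ht2, hcross⟩ := bo_single_crossing ha hDconc
  have hpt : ∀ t ∈ Icc 0 a, (t - t1) * (t - t2) * (v t - α * (β - t) ^ 2) ≤ 0 := by
    intro t ht
    have h1 : (t - t1) * (t - t2) * (Real.sqrt (v t) - κ * (β - t)) ≤ 0 := hcross t ht
    have hS : 0 ≤ Real.sqrt (v t) + κ * (β - t) :=
      add_nonneg (hw0 t) (mul_nonneg hκ0 (by linarith [ht.2]))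
    have e : (t - t1) * (t - t2) * (v t - α * (β - t) ^ 2)
        = ((t - t1) * (t - t2) * (Real.sqrt (v t) - κ * (β - t)))
          * (Real.sqrt (v t) + κ * (β - t)) := by
      linear_combination (-((t - t1) * (t - t2))) * hw2 t
        + ((t - t1) * (t - t2) * (β - t) ^ 2) * hκ2
    rw [e]
    exact mul_nonpos_of_nonpos_of_nonneg h1 hS
  -- (I1)
  have hI1 : 0 ≤ ∫ t in (0:ℝ)..a, -((t - t1) * (t - t2) * (v t - α * (β - t) ^ 2)) :=
    intervalIntegral.integral_nonneg ha (fun t ht => neg_nonneg.mpr (hpt t ht))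
  have e1 : (fun t : ℝ => -((t - t1) * (t - t2) * (v t - α * (β - t) ^ 2)))
      = fun t : ℝ => (α * β ^ 2 * (t1 * t2)
            + (-(α * (β ^ 2 * (t1 + t2) + 2 * β * (t1 * t2)))) * t
            + α * (β ^ 2 + 2 * β * (t1 + t2) + t1 * t2) * t ^ 2
            + (-(α * (2 * β + (t1 + t2)))) * t ^ 3 + α * t ^ 4)
          - (t1 * t2 + (-(t1 + t2)) * t + 1 * t ^ 2) * v t := by
    funext t; ring
  rw [e1, intervalIntegral.integral_sub
    (Continuous.intervalIntegrable (by fun_prop) _ _)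
    (hv.continuousOn_mul (g := fun t : ℝ => t1 * t2 + (-(t1 + t2)) * t + 1 * t ^ 2)
      (by fun_prop)),
    bo_int_quad_mul hv, bo_int_quartic] at hI1
  -- (I2)
  have hI2 : 0 ≤ ∫ t in a..β, (α * β ^ 2 * (t1 * t2)
            + (-(α * (β ^ 2 * (t1 + t2) + 2 * β * (t1 * t2)))) * t
            + α * (β ^ 2 + 2 * β * (t1 + t2) + t1 * t2) * t ^ 2
            + (-(α * (2 * β + (t1 + t2)))) * t ^ 3 + α * t ^ 4) := by
    refine intervalIntegral.integral_nonneg hβa (fun t ht => ?_)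
    have e : α * β ^ 2 * (t1 * t2)
            + (-(α * (β ^ 2 * (t1 + t2) + 2 * β * (t1 * t2)))) * t
            + α * (β ^ 2 + 2 * β * (t1 + t2) + t1 * t2) * t ^ 2
            + (-(α * (2 * β + (t1 + t2)))) * t ^ 3 + α * t ^ 4
          = α * ((t - t1) * (t - t2) * (β - t) ^ 2) := by ring
    rw [e]
    have h1 : 0 ≤ t - t1 := by linarith [ht.1]
    have h2 : 0 ≤ t - t2 := by linarith [ht.1]
    exact mul_nonneg hα0 (mul_nonneg (mul_nonneg h1 h2) (sq_nonneg _))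
  rw [bo_int_quartic] at hI2
  -- conclusion
  have hkey : α * β ^ 2 * (t1 * t2) * (β - 0)
        + (-(α * (β ^ 2 * (t1 + t2) + 2 * β * (t1 * t2)))) * (β ^ 2 - 0 ^ 2) / 2
        + α * (β ^ 2 + 2 * β * (t1 + t2) + t1 * t2) * (β ^ 3 - 0 ^ 3) / 3
        + (-(α * (2 * β + (t1 + t2)))) * (β ^ 4 - 0 ^ 4) / 4 + α * (β ^ 5 - 0 ^ 5) / 5
      = t1 * t2 * A - (t1 + t2) * B + A * β ^ 2 / 10 := by
    linear_combination (t1 * t2 / 3 - β * (t1 + t2) / 12 + β ^ 2 / 30) * hαβ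
      - ((t1 + t2) / 4) * hβA
  have hMle : M ≤ A * β ^ 2 / 10 := by linarith
  have h5 : A * M ≤ A * (A * β ^ 2 / 10) := mul_le_mul_of_nonneg_left hMle hA0
  have e3 : A * (A * β ^ 2 / 10) = 8 / 5 * B ^ 2 := by
    have e4 : A * (A * β ^ 2 / 10) = (β * A) ^ 2 / 10 := by ring
    rw [e4, hβA]; ring
  linarith

/-- Sharp one-dimensional Berwald inequality for squares of concave functions. -/
theorem berwald_one (r : ℝ → ℝ) (a : ℝ) (ha : 0 ≤ a) (hc : ConcaveOn ℝ (Icc 0 a) r)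
    (han : AntitoneOn r (Icc 0 a)) (h0 : ∀ t ∈ Icc 0 a, 0 ≤ r t) :
    (∫ t in (0:ℝ)..a, (r t) ^ 2) * (∫ t in (0:ℝ)..a, t ^ 2 * (r t) ^ 2) ≤
      8 / 5 * (∫ t in (0:ℝ)..a, t * (r t) ^ 2) ^ 2 := by
  have hconc : ConcaveOn ℝ (Icc 0 a) (fun t => Real.sqrt ((r t) ^ 2)) := by
    refine hc.congr (fun t ht => ?_)
    exact (Real.sqrt_sq (h0 t ht)).symm
  have hanti : AntitoneOn (fun t => (r t) ^ 2) (Icc 0 a) := by
    intro x hx y hy hxy
    exact pow_le_pow_left₀ (h0 y hy) (han hx hy hxy) 2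
  have hv : IntervalIntegrable (fun t => (r t) ^ 2) volume 0 a := by
    apply AntitoneOn.intervalIntegrable
    rwa [uIcc_of_le ha]
  exact bo_half_line (fun t => (r t) ^ 2) a ha (fun t => sq_nonneg _) hconc hv

end Vale.Agent.Lib.P254
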