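import Vale.Agent.Lib.P254.Sec.Meas

open MeasureTheory Set

namespace Vale.Agent.Lib.P254

variable {K : Set (Fin 3 → ℝ)}

/-- A measurable function that is bounded on `(0, R]` and vanishes to the right of `R` is
integrable on the positive half line. -/
theorem jn_integrableOn (f : ℝ → ℝ) (hf : Measurable f) (R M : ℝ)
    (hfB : ∀ z, 0 < z → z ≤ R → |f z| ≤ M) (hfR : ∀ z, R < z → f z = 0) :
    IntegrableOn f (Ioi (0:ℝ)) := by
  have h1 : IntegrableOn f (Ioc (0:ℝ) R) := by
    apply Measure.integrableOn_of_bounded (M := M) (by simp) hf.aestronglyMeasurable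
    rw [ae_restrict_iff' measurableSet_Ioc]
    exact Filter.Eventually.of_forall (fun z hz => by
      rw [Real.norm_eq_abs]; exact hfB z hz.1 hz.2)
  apply h1.of_forall_sdiff_eq_zero measurableSet_Ioi
  intro z hz
  apply hfR
  by_contra hle
  push Not at hle
  exact hz.2 ⟨hz.1, hle⟩

/-- Jensen for the convex body: a weighted average of points on the tops of fibres stays under
the top of the fibre over the averaged base point. -/
theorem hgt_jensen (hK : Uncond3 K) (w ξ : ℝ → ℝ) (hw : Measurable w) (hξ : Measurable ξ)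
    (hw0 : ∀ z, 0 ≤ w z) (R : ℝ) (hwR : ∀ z, R < z → w z = 0) (hwB : ∀ z, w z ≤ R)
    (hξB : ∀ z, |ξ z| ≤ R) (hw1 : ∫ z in Ioi (0:ℝ), w z = 1)
    (hmem : ∀ z, 0 < z → w z ≠ 0 → ![z, ξ z, 0] ∈ K) :
    ∫ z in Ioi (0:ℝ), w z * hgt K z (ξ z) ≤
      hgt K (∫ z in Ioi (0:ℝ), w z * z) (∫ z in Ioi (0:ℝ), w z * ξ z) := by
  obtain ⟨R', -, hR'B, -, -, -⟩ := hgt_bound hK
  have hdm : Measurable (fun z => ENNReal.ofReal (w z)) := ENNReal.measurable_ofReal.comp hw
  have hwint : IntegrableOn w (Ioi (0:ℝ)) :=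
    jn_integrableOn w hw R R (fun z _ _ => by rw [abs_of_nonneg (hw0 z)]; exact hwB z) hwR
  have hprob : IsProbabilityMeasure
      ((volume.restrict (Ioi (0:ℝ))).withDensity (fun z => ENNReal.ofReal (w z))) := by
    constructor
    rw [withDensity_apply _ MeasurableSet.univ, Measure.restrict_univ,
      ← ofReal_integral_eq_lintegral_ofReal hwint (Filter.Eventually.of_forall hw0), hw1]
    exact ENNReal.ofReal_one
  -- integrals against the weighted measure
  have hconv : ∀ g : ℝ → ℝ,
      ∫ z, g z ∂((volume.restrict (Ioi (0:ℝ))).withDensity (fun z => ENNReal.ofReal (w z)))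
        = ∫ z in Ioi (0:ℝ), w z * g z := by
    intro g
    rw [integral_withDensity_eq_integral_toReal_smul hdm
      (Filter.Eventually.of_forall (fun z => ENNReal.ofReal_lt_top))]
    apply integral_congr_ae
    exact Filter.Eventually.of_forall (fun z => by
      simp only [ENNReal.toReal_ofReal (hw0 z), smul_eq_mul])
  -- integrability of functions bounded on `(0, R]`
  have hint : ∀ g : ℝ → ℝ, Measurable g → ∀ M : ℝ, (∀ z, 0 < z → z ≤ R → |g z| ≤ M) →
      Integrable g
        ((volume.restrict (Ioi (0:ℝ))).withDensity (fun z => ENNReal.ofReal (w z))) := by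
    intro g hg M hgM
    apply Integrable.of_bound hg.aestronglyMeasurable M
    rw [ae_withDensity_iff hdm, ae_restrict_iff' measurableSet_Ioi]
    refine Filter.Eventually.of_forall (fun z hz hne => ?_)
    rw [Real.norm_eq_abs]
    apply hgM z hz
    by_contra hlt
    push Not at hlt
    apply hne
    rw [hwR z hlt, ENNReal.ofReal_zero]
  have hmh : Measurable (fun z => hgt K z (ξ z)) :=
    (measurable_hgt hK).comp (measurable_id.prodMk hξ)
  have hFi : ∀ i : Fin 3, Integrable (fun z => (![z, ξ z, hgt K z (ξ z)] : Fin 3 → ℝ) i)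
      ((volume.restrict (Ioi (0:ℝ))).withDensity (fun z => ENNReal.ofReal (w z))) := by
    intro i
    fin_cases i
    · exact hint (fun z => z) measurable_id R (fun z hz hzR => by rw [abs_of_pos hz]; exact hzR)
    · exact hint ξ hξ R (fun z _ _ => hξB z)
    · exact hint (fun z => hgt K z (ξ z)) hmh R' (fun z _ _ => by
        rw [abs_of_nonneg (hgt_nonneg hK _ _)]; exact hR'B _ _)
  have hFint : Integrable (fun z => (![z, ξ z, hgt K z (ξ z)] : Fin 3 → ℝ))
      ((volume.restrict (Ioi (0:ℝ))).withDensity (fun z => ENNReal.ofReal (w z))) :=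
    Integrable.of_eval hFi
  have hFmem : ∀ᵐ z ∂((volume.restrict (Ioi (0:ℝ))).withDensity
      (fun z => ENNReal.ofReal (w z))), (![z, ξ z, hgt K z (ξ z)] : Fin 3 → ℝ) ∈ K := by
    rw [ae_withDensity_iff hdm, ae_restrict_iff' measurableSet_Ioi]
    refine Filter.Eventually.of_forall (fun z hz hne => ?_)
    apply hgt_mem hK
    apply hmem z hz
    intro h0
    apply hne
    rw [h0, ENNReal.ofReal_zero]
  have hP := hK.2.1.integral_mem hK.1.isClosed hFmem hFint
  have hc : ∀ i : Fin 3,
      (∫ z, (![z, ξ z, hgt K z (ξ z)] : Fin 3 → ℝ)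
        ∂((volume.restrict (Ioi (0:ℝ))).withDensity (fun z => ENNReal.ofReal (w z)))) i
        = ∫ z in Ioi (0:ℝ), w z * (![z, ξ z, hgt K z (ξ z)] : Fin 3 → ℝ) i := by
    intro i
    rw [eval_integral hFi i, hconv]
  have hvec : (∫ z, (![z, ξ z, hgt K z (ξ z)] : Fin 3 → ℝ)
        ∂((volume.restrict (Ioi (0:ℝ))).withDensity (fun z => ENNReal.ofReal (w z))))
      = ![∫ z in Ioi (0:ℝ), w z * z, ∫ z in Ioi (0:ℝ), w z * ξ z,
          ∫ z in Ioi (0:ℝ), w z * hgt K z (ξ z)] := by
    funext i
    fin_cases i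
    · exact hc 0
    · exact hc 1
    · exact hc 2
  rw [hvec] at hP
  exact le_trans (le_abs_self _) ((mem_iff_hgt hK _ _ _).1 hP).2

end Vale.Agent.Lib.P254
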