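import Vale.Agent.Lib.P254.Sec.HgtA

open MeasureTheory Set

namespace Vale.Agent.Lib.P254

variable {K : Set (Fin 3 → ℝ)}

/-- The map `x ↦ (z, x, 0)` is continuous. -/
theorem hb_cont (z : ℝ) : Continuous (fun x : ℝ => (![z, x, 0] : Fin 3 → ℝ)) := by
  refine continuous_pi (fun i => ?_)
  fin_cases i
  · exact continuous_const
  · exact continuous_id
  · exact continuous_const

/-- The shadow of the section at height `z` is compact. -/
theorem hb_shadow_compact (hK : Uncond3 K) {R : ℝ}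
    (hR : ∀ z x, ![z, x, 0] ∈ K → |z| ≤ R ∧ |x| ≤ R) (z : ℝ) :
    IsCompact {x : ℝ | ![z, x, 0] ∈ K} := by
  have hcl : IsClosed {x : ℝ | ![z, x, 0] ∈ K} := hK.1.isClosed.preimage (hb_cont z)
  refine (isCompact_Icc (a := -R) (b := R)).of_isClosed_subset hcl ?_
  intro x hx
  have h := (hR z x hx).2
  exact abs_le.mp h

/-- Every section profile `x ↦ hgt K z x` is a profile in the sense of `Prof`, with a uniform
bound for its support. -/
theorem hgt_prof (hK : Uncond3 K) {R : ℝ}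
    (hR : ∀ z x, ![z, x, 0] ∈ K → |z| ≤ R ∧ |x| ≤ R) (hR0 : 0 ≤ R) (z : ℝ) :
    ∃ X : ℝ, X ≤ R ∧ Prof (hgt K z) X ∧ ∀ x, 0 ≤ x → x ≤ X → 0 < hgt K z 0 → ![z, x, 0] ∈ K := by
  by_cases hne : ({x : ℝ | ![z, x, 0] ∈ K}).Nonempty
  · -- the shadow is nonempty
    have hcomp := hb_shadow_compact hK hR z
    have hbdd : BddAbove {x : ℝ | ![z, x, 0] ∈ K} :=
      ⟨R, fun x hx => le_trans (le_abs_self x) (hR z x hx).2⟩
    have hXmem : ![z, sSup {x : ℝ | ![z, x, 0] ∈ K}, 0] ∈ K := hcomp.sSup_mem hne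
    obtain ⟨x0, hx0⟩ := hne
    have h0mem : ![z, 0, 0] ∈ K :=
      shadow_mono hK (le_refl |z|) (by rw [abs_zero]; exact abs_nonneg x0) hx0
    have hX0 : 0 ≤ sSup {x : ℝ | ![z, x, 0] ∈ K} := le_csSup hbdd h0mem
    have hmem : ∀ x, 0 ≤ x → x ≤ sSup {x : ℝ | ![z, x, 0] ∈ K} → ![z, x, 0] ∈ K := by
      intro x hx hxX
      refine shadow_mono hK (le_refl |z|) ?_ hXmem
      rw [abs_of_nonneg hx, abs_of_nonneg hX0]
      exact hxX
    refine ⟨sSup {x : ℝ | ![z, x, 0] ∈ K}, ?_, ?_, fun x hx hxX _ => hmem x hx hxX⟩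
    · exact le_trans (le_abs_self _) (hR z _ hXmem).2
    · refine ⟨hX0, hgt_nonneg hK z, ?_, ?_, ?_⟩
      · intro x hx x' hx' hxx'
        have hx0' : (0:ℝ) ≤ x := hx
        have hx1' : (0:ℝ) ≤ x' := hx'
        refine hgt_anti hK (le_refl |z|) ?_
        rw [abs_of_nonneg hx0', abs_of_nonneg hx1']
        exact hxx'
      · refine ⟨convex_Icc 0 _, ?_⟩
        intro x1 hx1 x2 hx2 a b ha hb hab
        have h1 := hmem x1 hx1.1 hx1.2
        have h2 := hmem x2 hx2.1 hx2.2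
        have h := (hgt_concave hK h1 h2 ha hb hab).2
        have hz : a * z + b * z = z := by rw [← add_mul, hab, one_mul]
        rw [hz] at h
        simp only [smul_eq_mul]
        exact h
      · intro x hx
        apply hgt_eq_zero_of_notMem hK
        intro hxmem
        have : x ≤ sSup {x : ℝ | ![z, x, 0] ∈ K} := le_csSup hbdd hxmem
        exact absurd hx (not_lt.mpr this)
  · -- the shadow is empty
    have hempty : ∀ x : ℝ, ![z, x, 0] ∉ K := by
      intro x hx
      exact hne ⟨x, hx⟩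
    have hzero : ∀ x : ℝ, hgt K z x = 0 := fun x => hgt_eq_zero_of_notMem hK (hempty x)
    refine ⟨0, hR0, ?_, ?_⟩
    · refine ⟨le_refl 0, fun x => (hzero x).ge, ?_, ?_, fun x _ => hzero x⟩
      · intro x _ x' _ _
        rw [hzero x, hzero x']
      · refine ⟨convex_Icc 0 0, ?_⟩
        intro x1 _ x2 _ a b _ _ _
        rw [hzero x1, hzero x2, hzero]
        simp
    · intro x _ _ hpos
      rw [hzero 0] at hpos
      exact absurd hpos (lt_irrefl 0)

end Vale.Agent.Lib.P254
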