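import Vale.Agent.Lib.P254.Sec.HgtA

open MeasureTheory Set

namespace Vale.Agent.Lib.P254

variable {K : Set (Fin 3 → ℝ)}

private lemma me_eta (q : Fin 3 → ℝ) : (![q 0, q 1, q 2] : Fin 3 → ℝ) = q := by
  ext j
  fin_cases j <;> rfl

private lemma me_proj_cont : Continuous (fun q : Fin 3 → ℝ => (q 0, q 1)) :=
  (continuous_apply 0).prodMk (continuous_apply 1)

private lemma me_half_closed (a : ℝ) : IsClosed {q : Fin 3 → ℝ | a ≤ q 2} :=
  isClosed_le continuous_const (continuous_apply 2)

/-- For a positive level the superlevel set of the fibre top is the shadow of the compact set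
of the points of the body above that level. -/
private lemma me_superlevel (hK : Uncond3 K) {a : ℝ} (ha : 0 < a) :
    (fun p : ℝ × ℝ => hgt K p.1 p.2) ⁻¹' Ici a =
      (fun q : Fin 3 → ℝ => (q 0, q 1)) '' (K ∩ {q : Fin 3 → ℝ | a ≤ q 2}) := by
  ext p
  obtain ⟨z, x⟩ := p
  simp only [mem_preimage, mem_Ici, mem_image, mem_inter_iff, mem_ofPred_eq, Prod.mk.injEq]
  constructor
  · intro h
    have hpos : 0 < hgt K z x := lt_of_lt_of_le ha h
    have hmem : ![z, x, 0] ∈ K := by
      by_contra hn
      rw [hgt_eq_zero_of_notMem hK hn] at hpos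
      exact lt_irrefl _ hpos
    refine ⟨![z, x, hgt K z x], ⟨hgt_mem hK hmem, ?_⟩, ?_, ?_⟩
    · simpa using h
    · simp
    · simp
  · rintro ⟨q, ⟨hq, haq⟩, h0, h1⟩
    have hq' : ![z, x, q 2] ∈ K := by
      have := me_eta q
      rw [h0, h1] at this
      rw [this]
      exact hq
    have := ((mem_iff_hgt hK z x (q 2)).1 hq').2
    exact le_trans haq (le_trans (le_abs_self _) this)

/-- The fibre top is a measurable function of the two base coordinates. -/
theorem measurable_hgt (hK : Uncond3 K) : Measurable (fun p : ℝ × ℝ => hgt K p.1 p.2) := by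
  refine measurable_of_Ici fun a => ?_
  by_cases ha : 0 < a
  · rw [me_superlevel hK ha]
    have hc : IsCompact (K ∩ {q : Fin 3 → ℝ | a ≤ q 2}) := hK.1.inter_right (me_half_closed a)
    exact (hc.image me_proj_cont).isClosed.measurableSet
  · have hu : (fun p : ℝ × ℝ => hgt K p.1 p.2) ⁻¹' Ici a = univ := by
      ext p
      simp only [mem_preimage, mem_Ici, mem_univ, iff_true]
      exact le_trans (not_lt.1 ha) (hgt_nonneg hK p.1 p.2)
    rw [hu]
    exact MeasurableSet.univ

theorem measurable_hgt_right (hK : Uncond3 K) (z : ℝ) : Measurable (hgt K z) :=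
  (measurable_hgt hK).comp (measurable_const.prodMk measurable_id)

theorem measurable_tailInt_hgt (hK : Uncond3 K) (c : ℝ) :
    Measurable (fun z => tailInt (hgt K z) c) := by
  have h := (measurable_hgt hK).stronglyMeasurable.integral_prod_right'
    (ν := (volume : Measure ℝ).restrict (Ioi c))
  exact h.measurable

theorem measurable_cv (hK : Uncond3 K) : Measurable (cv K) :=
  measurable_tailInt_hgt hK 0

end Vale.Agent.Lib.P254
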