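import Vale.Agent.Lib.P254.Sec.QuantA
import Vale.Agent.Lib.P254.Sec.HgtB
import Vale.Agent.Lib.P254.Sec.Meas

open MeasureTheory Set

namespace Vale.Agent.Lib.P254

variable {K : Set (Fin 3 → ℝ)}

/-- The integral of a section profile over the half line is nonnegative. -/
theorem mq_tail_nonneg (hK : Uncond3 K) (z : ℝ) : 0 ≤ tailInt (hgt K z) 0 := by
  unfold tailInt
  exact integral_nonneg (fun x => hgt_nonneg hK z x)

/-- The quantile points of the sections are nonnegative. -/
theorem mq_quant_nonneg (hK : Uncond3 K) {θ : ℝ} (h0 : 0 < θ) (h1 : θ ≤ 1) (z : ℝ) :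
    0 ≤ quant (hgt K z) θ := by
  obtain ⟨R, hR0, _, _, _, hRK⟩ := hgt_bound hK
  obtain ⟨X, _, hprof, _⟩ := hgt_prof hK hRK hR0 z
  rcases (mq_tail_nonneg hK z).lt_or_eq with hv | hv
  · exact (quant_mem hprof hv h0 h1).1
  · rw [quant_of_tail_zero (fun x => hgt_nonneg hK z x) hv.symm θ]

/-- For `c > 0`: the quantile point of the section at height `z` is at least `c` exactly when
the section has positive area and the tail to the right of `c` still has the fraction `θ`. -/
theorem mq_le_quant_iff (hK : Uncond3 K) {θ : ℝ} (h0 : 0 < θ) (h1 : θ ≤ 1) {c : ℝ}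
    (hc : 0 < c) (z : ℝ) :
    c ≤ quant (hgt K z) θ ↔
      0 < tailInt (hgt K z) 0 ∧ θ * tailInt (hgt K z) 0 ≤ tailInt (hgt K z) c := by
  obtain ⟨R, hR0, _, _, _, hRK⟩ := hgt_bound hK
  obtain ⟨X, _, hprof, _⟩ := hgt_prof hK hRK hR0 z
  constructor
  · intro hcq
    rcases (mq_tail_nonneg hK z).lt_or_eq with hv | hv
    · exact ⟨hv, (le_quant_iff hprof hv h0 h1 hc.le).1 hcq⟩
    · exfalso
      rw [quant_of_tail_zero (fun x => hgt_nonneg hK z x) hv.symm θ] at hcq
      exact absurd hcq (not_le.mpr hc)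
  · rintro ⟨hv, hle⟩
    exact (le_quant_iff hprof hv h0 h1 hc.le).2 hle

/-- The quantile points of the sections depend measurably on the height. -/
theorem measurable_quant_hgt (hK : Uncond3 K) {θ : ℝ} (h0 : 0 < θ) (h1 : θ ≤ 1) :
    Measurable (fun z => quant (hgt K z) θ) := by
  have hv : Measurable (fun z => tailInt (hgt K z) 0) := measurable_tailInt_hgt hK 0
  refine measurable_of_Ici fun c => ?_
  rcases le_or_gt c 0 with hc | hc
  · have e : (fun z => quant (hgt K z) θ) ⁻¹' Ici c = univ := by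
      ext z
      simp only [mem_preimage, mem_Ici, mem_univ, iff_true]
      exact hc.trans (mq_quant_nonneg hK h0 h1 z)
    rw [e]
    exact MeasurableSet.univ
  · have e : (fun z => quant (hgt K z) θ) ⁻¹' Ici c
        = {z | 0 < tailInt (hgt K z) 0} ∩
          {z | θ * tailInt (hgt K z) 0 ≤ tailInt (hgt K z) c} := by
      ext z
      simp only [mem_preimage, mem_Ici, mem_inter_iff, mem_ofPred_eq]
      exact mq_le_quant_iff hK h0 h1 hc z
    rw [e]
    exact (measurableSet_lt measurable_const hv).inter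
      (measurableSet_le (hv.const_mul θ) (measurable_tailInt_hgt hK c))

theorem measurable_hgt_quant (hK : Uncond3 K) {θ : ℝ} (h0 : 0 < θ) (h1 : θ ≤ 1) :
    Measurable (fun z => hgt K z (quant (hgt K z) θ)) := by
  have hq := measurable_quant_hgt hK h0 h1
  have hp : Measurable (fun z : ℝ => ((z, quant (hgt K z) θ) : ℝ × ℝ)) :=
    Measurable.prodMk measurable_id hq
  exact (measurable_hgt hK).comp hp

end Vale.Agent.Lib.P254
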