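import Vale.Agent.Lib.P254.Sec.QuantA

open MeasureTheory Set

namespace Vale.Agent.Lib.P254

variable {g : ℝ → ℝ} {X : ℝ}

/-- The mass of a strip is the difference of two tail integrals. -/
theorem qb_strip (hg : Prof g X) {a b : ℝ} (ha : 0 ≤ a) (hab : a ≤ b) :
    tailInt g a - tailInt g b = ∫ x in a..b, g x := by
  unfold tailInt
  rw [intervalIntegral.integral_of_le hab]
  have hI := hg.integrableOn
  have h1 : IntegrableOn g (Ioc a b) := hI.mono_set (fun x hx => lt_of_le_of_lt ha hx.1)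
  have h2 : IntegrableOn g (Ioi b) :=
    hI.mono_set (fun x hx => lt_of_le_of_lt (ha.trans hab) hx)
  have hd : Disjoint (Ioc a b) (Ioi b) :=
    Set.disjoint_left.2 (fun x hx hx' => not_lt.2 hx.2 hx')
  have hu := MeasureTheory.setIntegral_union hd measurableSet_Ioi h1 h2
  rw [Ioc_union_Ioi_eq_Ioi hab] at hu
  linarith

theorem qb_intervalIntegrable (hg : Prof g X) {a b : ℝ} (ha : 0 ≤ a) (hab : a ≤ b) :
    IntervalIntegrable g volume a b :=
  (intervalIntegrable_iff_integrableOn_Ioc_of_le hab).2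
    (hg.integrableOn.mono_set (fun _ hx => lt_of_le_of_lt ha hx.1))

/-- The mass of a strip is at most its width times the value at its left end. -/
theorem qb_strip_le (hg : Prof g X) {a b : ℝ} (ha : 0 ≤ a) (hab : a ≤ b) :
    ∫ x in a..b, g x ≤ (b - a) * g a := by
  have hint : IntervalIntegrable g volume a b := qb_intervalIntegrable hg ha hab
  have hc : IntervalIntegrable (fun _ : ℝ => g a) volume a b := intervalIntegrable_const
  have hm := intervalIntegral.integral_mono_on hab hint hc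
    (fun x hx => hg.anti (mem_Ici.2 ha) (mem_Ici.2 (ha.trans hx.1)) hx.1)
  rw [intervalIntegral.integral_const, smul_eq_mul] at hm
  exact hm

/-- The mass of a strip is at least its width times the value at its right end. -/
theorem qb_le_strip (hg : Prof g X) {a b : ℝ} (ha : 0 ≤ a) (hab : a ≤ b) :
    (b - a) * g b ≤ ∫ x in a..b, g x := by
  have hint : IntervalIntegrable g volume a b := qb_intervalIntegrable hg ha hab
  have hc : IntervalIntegrable (fun _ : ℝ => g b) volume a b := intervalIntegrable_const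
  have hm := intervalIntegral.integral_mono_on hab hc hint
    (fun x hx => hg.anti (mem_Ici.2 (ha.trans hx.1)) (mem_Ici.2 (ha.trans hab)) hx.2)
  rw [intervalIntegral.integral_const, smul_eq_mul] at hm
  exact hm

/-- Equal-mass strips get wider to the right: the quantile points are convex in the level. -/
theorem quant_step (hg : Prof g X) (hv : 0 < tailInt g 0) {θ δ : ℝ} (hθ : 0 < θ) (hδ : 0 < δ)
    (h : θ + 2 * δ ≤ 1) :
    quant g (θ + δ) - quant g (θ + 2 * δ) ≤ quant g θ - quant g (θ + δ) := by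
  have hθ1 : θ ≤ 1 := by linarith
  have hθδ0 : 0 < θ + δ := by linarith
  have hθδ1 : θ + δ ≤ 1 := by linarith
  have hθ2δ0 : 0 < θ + 2 * δ := by linarith
  have hm1 := quant_mem hg hv hθδ0 hθδ1
  have hm2 := quant_mem hg hv hθ2δ0 h
  have h10 : quant g (θ + δ) ≤ quant g θ := quant_anti hg hv hθ (by linarith) hθδ1
  have h21 : quant g (θ + 2 * δ) ≤ quant g (θ + δ) :=
    quant_anti hg hv hθδ0 (by linarith) h
  have t0 := quant_tail hg hv hθ hθ1
  have t1 := quant_tail hg hv hθδ0 hθδ1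
  have t2 := quant_tail hg hv hθ2δ0 h
  have s1 := qb_strip hg hm1.1 h10
  have s2 := qb_strip hg hm2.1 h21
  have u1 := qb_strip_le hg hm1.1 h10
  have u2 := qb_le_strip hg hm2.1 h21
  have hδv : 0 < δ * tailInt g 0 := mul_pos hδ hv
  have e1 : ∫ x in quant g (θ + δ)..quant g θ, g x = δ * tailInt g 0 := by
    rw [← s1, t0, t1]
    ring
  have e2 : ∫ x in quant g (θ + 2 * δ)..quant g (θ + δ), g x = δ * tailInt g 0 := by
    rw [← s2, t1, t2]
    ring
  rw [e1] at u1
  rw [e2] at u2
  have hgpos : 0 < g (quant g (θ + δ)) := by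
    rcases (hg.nonneg (quant g (θ + δ))).lt_or_eq with hp | hz
    · exact hp
    · rw [← hz, mul_zero] at u1
      linarith
  exact le_of_mul_le_mul_right (le_trans u2 u1) hgpos

theorem quant_val_mono (hg : Prof g X) (hv : 0 < tailInt g 0) {θ θ' : ℝ} (h0 : 0 < θ)
    (h : θ ≤ θ') (h1 : θ' ≤ 1) : g (quant g θ) ≤ g (quant g θ') := by
  have ha := quant_anti hg hv h0 h h1
  have hm := quant_mem hg hv (lt_of_lt_of_le h0 h) h1
  exact hg.anti (mem_Ici.2 hm.1) (mem_Ici.2 (hm.1.trans ha)) ha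

/-- The values of the profile at the quantile points are concave in the level. -/
theorem quant_val_conc (hg : Prof g X) (hv : 0 < tailInt g 0) {θ δ : ℝ} (hθ : 0 < θ)
    (hδ : 0 < δ) (h : θ + 2 * δ ≤ 1) :
    g (quant g θ) + g (quant g (θ + 2 * δ)) ≤ 2 * g (quant g (θ + δ)) := by
  have hθ1 : θ ≤ 1 := by linarith
  have hθδ0 : 0 < θ + δ := by linarith
  have hθδ1 : θ + δ ≤ 1 := by linarith
  have hθ2δ0 : 0 < θ + 2 * δ := by linarith
  have hm0 := quant_mem hg hv hθ hθ1
  have hm1 := quant_mem hg hv hθδ0 hθδ1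
  have hm2 := quant_mem hg hv hθ2δ0 h
  have hstep := quant_step hg hv hθ hδ h
  have hmid : quant g (θ + δ) ≤ (1 / 2 : ℝ) * quant g θ + (1 / 2 : ℝ) * quant g (θ + 2 * δ) := by
    linarith
  have hanti : g ((1 / 2 : ℝ) * quant g θ + (1 / 2 : ℝ) * quant g (θ + 2 * δ))
      ≤ g (quant g (θ + δ)) :=
    hg.anti (mem_Ici.2 hm1.1) (mem_Ici.2 (hm1.1.trans hmid)) hmid
  have hconc := hg.conc.2 (mem_Icc.2 hm0) (mem_Icc.2 hm2)
    (by norm_num : (0 : ℝ) ≤ 1 / 2) (by norm_num : (0 : ℝ) ≤ 1 / 2)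
    (by norm_num : (1 / 2 : ℝ) + 1 / 2 = 1)
  rw [smul_eq_mul, smul_eq_mul, smul_eq_mul, smul_eq_mul] at hconc
  linarith

end Vale.Agent.Lib.P254
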