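import Vale.Agent.Lib.P254.Sec.QuantA

open MeasureTheory Set

namespace Vale.Agent.Lib.P254

variable {g : ℝ → ℝ} {X : ℝ}

/-- The first-moment integrand of a profile is integrable on the half line. -/
theorem qc_integrableOn_mul (hg : Prof g X) : IntegrableOn (fun x => x * g x) (Ioi 0) := by
  have hb : IntegrableOn (fun x => X * g x) (Ioi 0) := hg.integrableOn.const_mul X
  refine Integrable.mono' hb ?_ ?_
  · exact (continuous_id.aestronglyMeasurable).mul hg.integrableOn.aestronglyMeasurable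
  · refine (ae_restrict_iff' measurableSet_Ioi).mpr (Filter.Eventually.of_forall fun x hx => ?_)
    have hx0 : (0:ℝ) < x := hx
    rw [Real.norm_eq_abs, abs_of_nonneg (mul_nonneg hx0.le (hg.nonneg x))]
    rcases le_or_gt x X with h | h
    · exact mul_le_mul_of_nonneg_right h (hg.nonneg x)
    · rw [hg.zero x h]; simp

/-- The square of a profile is integrable on the half line. -/
theorem qc_integrableOn_sq (hg : Prof g X) : IntegrableOn (fun x => (g x) ^ 2) (Ioi 0) := by
  have hb : IntegrableOn (fun x => g 0 * g x) (Ioi 0) := hg.integrableOn.const_mul (g 0)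
  refine Integrable.mono' hb ?_ ?_
  · exact hg.integrableOn.aestronglyMeasurable.pow 2
  · refine (ae_restrict_iff' measurableSet_Ioi).mpr (Filter.Eventually.of_forall fun x hx => ?_)
    have hx0 : (0:ℝ) < x := hx
    rw [Real.norm_eq_abs, abs_of_nonneg (sq_nonneg (g x)), sq]
    exact mul_le_mul_of_nonneg_right (qa_le_zero hg hx0.le) (hg.nonneg x)

/-- Splitting an integral over a half line at a point to the right. -/
theorem qc_split {f : ℝ → ℝ} (hf : IntegrableOn f (Ioi 0)) {a b : ℝ} (ha : 0 ≤ a)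
    (hab : a ≤ b) :
    ∫ x in Ioi a, f x = (∫ x in Ioc a b, f x) + ∫ x in Ioi b, f x := by
  rw [← Ioc_union_Ioi_eq_Ioi hab]
  exact setIntegral_union (Set.disjoint_left.mpr (fun x hx hx' => not_lt.mpr hx.2 hx'))
    measurableSet_Ioi (hf.mono_set (fun x hx => lt_of_le_of_lt ha hx.1))
    (hf.mono_set (Ioi_subset_Ioi (ha.trans hab)))

/-- The integral of a profile over a bounded strip is a difference of tail integrals. -/
theorem qc_strip (hg : Prof g X) {a b : ℝ} (ha : 0 ≤ a) (hab : a ≤ b) :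
    ∫ x in Ioc a b, g x = tailInt g a - tailInt g b := by
  rw [qa_tail_split hg ha hab]; ring

theorem qc_mul_Ioc (hg : Prof g X) {a b : ℝ} (ha : 0 ≤ a) (hab : a ≤ b) :
    ∫ x in Ioc a b, x * g x ≤ b * (tailInt g a - tailInt g b) := by
  rw [← qc_strip hg ha hab, ← integral_const_mul]
  refine setIntegral_mono_on ((qc_integrableOn_mul hg).mono_set
      (fun x hx => lt_of_le_of_lt ha hx.1))
    ((qa_integrableOn_Ioc hg ha).const_mul b) measurableSet_Ioc (fun x hx => ?_)
  exact mul_le_mul_of_nonneg_right hx.2 (hg.nonneg x)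

theorem qc_mul_Ioi (hg : Prof g X) {a : ℝ} (ha : 0 ≤ a) :
    ∫ x in Ioi a, x * g x ≤ X * tailInt g a := by
  unfold tailInt
  rw [← integral_const_mul]
  refine setIntegral_mono_on ((qc_integrableOn_mul hg).mono_set (Ioi_subset_Ioi ha))
    ((qa_integrableOn_Ioi hg ha).const_mul X) measurableSet_Ioi (fun x hx => ?_)
  rcases le_or_gt x X with h | h
  · exact mul_le_mul_of_nonneg_right h (hg.nonneg x)
  · rw [hg.zero x h]; simp

theorem qc_sq_Ioc (hg : Prof g X) {a b : ℝ} (ha : 0 ≤ a) (hab : a ≤ b) :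
    ∫ x in Ioc a b, (g x) ^ 2 ≤ g a * (tailInt g a - tailInt g b) := by
  rw [← qc_strip hg ha hab, ← integral_const_mul]
  refine setIntegral_mono_on ((qc_integrableOn_sq hg).mono_set
      (fun x hx => lt_of_le_of_lt ha hx.1))
    ((qa_integrableOn_Ioc hg ha).const_mul (g a)) measurableSet_Ioc (fun x hx => ?_)
  rw [sq]
  exact mul_le_mul_of_nonneg_right
    (hg.anti (mem_Ici.mpr ha) (mem_Ici.mpr (ha.trans hx.1.le)) hx.1.le) (hg.nonneg x)

theorem qc_sq_Ioi (hg : Prof g X) {a : ℝ} (ha : 0 ≤ a) :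
    ∫ x in Ioi a, (g x) ^ 2 ≤ g a * tailInt g a := by
  unfold tailInt
  rw [← integral_const_mul]
  refine setIntegral_mono_on ((qc_integrableOn_sq hg).mono_set (Ioi_subset_Ioi ha))
    ((qa_integrableOn_Ioi hg ha).const_mul (g a)) measurableSet_Ioi (fun x hx => ?_)
  have hx' : a < x := hx
  rw [sq]
  exact mul_le_mul_of_nonneg_right
    (hg.anti (mem_Ici.mpr ha) (mem_Ici.mpr (ha.trans hx'.le)) hx'.le) (hg.nonneg x)

/-- The level `j / N` lies in `(0, 1]` for `1 ≤ j ≤ N`. -/
theorem qc_level {N j : ℕ} (hj1 : 1 ≤ j) (hjN : j ≤ N) :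
    0 < (j:ℝ) / N ∧ (j:ℝ) / N ≤ 1 := by
  have hNpos : (0:ℝ) < N := by
    have : 0 < N := lt_of_lt_of_le hj1 hjN
    exact_mod_cast this
  have hjpos : (0:ℝ) < j := by exact_mod_cast hj1
  refine ⟨div_pos hjpos hNpos, ?_⟩
  rw [div_le_one hNpos]
  exact_mod_cast hjN

/-- Riemann-sum bounds for the first strips, by induction on the number of strips. -/
theorem qc_steps (hg : Prof g X) (hv : 0 < tailInt g 0) (N : ℕ) (k : ℕ) (hk : k + 1 ≤ N) :
    (∫ x in Ioi (quant g (((k + 1 : ℕ) : ℝ) / N)), x * g x ≤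
        tailInt g 0 / N * (X + ∑ i ∈ Finset.Icc 1 k, quant g ((i:ℝ) / N))) ∧
    (∫ x in Ioi (quant g (((k + 1 : ℕ) : ℝ) / N)), (g x) ^ 2 ≤
        tailInt g 0 / N * ∑ j ∈ Finset.Icc 1 (k + 1), g (quant g ((j:ℝ) / N))) := by
  have hNpos : (0:ℝ) < N := by
    have : 0 < N := lt_of_lt_of_le (Nat.succ_pos k) hk
    exact_mod_cast this
  induction k with
  | zero =>
    obtain ⟨h0, h1⟩ := qc_level (N := N) (j := 0 + 1) le_rfl hk
    have hq := quant_mem hg hv h0 h1
    have ht := quant_tail hg hv h0 h1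
    have e : (((0 + 1 : ℕ) : ℝ)) / N * tailInt g 0 = tailInt g 0 / N := by
      push_cast; ring
    constructor
    · have h := qc_mul_Ioi hg hq.1
      rw [ht, e] at h
      simp only [Finset.Icc_eq_empty_of_lt Nat.zero_lt_one, Finset.sum_empty, add_zero]
      linarith [h, mul_comm X (tailInt g 0 / N)]
    · have h := qc_sq_Ioi hg hq.1
      rw [ht, e] at h
      simp only [zero_add, Finset.Icc_self, Finset.sum_singleton]
      simp only [zero_add] at h
      linarith [h, mul_comm (g (quant g (((1 : ℕ) : ℝ) / N))) (tailInt g 0 / N)]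
  | succ k ih =>
    obtain ⟨ihF, ihS⟩ := ih (by omega)
    obtain ⟨h0, h1⟩ := qc_level (N := N) (j := k + 1) (by omega) (by omega)
    obtain ⟨h0', h1'⟩ := qc_level (N := N) (j := k + 1 + 1) (by omega) hk
    have hq := quant_mem hg hv h0 h1
    have hq' := quant_mem hg hv h0' h1'
    have ht := quant_tail hg hv h0 h1
    have ht' := quant_tail hg hv h0' h1'
    have hle : ((k + 1 : ℕ) : ℝ) / N ≤ ((k + 1 + 1 : ℕ) : ℝ) / N := by
      apply div_le_div_of_nonneg_right _ hNpos.le
      push_cast; linarith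
    have hanti := quant_anti hg hv h0 hle h1'
    have ediff : tailInt g (quant g (((k + 1 + 1 : ℕ) : ℝ) / N))
        - tailInt g (quant g (((k + 1 : ℕ) : ℝ) / N)) = tailInt g 0 / N := by
      rw [ht, ht']; push_cast; ring
    constructor
    · rw [qc_split (qc_integrableOn_mul hg) hq'.1 hanti]
      have h := qc_mul_Ioc hg hq'.1 hanti
      rw [ediff] at h
      rw [Finset.sum_Icc_succ_top (by omega : 1 ≤ k + 1)]
      have e : tailInt g 0 / N * (X + (∑ i ∈ Finset.Icc 1 k, quant g ((i:ℝ) / N)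
            + quant g (((k + 1 : ℕ) : ℝ) / N)))
          = quant g (((k + 1 : ℕ) : ℝ) / N) * (tailInt g 0 / N)
            + tailInt g 0 / N * (X + ∑ i ∈ Finset.Icc 1 k, quant g ((i:ℝ) / N)) := by ring
      rw [e]
      exact add_le_add h ihF
    · rw [qc_split (qc_integrableOn_sq hg) hq'.1 hanti]
      have h := qc_sq_Ioc hg hq'.1 hanti
      rw [ediff] at h
      rw [Finset.sum_Icc_succ_top (by omega : 1 ≤ k + 1 + 1)]
      have e : tailInt g 0 / N * ((∑ j ∈ Finset.Icc 1 (k + 1), g (quant g ((j:ℝ) / N)))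
            + g (quant g (((k + 1 + 1 : ℕ) : ℝ) / N)))
          = g (quant g (((k + 1 + 1 : ℕ) : ℝ) / N)) * (tailInt g 0 / N)
            + tailInt g 0 / N * ∑ j ∈ Finset.Icc 1 (k + 1), g (quant g ((j:ℝ) / N)) := by ring
      rw [e]
      exact add_le_add h ihS

/-- The last quantile point is the origin. -/
theorem qc_last (hg : Prof g X) (hv : 0 < tailInt g 0) (N : ℕ) (hN : 2 ≤ N) :
    quant g ((((N - 1) + 1 : ℕ) : ℝ) / N) = 0 := by
  have hN' : N - 1 + 1 = N := by omega
  have hNpos : (0:ℝ) < N := by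
    have : 0 < N := by omega
    exact_mod_cast this
  rw [hN', div_self hNpos.ne']
  exact quant_one hg hv

/-- Riemann-sum bound for the first moment through the `N` equal-mass strips. -/
theorem quant_first_moment (hg : Prof g X) (hv : 0 < tailInt g 0) (N : ℕ) (hN : 2 ≤ N) :
    ∫ x in Ioi (0:ℝ), x * g x ≤
      tailInt g 0 / N * (X + ∑ i ∈ Finset.Icc 1 (N - 1), quant g ((i:ℝ) / N)) := by
  have h := (qc_steps hg hv N (N - 1) (by omega)).1
  rw [qc_last hg hv N hN] at h
  exact h

/-- Riemann-sum bound for the integral of the square through the `N` equal-mass strips. -/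
theorem quant_second_moment (hg : Prof g X) (hv : 0 < tailInt g 0) (N : ℕ) (hN : 2 ≤ N) :
    ∫ x in Ioi (0:ℝ), (g x) ^ 2 ≤
      tailInt g 0 / N * ∑ j ∈ Finset.Icc 1 N, g (quant g ((j:ℝ) / N)) := by
  have h := (qc_steps hg hv N (N - 1) (by omega)).2
  rw [qc_last hg hv N hN] at h
  have hN' : N - 1 + 1 = N := by omega
  rw [hN'] at h
  exact h

end Vale.Agent.Lib.P254
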