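import Vale.Agent.Lib.P254.Sec.Defs

open MeasureTheory Set

namespace Vale.Agent.Lib.P254

/-- The chain stays above its last point. -/
theorem st_ge_last (N : ℕ) (X : ℕ → ℝ) (hX : ∀ j, 1 ≤ j → j < N → X (j + 1) ≤ X j) :
    ∀ d j : ℕ, 1 ≤ j → j + d = N → X N ≤ X j := by
  intro d
  induction d with
  | zero =>
    intro j _ hj
    have hjN : j = N := by omega
    rw [hjN]
  | succ d ih =>
    intro j hj1 hj
    have h1 : X N ≤ X (j + 1) := ih (j + 1) (by omega) (by omega)
    have h2 : X (j + 1) ≤ X j := hX j hj1 (by omega)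
    exact h1.trans h2

/-- Interval integrability of `G` between nonnegative points. -/
theorem st_intervalIntegrable (G : ℝ → ℝ) (hGi : IntegrableOn G (Ioi 0)) {a b : ℝ}
    (ha : 0 ≤ a) (hab : a ≤ b) : IntervalIntegrable G volume a b := by
  rw [intervalIntegrable_iff_integrableOn_Ioc_of_le hab]
  exact hGi.mono_set (fun x hx => lt_of_le_of_lt ha hx.1)

/-- One rectangle under the graph. -/
theorem st_rect (G : ℝ → ℝ) (hG : AntitoneOn G (Ici 0)) (hGi : IntegrableOn G (Ioi 0))
    {a b : ℝ} (ha : 0 ≤ a) (hab : a ≤ b) : G b * (b - a) ≤ ∫ x in a..b, G x := by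
  have h1 : ∫ _x in a..b, G b = G b * (b - a) := by
    rw [intervalIntegral.integral_const, smul_eq_mul, mul_comm]
  rw [← h1]
  apply intervalIntegral.integral_mono_on hab
  · exact intervalIntegrable_const
  · exact st_intervalIntegrable G hGi ha hab
  · intro x hx
    exact hG (mem_Ici.mpr (ha.trans hx.1)) (mem_Ici.mpr (ha.trans hab)) hx.2

/-- The staircase bound up to the point with index `k + 1`. -/
theorem st_main (G : ℝ → ℝ) (hG : AntitoneOn G (Ici 0))
    (hGi : IntegrableOn G (Ioi 0)) (N : ℕ) (X : ℕ → ℝ) (hXN : 0 ≤ X N)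
    (hX : ∀ j, 1 ≤ j → j < N → X (j + 1) ≤ X j) :
    ∀ k : ℕ, k + 1 ≤ N → X (k + 1) ≤ X 1 ∧
      ∑ j ∈ Finset.Icc 1 k, G (X j) * (X j - X (j + 1)) ≤ ∫ x in (X (k + 1))..(X 1), G x := by
  intro k
  induction k with
  | zero =>
    intro _
    refine ⟨le_refl _, ?_⟩
    simp
  | succ k ih =>
    intro hk
    obtain ⟨h1, h2⟩ := ih (by omega)
    have h3 : X (k + 1 + 1) ≤ X (k + 1) := hX (k + 1) (by omega) (by omega)
    have h4 : 0 ≤ X (k + 1 + 1) :=
      hXN.trans (st_ge_last N X hX (N - (k + 1 + 1)) (k + 1 + 1) (by omega) (by omega))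
    refine ⟨h3.trans h1, ?_⟩
    rw [Finset.sum_Icc_succ_top (by omega)]
    have h5 := st_rect G hG hGi h4 h3
    have h6 : (∫ x in (X (k + 1 + 1))..(X (k + 1)), G x) + ∫ x in (X (k + 1))..(X 1), G x =
        ∫ x in (X (k + 1 + 1))..(X 1), G x := by
      apply intervalIntegral.integral_add_adjacent_intervals
      · exact st_intervalIntegrable G hGi h4 h3
      · exact st_intervalIntegrable G hGi (h4.trans h3) h1
    rw [← h6]
    linarith

/-- Staircase bound: the integral of a nonincreasing nonnegative function over the half line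
dominates the area of the rectangles under its graph over a decreasing chain of points. -/
theorem stair_bound (G : ℝ → ℝ) (hG : AntitoneOn G (Ici 0)) (hG0 : ∀ x, 0 ≤ G x)
    (hGi : IntegrableOn G (Ioi 0)) (N : ℕ) (X : ℕ → ℝ) (hXN : 0 ≤ X N)
    (hX : ∀ j, 1 ≤ j → j < N → X (j + 1) ≤ X j) :
    ∑ j ∈ Finset.Icc 1 (N - 1), G (X j) * (X j - X (j + 1)) ≤ ∫ x in Ioi (0:ℝ), G x := by
  rcases Nat.eq_zero_or_pos N with hN | hN
  · subst hN
    simp only [Nat.zero_sub]
    rw [Finset.Icc_eq_empty (by omega), Finset.sum_empty]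
    exact setIntegral_nonneg measurableSet_Ioi (fun x _ => hG0 x)
  · obtain ⟨h1, h2⟩ := st_main G hG hGi N X hXN hX (N - 1) (by omega)
    have hN1 : N - 1 + 1 = N := by omega
    rw [hN1] at h1 h2
    refine h2.trans ?_
    rw [intervalIntegral.integral_of_le h1]
    apply setIntegral_mono_set hGi
    · exact Filter.Eventually.of_forall (fun x => hG0 x)
    · exact Filter.Eventually.of_forall (fun x hx => lt_of_le_of_lt hXN hx.1)

end Vale.Agent.Lib.P254
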