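import Vale.Agent.Lib.P254.Sec.Disc
import Vale.Agent.Lib.P254.Sec.Stair
import Vale.Agent.Lib.P254.Sec.QuantB
import Vale.Agent.Lib.P254.Sec.QuantC
import Vale.Agent.Lib.P254.Sec.Jensen
import Vale.Agent.Lib.P254.Sec.MeasQ

open MeasureTheory Set

namespace Vale.Agent.Lib.P254

variable {K : Set (Fin 3 → ℝ)}

/-- A bounded measurable function that vanishes outside a bounded interval is integrable. -/
theorem co_integrable {f : ℝ → ℝ} (hf : Measurable f) (C R : ℝ) (hb : ∀ z, |f z| ≤ C)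
    (hs : ∀ z, R < |z| → f z = 0) : Integrable f := by
  have hg : Integrable ((Icc (-R) R).indicator (fun _ : ℝ => C)) :=
    (integrable_indicator_iff measurableSet_Icc).2 continuous_const.integrableOn_Icc
  refine hg.mono' hf.aestronglyMeasurable (Filter.Eventually.of_forall fun z => ?_)
  rw [Real.norm_eq_abs]
  by_cases hz : |z| ≤ R
  · rw [indicator_of_mem (show z ∈ Icc (-R) R from abs_le.1 hz)]
    exact hb z
  · rw [indicator_of_notMem (fun h : z ∈ Icc (-R) R => hz (abs_le.2 h)), hs z (not_le.1 hz),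
      abs_zero]

/-- The product of a bounded weight of bounded support with a bounded function is integrable. -/
theorem co_wf_integrable {w f : ℝ → ℝ} {R : ℝ} (hwm : Measurable w) (hw0 : ∀ z, 0 ≤ w z)
    (hwB : ∀ z, w z ≤ R) (hws : ∀ z, R < |z| → w z = 0) (hfm : Measurable f)
    (hf : ∀ z, 0 ≤ f z ∧ f z ≤ R) : Integrable (fun z => w z * f z) := by
  refine co_integrable (hwm.mul hfm) (R * R) R (fun z => ?_) (fun z hz => ?_)
  · rw [abs_of_nonneg (mul_nonneg (hw0 z) (hf z).1)]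
    exact mul_le_mul (hwB z) (hf z).2 (hf z).1 (le_trans (hw0 z) (hwB z))
  · rw [hws z hz, zero_mul]

/-- Monotonicity of differences of integrals. -/
theorem co_int_sub_le {s : Set ℝ} (hs : MeasurableSet s) {f1 f2 f3 f4 : ℝ → ℝ}
    (h1 : IntegrableOn f1 s) (h2 : IntegrableOn f2 s) (h3 : IntegrableOn f3 s)
    (h4 : IntegrableOn f4 s) (h : ∀ z ∈ s, f1 z - f2 z ≤ f3 z - f4 z) :
    (∫ z in s, f1 z) - (∫ z in s, f2 z) ≤ (∫ z in s, f3 z) - (∫ z in s, f4 z) := by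
  rw [← integral_sub h1 h2, ← integral_sub h3 h4]
  exact setIntegral_mono_on (h1.sub h2) (h3.sub h4) hs h

/-- Summation by parts for the weights `j - 1`. -/
theorem co_abel (X : ℕ → ℝ) (n : ℕ) (hn : 1 ≤ n) :
    ∑ j ∈ Finset.Icc 1 n, ((j:ℝ) - 1) * (X j - X (j + 1)) =
      ∑ i ∈ Finset.Icc 1 n, X i - X 1 - ((n:ℝ) - 1) * X (n + 1) := by
  induction n, hn using Nat.le_induction with
  | base => simp
  | succ n hn ih =>
    rw [Finset.sum_Icc_succ_top (by omega), Finset.sum_Icc_succ_top (by omega), ih]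
    push_cast
    ring

/-- The finite inequality for the averaged quantile data. -/
theorem co_discrete (N : ℕ) (hN : 3 ≤ N) (Xb Yb : ℕ → ℝ) (R β1 β2 c : ℝ)
    (hX1 : ∀ j, 1 ≤ j → j < N → Xb (j + 1) ≤ Xb j)
    (hXN : Xb N = 0)
    (hX3 : ∀ j, 1 ≤ j → j + 2 ≤ N → Xb (j + 1) - Xb (j + 2) ≤ Xb j - Xb (j + 1))
    (hY0 : 0 ≤ Yb 1)
    (hY1 : ∀ j, 1 ≤ j → j < N → Yb j ≤ Yb (j + 1))
    (hY2 : ∀ j, 1 ≤ j → j + 2 ≤ N → Yb j + Yb (j + 2) ≤ 2 * Yb (j + 1))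
    (hXR : Xb 1 ≤ R) (hYR : Yb N ≤ R)
    (hm1 : (N:ℝ) * β1 ≤ R + ∑ i ∈ Finset.Icc 1 (N - 1), Xb i)
    (hm2 : (N:ℝ) * β2 ≤ ∑ j ∈ Finset.Icc 1 N, Yb j)
    (hS : ∑ j ∈ Finset.Icc 1 (N - 1), Yb j * (Xb j - Xb (j + 1)) ≤ c)
    (h1 : 2 * R ≤ (N:ℝ) * β1) (h2 : R ≤ (N:ℝ) * β2) :
    2 * ((N:ℝ) * β1 - 2 * R) * ((N:ℝ) * β2 - R) ≤ ((N:ℝ) - 1) * ((N:ℝ) - 2) * c := by
  have hcheb := disc_cheb (N - 1) (by omega) (fun j => Xb j - Xb (j + 1)) Yb
    (fun j hj1 hj2 => sub_nonneg.2 (hX1 j hj1 (by omega)))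
    (fun j hj1 hj2 => hX3 j hj1 (by omega))
    hY0
    (fun j hj1 hj2 => hY1 j hj1 (by omega))
    (fun j hj1 hj2 => hY2 j hj1 (by omega))
  beta_reduce at hcheb
  have hAbel := co_abel Xb (N - 1) (by omega)
  have hN1 : N - 1 + 1 = N := by omega
  rw [hN1, hXN, mul_zero, sub_zero] at hAbel
  have hcast : ((N - 1 : ℕ) : ℝ) = (N:ℝ) - 1 := by
    rw [Nat.cast_sub (by omega)]
    simp
  rw [hcast] at hcheb
  have hYsum : ∑ j ∈ Finset.Icc 1 N, Yb j = ∑ j ∈ Finset.Icc 1 (N - 1), Yb j + Yb N := by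
    have h := Finset.sum_Icc_succ_top (show 1 ≤ N - 1 + 1 by omega) Yb
    rw [hN1] at h
    exact h
  rw [hAbel] at hcheb
  have hN3 : (3:ℝ) ≤ N := by exact_mod_cast hN
  have hAge : (N:ℝ) * β1 - 2 * R ≤ ∑ i ∈ Finset.Icc 1 (N - 1), Xb i - Xb 1 := by linarith
  have hBge : (N:ℝ) * β2 - R ≤ ∑ j ∈ Finset.Icc 1 (N - 1), Yb j := by linarith
  have h3 : ((N:ℝ) - 1) * ((N:ℝ) - 1 - 1) *
      (∑ j ∈ Finset.Icc 1 (N - 1), Yb j * (Xb j - Xb (j + 1))) ≤
      ((N:ℝ) - 1) * ((N:ℝ) - 2) * c := by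
    have h0 : 0 ≤ ((N:ℝ) - 1) * ((N:ℝ) - 2) := by nlinarith
    calc ((N:ℝ) - 1) * ((N:ℝ) - 1 - 1) * (∑ j ∈ Finset.Icc 1 (N - 1), Yb j * (Xb j - Xb (j + 1)))
        = ((N:ℝ) - 1) * ((N:ℝ) - 2) * (∑ j ∈ Finset.Icc 1 (N - 1), Yb j * (Xb j - Xb (j + 1))) := by
          ring
      _ ≤ ((N:ℝ) - 1) * ((N:ℝ) - 2) * c := mul_le_mul_of_nonneg_left hS h0
  have ha : 0 ≤ (N:ℝ) * β1 - 2 * R := by linarith
  have hb : 0 ≤ (N:ℝ) * β2 - R := by linarith
  have h4 := mul_le_mul hAge hBge hb (le_trans ha hAge)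
  linarith

/-- Passage to the limit in the number of strips. -/
theorem co_limit (R β1 β2 c : ℝ) (hβ1 : 0 ≤ β1) (hβ2 : 0 ≤ β2) (hc : 0 ≤ c)
    (h : ∀ N : ℕ, 3 ≤ N → 2 * R ≤ (N:ℝ) * β1 → R ≤ (N:ℝ) * β2 →
      2 * ((N:ℝ) * β1 - 2 * R) * ((N:ℝ) * β2 - R) ≤ ((N:ℝ) - 1) * ((N:ℝ) - 2) * c) :
    2 * β1 * β2 ≤ c := by
  by_contra hcon
  have hcon' : c < 2 * β1 * β2 := not_le.1 hcon
  have hpos : 0 < β1 * β2 := by nlinarith
  have hb1 : 0 < β1 := by
    rcases hβ1.eq_or_lt with h0 | h0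
    · rw [← h0, zero_mul] at hpos
      exact absurd hpos (lt_irrefl 0)
    · exact h0
  have hb2 : 0 < β2 := by
    rcases hβ2.eq_or_lt with h0 | h0
    · rw [← h0, mul_zero] at hpos
      exact absurd hpos (lt_irrefl 0)
    · exact h0
  have hεpos : 0 < 2 * β1 * β2 - c := by linarith
  obtain ⟨N, hN⟩ := exists_nat_gt
    (max 3 (max (2 * R / β1) (max (R / β2) (2 * R * (β1 + 2 * β2) / (2 * β1 * β2 - c)))))
  have hN3 : (3:ℝ) < N := lt_of_le_of_lt (le_max_left _ _) hN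
  have hNa : 2 * R / β1 < N :=
    lt_of_le_of_lt (le_trans (le_max_left _ _) (le_max_right _ _)) hN
  have hNb : R / β2 < N :=
    lt_of_le_of_lt (le_trans (le_max_left _ _) (le_trans (le_max_right _ _) (le_max_right _ _))) hN
  have hNc : 2 * R * (β1 + 2 * β2) / (2 * β1 * β2 - c) < N :=
    lt_of_le_of_lt
      (le_trans (le_max_right _ _) (le_trans (le_max_right _ _) (le_max_right _ _))) hN
  have hN3' : 3 ≤ N := by exact_mod_cast hN3.le
  have h1 : 2 * R ≤ (N:ℝ) * β1 := ((div_lt_iff₀ hb1).1 hNa).le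
  have h2 : R ≤ (N:ℝ) * β2 := ((div_lt_iff₀ hb2).1 hNb).le
  have h3 : 2 * R * (β1 + 2 * β2) < (N:ℝ) * (2 * β1 * β2 - c) := (div_lt_iff₀ hεpos).1 hNc
  have hmain := h N hN3' h1 h2
  have hNpos : (0:ℝ) < N := by linarith
  have h5 : ((N:ℝ) - 1) * ((N:ℝ) - 2) * c ≤ (N:ℝ) ^ 2 * c := by
    apply mul_le_mul_of_nonneg_right _ hc
    nlinarith
  have h6 := mul_lt_mul_of_pos_left h3 hNpos
  nlinarith [sq_nonneg R]

theorem co_theta (N j : ℕ) (h1 : 1 ≤ j) (h2 : j ≤ N) : 0 < (j:ℝ) / N ∧ (j:ℝ) / N ≤ 1 := by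
  have hN : (0:ℝ) < N := by exact_mod_cast (by omega : 0 < N)
  have hj : (0:ℝ) < j := by exact_mod_cast (by omega : 0 < j)
  exact ⟨div_pos hj hN, (div_le_one hN).2 (by exact_mod_cast h2)⟩

/-- The pointwise properties of the quantile points of a profile, including the degenerate
case of a profile with zero integral. -/
theorem co_quant_facts {g : ℝ → ℝ} {X R : ℝ} (hg : Prof g X) (hXR : X ≤ R) (N : ℕ) :
    (∀ j, 1 ≤ j → j ≤ N → 0 ≤ quant g ((j:ℝ) / N) ∧ quant g ((j:ℝ) / N) ≤ R) ∧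
    (∀ j, 1 ≤ j → j < N → quant g (((j + 1 : ℕ):ℝ) / N) ≤ quant g ((j:ℝ) / N)) ∧
    (1 ≤ N → quant g ((N:ℝ) / N) = 0) ∧
    (∀ j, 1 ≤ j → j + 2 ≤ N →
      quant g (((j + 1 : ℕ):ℝ) / N) - quant g (((j + 2 : ℕ):ℝ) / N) ≤
        quant g ((j:ℝ) / N) - quant g (((j + 1 : ℕ):ℝ) / N)) ∧
    (∀ j, 1 ≤ j → j < N → g (quant g ((j:ℝ) / N)) ≤ g (quant g (((j + 1 : ℕ):ℝ) / N))) ∧
    (∀ j, 1 ≤ j → j + 2 ≤ N →
      g (quant g ((j:ℝ) / N)) + g (quant g (((j + 2 : ℕ):ℝ) / N)) ≤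
        2 * g (quant g (((j + 1 : ℕ):ℝ) / N))) := by
  have hnn : 0 ≤ tailInt g 0 := setIntegral_nonneg measurableSet_Ioi (fun x _ => hg.nonneg x)
  rcases hnn.eq_or_lt with hv | hv
  · have hq : ∀ θ, quant g θ = 0 := quant_of_tail_zero hg.nonneg hv.symm
    simp only [hq]
    exact ⟨fun _ _ _ => ⟨le_rfl, le_trans hg.X_nonneg hXR⟩, fun _ _ _ => le_rfl, fun _ => trivial,
      fun _ _ _ => le_rfl, fun _ _ _ => le_rfl, fun _ _ _ => by linarith⟩
  · refine ⟨?_, ?_, ?_, ?_, ?_, ?_⟩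
    · intro j h1 h2
      obtain ⟨a, b⟩ := co_theta N j h1 h2
      exact ⟨(quant_mem hg hv a b).1, le_trans (quant_mem hg hv a b).2 hXR⟩
    · intro j h1 h2
      obtain ⟨a, b⟩ := co_theta N j h1 (by omega)
      obtain ⟨a', b'⟩ := co_theta N (j + 1) (by omega) (by omega)
      have hN : (0:ℝ) < N := by exact_mod_cast (by omega : 0 < N)
      exact quant_anti hg hv a (div_le_div_of_nonneg_right (by push_cast; linarith) hN.le) b'
    · intro hN1
      have hN : (N:ℝ) ≠ 0 := by exact_mod_cast (by omega : N ≠ 0)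
      rw [div_self hN]
      exact quant_one hg hv
    · intro j h1 h2
      obtain ⟨a, b⟩ := co_theta N j h1 (by omega)
      have hNpos : (0:ℝ) < N := by exact_mod_cast (by omega : 0 < N)
      have e1 : ((j + 1 : ℕ):ℝ) / N = (j:ℝ) / N + 1 / N := by push_cast; ring
      have e2 : ((j + 2 : ℕ):ℝ) / N = (j:ℝ) / N + 2 * (1 / N) := by push_cast; ring
      rw [e1, e2]
      refine quant_step hg hv a (one_div_pos.2 hNpos) ?_
      rw [← e2]
      exact (co_theta N (j + 2) (by omega) h2).2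
    · intro j h1 h2
      obtain ⟨a, b⟩ := co_theta N j h1 (by omega)
      obtain ⟨a', b'⟩ := co_theta N (j + 1) (by omega) (by omega)
      have hNpos : (0:ℝ) < N := by exact_mod_cast (by omega : 0 < N)
      exact quant_val_mono hg hv a
        (div_le_div_of_nonneg_right (by push_cast; linarith) hNpos.le) b'
    · intro j h1 h2
      obtain ⟨a, b⟩ := co_theta N j h1 (by omega)
      have hNpos : (0:ℝ) < N := by exact_mod_cast (by omega : 0 < N)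
      have e1 : ((j + 1 : ℕ):ℝ) / N = (j:ℝ) / N + 1 / N := by push_cast; ring
      have e2 : ((j + 2 : ℕ):ℝ) / N = (j:ℝ) / N + 2 * (1 / N) := by push_cast; ring
      rw [e1, e2]
      refine quant_val_conc hg hv a (one_div_pos.2 hNpos) ?_
      rw [← e2]
      exact (co_theta N (j + 2) (by omega) h2).2

/-- The two moment bounds of a profile through its quantile points, including the degenerate
case of a profile with zero integral. -/
theorem co_moment_facts {g : ℝ → ℝ} {X R : ℝ} (hg : Prof g X) (hXR : X ≤ R) (N : ℕ)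
    (hN : 2 ≤ N) :
    (∫ x in Ioi (0:ℝ), x * g x ≤
      tailInt g 0 / N * (R + ∑ i ∈ Finset.Icc 1 (N - 1), quant g ((i:ℝ) / N))) ∧
    (∫ x in Ioi (0:ℝ), (g x) ^ 2 ≤
      tailInt g 0 / N * ∑ j ∈ Finset.Icc 1 N, g (quant g ((j:ℝ) / N))) := by
  have hnn : 0 ≤ tailInt g 0 := setIntegral_nonneg measurableSet_Ioi (fun x _ => hg.nonneg x)
  rcases hnn.eq_or_lt with hv | hv
  · have hv' : ∫ x in Ioi (0:ℝ), g x = 0 := hv.symm
    have hae : g =ᵐ[volume.restrict (Ioi (0:ℝ))] 0 :=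
      (setIntegral_eq_zero_iff_of_nonneg_ae (Filter.Eventually.of_forall hg.nonneg)
        hg.integrableOn).1 hv'
    have h1 : ∫ x in Ioi (0:ℝ), x * g x = 0 := by
      rw [integral_congr_ae (g := fun _ => (0:ℝ))
        (hae.mono fun x hx => by simp only [hx, Pi.zero_apply, mul_zero])]
      simp
    have h2 : ∫ x in Ioi (0:ℝ), (g x) ^ 2 = 0 := by
      rw [integral_congr_ae (g := fun _ => (0:ℝ))
        (hae.mono fun x hx => by simp only [hx, Pi.zero_apply]; norm_num)]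
      simp
    rw [h1, h2, ← hv]
    simp
  · constructor
    · refine le_trans (quant_first_moment hg hv N hN) ?_
      have hN0 : (0:ℝ) < N := by exact_mod_cast (by omega : 0 < N)
      exact mul_le_mul_of_nonneg_left (by linarith) (div_nonneg hv.le hN0.le)
    · exact quant_second_moment hg hv N hN

theorem co_cv_nonneg (hK : Uncond3 K) (z : ℝ) : 0 ≤ cv K z :=
  setIntegral_nonneg measurableSet_Ioi (fun x _ => hgt_nonneg hK z x)

theorem co_cv_le (hK : Uncond3 K) (R : ℝ) (hR0 : 0 ≤ R) (hB1 : ∀ z x, hgt K z x ≤ R)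
    (hB3 : ∀ z x, R < |x| → hgt K z x = 0) (z : ℝ) : cv K z ≤ R * R := by
  unfold cv
  have h1 : ∫ x in Ioi (0:ℝ), hgt K z x = ∫ x in Ioc (0:ℝ) R, hgt K z x := by
    refine setIntegral_eq_of_subset_of_forall_sdiff_eq_zero measurableSet_Ioi Ioc_subset_Ioi_self ?_
    intro x hx
    have hx0 : 0 < x := hx.1
    have hxR : R < x := by
      by_contra h
      exact hx.2 ⟨hx0, not_lt.1 h⟩
    exact hB3 z x (by rw [abs_of_pos hx0]; exact hxR)
  rw [h1]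
  calc ∫ x in Ioc (0:ℝ) R, hgt K z x ≤ ∫ x in Ioc (0:ℝ) R, R :=
        integral_mono_of_nonneg (Filter.Eventually.of_forall (fun x => hgt_nonneg hK z x))
          continuous_const.integrableOn_Ioc (Filter.Eventually.of_forall (fun x => hB1 z x))
    _ = R * R := by
        rw [setIntegral_const, Real.volume_real_Ioc_of_le hR0, sub_zero, smul_eq_mul]

/-- Integration of the pointwise quantile properties against a probability weight. -/
theorem co_integrate (N : ℕ) (hN : 3 ≤ N) (w : ℝ → ℝ) (Q Ψ : ℕ → ℝ → ℝ) (R : ℝ)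
    (hwm : Measurable w) (hw0 : ∀ z, 0 ≤ w z) (hwB : ∀ z, w z ≤ R)
    (hws : ∀ z, R < |z| → w z = 0) (hw1 : ∫ z in Ioi (0:ℝ), w z = 1)
    (hQm : ∀ j, 1 ≤ j → j ≤ N → Measurable (Q j))
    (hΨm : ∀ j, 1 ≤ j → j ≤ N → Measurable (Ψ j))
    (hQ0 : ∀ z j, 1 ≤ j → j ≤ N → 0 ≤ Q j z ∧ Q j z ≤ R)
    (hΨ0 : ∀ z j, 1 ≤ j → j ≤ N → 0 ≤ Ψ j z ∧ Ψ j z ≤ R)
    (hQ1 : ∀ z j, 1 ≤ j → j < N → Q (j + 1) z ≤ Q j z)
    (hQN : ∀ z, Q N z = 0)
    (hQ3 : ∀ z j, 1 ≤ j → j + 2 ≤ N → Q (j + 1) z - Q (j + 2) z ≤ Q j z - Q (j + 1) z)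
    (hΨ1 : ∀ z j, 1 ≤ j → j < N → Ψ j z ≤ Ψ (j + 1) z)
    (hΨ2 : ∀ z j, 1 ≤ j → j + 2 ≤ N → Ψ j z + Ψ (j + 2) z ≤ 2 * Ψ (j + 1) z) :
    (∀ j, 1 ≤ j → j < N →
      ∫ z in Ioi (0:ℝ), w z * Q (j + 1) z ≤ ∫ z in Ioi (0:ℝ), w z * Q j z) ∧
    (∫ z in Ioi (0:ℝ), w z * Q N z) = 0 ∧
    (∀ j, 1 ≤ j → j + 2 ≤ N →
      (∫ z in Ioi (0:ℝ), w z * Q (j + 1) z) - (∫ z in Ioi (0:ℝ), w z * Q (j + 2) z) ≤
        (∫ z in Ioi (0:ℝ), w z * Q j z) - ∫ z in Ioi (0:ℝ), w z * Q (j + 1) z) ∧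
    0 ≤ (∫ z in Ioi (0:ℝ), w z * Ψ 1 z) ∧
    (∀ j, 1 ≤ j → j < N →
      ∫ z in Ioi (0:ℝ), w z * Ψ j z ≤ ∫ z in Ioi (0:ℝ), w z * Ψ (j + 1) z) ∧
    (∀ j, 1 ≤ j → j + 2 ≤ N →
      (∫ z in Ioi (0:ℝ), w z * Ψ j z) + (∫ z in Ioi (0:ℝ), w z * Ψ (j + 2) z) ≤
        2 * ∫ z in Ioi (0:ℝ), w z * Ψ (j + 1) z) ∧
    (∫ z in Ioi (0:ℝ), w z * Q 1 z) ≤ R ∧ (∫ z in Ioi (0:ℝ), w z * Ψ N z) ≤ R := by
  have hiQ : ∀ j, 1 ≤ j → j ≤ N → IntegrableOn (fun z => w z * Q j z) (Ioi 0) :=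
    fun j h1 h2 =>
      (co_wf_integrable hwm hw0 hwB hws (hQm j h1 h2) (fun z => hQ0 z j h1 h2)).integrableOn
  have hiΨ : ∀ j, 1 ≤ j → j ≤ N → IntegrableOn (fun z => w z * Ψ j z) (Ioi 0) :=
    fun j h1 h2 =>
      (co_wf_integrable hwm hw0 hwB hws (hΨm j h1 h2) (fun z => hΨ0 z j h1 h2)).integrableOn
  have hiw : IntegrableOn (fun z => w z * R) (Ioi 0) :=
    ((co_integrable hwm R R (fun z => by rw [abs_of_nonneg (hw0 z)]; exact hwB z)
      hws).mul_const R).integrableOn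
  have hwR : ∫ z in Ioi (0:ℝ), w z * R = R := by rw [integral_mul_const, hw1, one_mul]
  refine ⟨?_, ?_, ?_, ?_, ?_, ?_, ?_, ?_⟩
  · intro j h1 h2
    exact setIntegral_mono_on (hiQ (j + 1) (by omega) (by omega)) (hiQ j h1 (by omega))
      measurableSet_Ioi (fun z _ => mul_le_mul_of_nonneg_left (hQ1 z j h1 h2) (hw0 z))
  · have h0 : (fun z => w z * Q N z) = fun _ => (0:ℝ) :=
      funext (fun z => by rw [hQN z, mul_zero])
    rw [h0]
    simp
  · intro j h1 h2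
    refine co_int_sub_le measurableSet_Ioi (hiQ (j + 1) (by omega) (by omega))
      (hiQ (j + 2) (by omega) h2) (hiQ j h1 (by omega)) (hiQ (j + 1) (by omega) (by omega))
      (fun z _ => ?_)
    have h := mul_le_mul_of_nonneg_left (hQ3 z j h1 h2) (hw0 z)
    linarith
  · exact setIntegral_nonneg measurableSet_Ioi
      (fun z _ => mul_nonneg (hw0 z) (hΨ0 z 1 le_rfl (by omega)).1)
  · intro j h1 h2
    exact setIntegral_mono_on (hiΨ j h1 (by omega)) (hiΨ (j + 1) (by omega) (by omega))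
      measurableSet_Ioi (fun z _ => mul_le_mul_of_nonneg_left (hΨ1 z j h1 h2) (hw0 z))
  · intro j h1 h2
    have h := co_int_sub_le measurableSet_Ioi (hiΨ j h1 (by omega))
      (hiΨ (j + 1) (by omega) (by omega)) (hiΨ (j + 1) (by omega) (by omega))
      (hiΨ (j + 2) (by omega) h2)
      (fun z _ => by
        have h := mul_le_mul_of_nonneg_left (hΨ2 z j h1 h2) (hw0 z)
        linarith)
    linarith
  · calc (∫ z in Ioi (0:ℝ), w z * Q 1 z) ≤ ∫ z in Ioi (0:ℝ), w z * R :=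
        setIntegral_mono_on (hiQ 1 le_rfl (by omega)) hiw measurableSet_Ioi
          (fun z _ => mul_le_mul_of_nonneg_left (hQ0 z 1 le_rfl (by omega)).2 (hw0 z))
      _ = R := hwR
  · calc (∫ z in Ioi (0:ℝ), w z * Ψ N z) ≤ ∫ z in Ioi (0:ℝ), w z * R :=
        setIntegral_mono_on (hiΨ N (by omega) le_rfl) hiw measurableSet_Ioi
          (fun z _ => mul_le_mul_of_nonneg_left (hΨ0 z N (by omega) le_rfl).2 (hw0 z))
      _ = R := hwR

/-- Integration of the pointwise bound for the first moment. -/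
theorem co_int_moment1 (N : ℕ) (w : ℝ → ℝ) (Q : ℕ → ℝ → ℝ) (R V : ℝ) (F : ℝ → ℝ)
    (hwi : Integrable w) (hw1 : ∫ z in Ioi (0:ℝ), w z = 1)
    (hiQ : ∀ j, 1 ≤ j → j ≤ N - 1 → Integrable (fun z => w z * Q j z))
    (hF0 : ∀ z, 0 ≤ F z)
    (hF : ∀ z, F z ≤ V / N * (w z * R + ∑ i ∈ Finset.Icc 1 (N - 1), w z * Q i z)) :
    ∫ z in Ioi (0:ℝ), F z ≤
      V / N * (R + ∑ i ∈ Finset.Icc 1 (N - 1), ∫ z in Ioi (0:ℝ), w z * Q i z) := by
  have hsum : Integrable (fun z => ∑ i ∈ Finset.Icc 1 (N - 1), w z * Q i z) :=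
    integrable_finsetSum _ (fun i hi => hiQ i (Finset.mem_Icc.1 hi).1 (Finset.mem_Icc.1 hi).2)
  have hg : Integrable
      (fun z => V / N * (w z * R + ∑ i ∈ Finset.Icc 1 (N - 1), w z * Q i z)) :=
    ((hwi.mul_const R).add hsum).const_mul (V / N)
  calc ∫ z in Ioi (0:ℝ), F z
      ≤ ∫ z in Ioi (0:ℝ), V / N * (w z * R + ∑ i ∈ Finset.Icc 1 (N - 1), w z * Q i z) :=
        integral_mono_of_nonneg (Filter.Eventually.of_forall hF0) hg.integrableOn
          (Filter.Eventually.of_forall hF)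
    _ = V / N * (R + ∑ i ∈ Finset.Icc 1 (N - 1), ∫ z in Ioi (0:ℝ), w z * Q i z) := by
        rw [integral_const_mul, integral_add (hwi.mul_const R).integrableOn hsum.integrableOn,
          integral_mul_const, hw1, one_mul,
          integral_finsetSum _ (fun i hi =>
            (hiQ i (Finset.mem_Icc.1 hi).1 (Finset.mem_Icc.1 hi).2).integrableOn)]

/-- Integration of the pointwise bound for the integral of the square. -/
theorem co_int_moment2 (N : ℕ) (w : ℝ → ℝ) (Ψ : ℕ → ℝ → ℝ) (V : ℝ) (F : ℝ → ℝ)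
    (hiΨ : ∀ j, 1 ≤ j → j ≤ N → Integrable (fun z => w z * Ψ j z))
    (hF0 : ∀ z, 0 ≤ F z)
    (hF : ∀ z, F z ≤ V / N * ∑ j ∈ Finset.Icc 1 N, w z * Ψ j z) :
    ∫ z in Ioi (0:ℝ), F z ≤
      V / N * ∑ j ∈ Finset.Icc 1 N, ∫ z in Ioi (0:ℝ), w z * Ψ j z := by
  have hsum : Integrable (fun z => ∑ j ∈ Finset.Icc 1 N, w z * Ψ j z) :=
    integrable_finsetSum _ (fun i hi => hiΨ i (Finset.mem_Icc.1 hi).1 (Finset.mem_Icc.1 hi).2)
  calc ∫ z in Ioi (0:ℝ), F z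
      ≤ ∫ z in Ioi (0:ℝ), V / N * ∑ j ∈ Finset.Icc 1 N, w z * Ψ j z :=
        integral_mono_of_nonneg (Filter.Eventually.of_forall hF0)
          (hsum.const_mul (V / N)).integrableOn (Filter.Eventually.of_forall hF)
    _ = V / N * ∑ j ∈ Finset.Icc 1 N, ∫ z in Ioi (0:ℝ), w z * Ψ j z := by
        rw [integral_const_mul, integral_finsetSum _ (fun i hi =>
          (hiΨ i (Finset.mem_Icc.1 hi).1 (Finset.mem_Icc.1 hi).2).integrableOn)]

/-- The inequality for a fixed number `N` of strips. -/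
theorem co_fixed (hK : Uncond3 K) (R : ℝ) (hR0 : 0 ≤ R) (hB1 : ∀ z x, hgt K z x ≤ R)
    (hB2 : ∀ z x, R < |z| → hgt K z x = 0)
    (hB4 : ∀ z x, ![z, x, 0] ∈ K → |z| ≤ R ∧ |x| ≤ R) (hV : 0 < cV K)
    (hvR : ∀ z, cv K z ≤ R * cV K) (N : ℕ) (hN : 3 ≤ N)
    (h1 : 2 * R ≤ (N:ℝ) * (cB1 K / cV K)) (h2 : R ≤ (N:ℝ) * (cB2 K / cV K)) :
    2 * ((N:ℝ) * (cB1 K / cV K) - 2 * R) * ((N:ℝ) * (cB2 K / cV K) - R) ≤
      ((N:ℝ) - 1) * ((N:ℝ) - 2) * cv K (∫ z in Ioi (0:ℝ), cv K z / cV K * z) := by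
  have hP : ∀ z, ∃ X : ℝ, X ≤ R ∧ Prof (hgt K z) X ∧
      ∀ x, 0 ≤ x → x ≤ X → 0 < hgt K z 0 → ![z, x, 0] ∈ K := fun z => hgt_prof hK hB4 hR0 z
  have hwm : Measurable (fun z => cv K z / cV K) := (measurable_cv hK).div_const _
  have hw0 : ∀ z, 0 ≤ cv K z / cV K := fun z => div_nonneg (co_cv_nonneg hK z) hV.le
  have hwB : ∀ z, cv K z / cV K ≤ R := fun z => (div_le_iff₀ hV).2 (hvR z)
  have hcvs : ∀ z, R < |z| → cv K z = 0 := by
    intro z hz
    unfold cv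
    have h0 : (fun x => hgt K z x) = fun _ => (0:ℝ) := funext (fun x => hB2 z x hz)
    rw [h0]
    simp
  have hws : ∀ z, R < |z| → cv K z / cV K = 0 := fun z hz => by rw [hcvs z hz, zero_div]
  have hw1 : ∫ z in Ioi (0:ℝ), cv K z / cV K = 1 := by
    rw [integral_div]
    exact div_self hV.ne'
  have hθ := co_theta N
  have hN0 : (0:ℝ) < N := by exact_mod_cast (by omega : 0 < N)
  have hV' : cV K ≠ 0 := hV.ne'
  have hN' : (N:ℝ) ≠ 0 := hN0.ne'
  obtain ⟨hX1, hXN, hX3, hY0, hY1, hY2, hXR, hYR⟩ := co_integrate N hN (fun z => cv K z / cV K)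
    (fun j z => quant (hgt K z) ((j:ℝ) / N))
    (fun j z => hgt K z (quant (hgt K z) ((j:ℝ) / N))) R
    hwm hw0 hwB hws hw1
    (fun j h1 h2 => measurable_quant_hgt hK (hθ j h1 h2).1 (hθ j h1 h2).2)
    (fun j h1 h2 => measurable_hgt_quant hK (hθ j h1 h2).1 (hθ j h1 h2).2)
    (fun z j h1 h2 => by
      obtain ⟨X, hXR, hprof, -⟩ := hP z
      exact (co_quant_facts hprof hXR N).1 j h1 h2)
    (fun z j h1 h2 => ⟨hgt_nonneg hK _ _, hB1 _ _⟩)
    (fun z j h1 h2 => by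
      obtain ⟨X, hXR, hprof, -⟩ := hP z
      exact (co_quant_facts hprof hXR N).2.1 j h1 h2)
    (fun z => by
      obtain ⟨X, hXR, hprof, -⟩ := hP z
      exact (co_quant_facts hprof hXR N).2.2.1 (by omega))
    (fun z j h1 h2 => by
      obtain ⟨X, hXR, hprof, -⟩ := hP z
      exact (co_quant_facts hprof hXR N).2.2.2.1 j h1 h2)
    (fun z j h1 h2 => by
      obtain ⟨X, hXR, hprof, -⟩ := hP z
      exact (co_quant_facts hprof hXR N).2.2.2.2.1 j h1 h2)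
    (fun z j h1 h2 => by
      obtain ⟨X, hXR, hprof, -⟩ := hP z
      exact (co_quant_facts hprof hXR N).2.2.2.2.2 j h1 h2)
  have hJ : ∀ j, 1 ≤ j → j ≤ N →
      (∫ z in Ioi (0:ℝ), cv K z / cV K * hgt K z (quant (hgt K z) ((j:ℝ) / N))) ≤
        hgt K (∫ z in Ioi (0:ℝ), cv K z / cV K * z)
          (∫ z in Ioi (0:ℝ), cv K z / cV K * quant (hgt K z) ((j:ℝ) / N)) := by
    intro j hj1 hj2
    refine hgt_jensen hK (fun z => cv K z / cV K) (fun z => quant (hgt K z) ((j:ℝ) / N)) hwm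
      (measurable_quant_hgt hK (hθ j hj1 hj2).1 (hθ j hj1 hj2).2) hw0 R
      (fun z hz => hws z (lt_of_lt_of_le hz (le_abs_self z))) hwB ?_ hw1 ?_
    · intro z
      obtain ⟨X, hXR, hprof, -⟩ := hP z
      have h := (co_quant_facts hprof hXR N).1 j hj1 hj2
      rw [abs_of_nonneg h.1]
      exact h.2
    · intro z hz hwz
      obtain ⟨X, hXR, hprof, hmem⟩ := hP z
      have hcvpos : 0 < cv K z := by
        rcases (co_cv_nonneg hK z).eq_or_lt with h0 | h0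
        · exact absurd (by rw [← h0, zero_div]) hwz
        · exact h0
      have hpos : 0 < hgt K z 0 := by
        by_contra hcon
        have h00 : hgt K z 0 ≤ 0 := not_lt.1 hcon
        have hle : cv K z ≤ 0 := setIntegral_nonpos measurableSet_Ioi (fun x hx =>
          le_trans (hprof.anti (mem_Ici.2 le_rfl) (mem_Ici.2 (le_of_lt hx)) (le_of_lt hx)) h00)
        linarith
      have hqm := quant_mem hprof (show 0 < tailInt (hgt K z) 0 from hcvpos)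
        (hθ j hj1 hj2).1 (hθ j hj1 hj2).2
      exact hmem _ hqm.1 hqm.2 hpos
  have hG : AntitoneOn (hgt K (∫ z in Ioi (0:ℝ), cv K z / cV K * z)) (Ici 0) := by
    intro a ha b hb hab
    exact hgt_anti hK le_rfl
      (by rw [abs_of_nonneg (mem_Ici.1 ha), abs_of_nonneg (mem_Ici.1 hb)]; exact hab)
  have hGi : IntegrableOn (hgt K (∫ z in Ioi (0:ℝ), cv K z / cV K * z)) (Ioi 0) := by
    obtain ⟨X, -, hprof, -⟩ := hP (∫ z in Ioi (0:ℝ), cv K z / cV K * z)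
    exact hprof.integrableOn
  have hstair := stair_bound (hgt K (∫ z in Ioi (0:ℝ), cv K z / cV K * z)) hG
    (fun x => hgt_nonneg hK _ x) hGi N
    (fun j => ∫ z in Ioi (0:ℝ), cv K z / cV K * quant (hgt K z) ((j:ℝ) / N))
    (le_of_eq hXN.symm) hX1
  beta_reduce at hstair
  have hS : ∑ j ∈ Finset.Icc 1 (N - 1),
      (∫ z in Ioi (0:ℝ), cv K z / cV K * hgt K z (quant (hgt K z) ((j:ℝ) / N))) *
        ((∫ z in Ioi (0:ℝ), cv K z / cV K * quant (hgt K z) ((j:ℝ) / N)) -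
          ∫ z in Ioi (0:ℝ), cv K z / cV K * quant (hgt K z) (((j + 1 : ℕ):ℝ) / N)) ≤
      cv K (∫ z in Ioi (0:ℝ), cv K z / cV K * z) := by
    refine le_trans (Finset.sum_le_sum fun j hj => ?_) hstair
    obtain ⟨hj1, hj2⟩ := Finset.mem_Icc.1 hj
    exact mul_le_mul_of_nonneg_right (hJ j hj1 (by omega))
      (sub_nonneg.2 (hX1 j hj1 (by omega)))
  have hwi : Integrable (fun z => cv K z / cV K) :=
    co_integrable hwm R R (fun z => by rw [abs_of_nonneg (hw0 z)]; exact hwB z) hws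
  have hiQ : ∀ j, 1 ≤ j → j ≤ N →
      Integrable (fun z => cv K z / cV K * quant (hgt K z) ((j:ℝ) / N)) :=
    fun j h1 h2 => co_wf_integrable hwm hw0 hwB hws
      (measurable_quant_hgt hK (hθ j h1 h2).1 (hθ j h1 h2).2)
      (fun z => by
        obtain ⟨X, hXR, hprof, -⟩ := hP z
        exact (co_quant_facts hprof hXR N).1 j h1 h2)
  have hiΨ : ∀ j, 1 ≤ j → j ≤ N →
      Integrable (fun z => cv K z / cV K * hgt K z (quant (hgt K z) ((j:ℝ) / N))) :=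
    fun j h1 h2 => co_wf_integrable hwm hw0 hwB hws
      (measurable_hgt_quant hK (hθ j h1 h2).1 (hθ j h1 h2).2)
      (fun z => ⟨hgt_nonneg hK _ _, hB1 _ _⟩)
  have hm1 : cB1 K ≤ cV K / N * (R + ∑ i ∈ Finset.Icc 1 (N - 1),
      ∫ z in Ioi (0:ℝ), cv K z / cV K * quant (hgt K z) ((i:ℝ) / N)) := by
    refine co_int_moment1 N (fun z => cv K z / cV K) (fun j z => quant (hgt K z) ((j:ℝ) / N)) R
      (cV K) (fun z => ∫ x in Ioi (0:ℝ), x * hgt K z x) hwi hw1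
      (fun j h1 h2 => hiQ j h1 (by omega))
      (fun z => setIntegral_nonneg measurableSet_Ioi
        (fun x hx => mul_nonneg (le_of_lt hx) (hgt_nonneg hK z x)))
      (fun z => ?_)
    obtain ⟨X, hXR, hprof, -⟩ := hP z
    have h := (co_moment_facts hprof hXR N (by omega)).1
    have e : cV K / N * (cv K z / cV K * R +
        ∑ i ∈ Finset.Icc 1 (N - 1), cv K z / cV K * quant (hgt K z) ((i:ℝ) / N))
        = cv K z / N * (R + ∑ i ∈ Finset.Icc 1 (N - 1), quant (hgt K z) ((i:ℝ) / N)) := by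
      rw [← Finset.mul_sum]
      field_simp
    rw [e]
    exact h
  have hm2 : cB2 K ≤ cV K / N * ∑ j ∈ Finset.Icc 1 N,
      ∫ z in Ioi (0:ℝ), cv K z / cV K * hgt K z (quant (hgt K z) ((j:ℝ) / N)) := by
    refine co_int_moment2 N (fun z => cv K z / cV K)
      (fun j z => hgt K z (quant (hgt K z) ((j:ℝ) / N))) (cV K)
      (fun z => ∫ x in Ioi (0:ℝ), (hgt K z x) ^ 2) hiΨ
      (fun z => setIntegral_nonneg measurableSet_Ioi (fun x _ => sq_nonneg _))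
      (fun z => ?_)
    obtain ⟨X, hXR, hprof, -⟩ := hP z
    have h := (co_moment_facts hprof hXR N (by omega)).2
    have e : cV K / N * ∑ j ∈ Finset.Icc 1 N,
        cv K z / cV K * hgt K z (quant (hgt K z) ((j:ℝ) / N))
        = cv K z / N * ∑ j ∈ Finset.Icc 1 N, hgt K z (quant (hgt K z) ((j:ℝ) / N)) := by
      rw [← Finset.mul_sum]
      field_simp
    rw [e]
    exact h
  have hm1' : (N:ℝ) * (cB1 K / cV K) ≤ R + ∑ i ∈ Finset.Icc 1 (N - 1),
      ∫ z in Ioi (0:ℝ), cv K z / cV K * quant (hgt K z) ((i:ℝ) / N) := by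
    have h := mul_le_mul_of_nonneg_left hm1 (div_nonneg hN0.le hV.le)
    calc (N:ℝ) * (cB1 K / cV K) = (N:ℝ) / cV K * cB1 K := by ring
      _ ≤ (N:ℝ) / cV K * (cV K / N * (R + ∑ i ∈ Finset.Icc 1 (N - 1),
          ∫ z in Ioi (0:ℝ), cv K z / cV K * quant (hgt K z) ((i:ℝ) / N))) := h
      _ = R + ∑ i ∈ Finset.Icc 1 (N - 1),
          ∫ z in Ioi (0:ℝ), cv K z / cV K * quant (hgt K z) ((i:ℝ) / N) := by
        field_simp
  have hm2' : (N:ℝ) * (cB2 K / cV K) ≤ ∑ j ∈ Finset.Icc 1 N,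
      ∫ z in Ioi (0:ℝ), cv K z / cV K * hgt K z (quant (hgt K z) ((j:ℝ) / N)) := by
    have h := mul_le_mul_of_nonneg_left hm2 (div_nonneg hN0.le hV.le)
    calc (N:ℝ) * (cB2 K / cV K) = (N:ℝ) / cV K * cB2 K := by ring
      _ ≤ (N:ℝ) / cV K * (cV K / N * ∑ j ∈ Finset.Icc 1 N,
          ∫ z in Ioi (0:ℝ), cv K z / cV K * hgt K z (quant (hgt K z) ((j:ℝ) / N))) := h
      _ = ∑ j ∈ Finset.Icc 1 N,
          ∫ z in Ioi (0:ℝ), cv K z / cV K * hgt K z (quant (hgt K z) ((j:ℝ) / N)) := by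
        field_simp
  exact co_discrete N hN
    (fun j => ∫ z in Ioi (0:ℝ), cv K z / cV K * quant (hgt K z) ((j:ℝ) / N))
    (fun j => ∫ z in Ioi (0:ℝ), cv K z / cV K * hgt K z (quant (hgt K z) ((j:ℝ) / N)))
    R (cB1 K / cV K) (cB2 K / cV K) (cv K (∫ z in Ioi (0:ℝ), cv K z / cV K * z))
    hX1 hXN hX3 hY0 hY1 hY2 hXR hYR hm1' hm2' hS h1 h2

/-- The section inequality in corner form: the section through the centroid height has a
quarter-area at least four times the product of the two other centroid coordinates. -/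
theorem sec_core (hK : Uncond3 K) (hV : 0 < cV K) :
    2 * cB1 K * cB2 K ≤ cv K (cZ K / cV K) * (cV K) ^ 2 := by
  obtain ⟨R₀, hR₀, hB1, hB2, hB3, hB4⟩ := hgt_bound hK
  have hRR : R₀ ≤ max R₀ (R₀ * R₀ / cV K) := le_max_left _ _
  have hR0 : 0 ≤ max R₀ (R₀ * R₀ / cV K) := le_trans hR₀ hRR
  have hvR : ∀ z, cv K z ≤ max R₀ (R₀ * R₀ / cV K) * cV K := by
    intro z
    have h1 : cv K z ≤ R₀ * R₀ := co_cv_le hK R₀ hR₀ hB1 hB3 z
    have h2 : R₀ * R₀ / cV K ≤ max R₀ (R₀ * R₀ / cV K) := le_max_right _ _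
    have h3 : R₀ * R₀ ≤ max R₀ (R₀ * R₀ / cV K) * cV K := (div_le_iff₀ hV).1 h2
    linarith
  have hb : (∫ z in Ioi (0:ℝ), cv K z / cV K * z) = cZ K / cV K := by
    have h0 : (fun z => cv K z / cV K * z) = fun z => (z * cv K z) / cV K := by
      funext z
      ring
    rw [h0, integral_div]
    rfl
  have hβ1 : 0 ≤ cB1 K / cV K :=
    div_nonneg (setIntegral_nonneg measurableSet_Ioi (fun z _ =>
      setIntegral_nonneg measurableSet_Ioi
        (fun x hx => mul_nonneg (le_of_lt hx) (hgt_nonneg hK z x)))) hV.le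
  have hβ2 : 0 ≤ cB2 K / cV K :=
    div_nonneg (setIntegral_nonneg measurableSet_Ioi (fun z _ =>
      setIntegral_nonneg measurableSet_Ioi (fun x _ => sq_nonneg _))) hV.le
  have hlim := co_limit (max R₀ (R₀ * R₀ / cV K)) (cB1 K / cV K) (cB2 K / cV K)
    (cv K (cZ K / cV K)) hβ1 hβ2 (co_cv_nonneg hK _) (fun N hN h1 h2 => by
      have h := co_fixed hK (max R₀ (R₀ * R₀ / cV K)) hR0 (fun z x => le_trans (hB1 z x) hRR)
        (fun z x hz => hB2 z x (lt_of_le_of_lt hRR hz))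
        (fun z x hm => ⟨le_trans (hB4 z x hm).1 hRR, le_trans (hB4 z x hm).2 hRR⟩) hV hvR N hN
        h1 h2
      rw [hb] at h
      exact h)
  have hV2 : 0 < (cV K) ^ 2 := by positivity
  have hV' : cV K ≠ 0 := hV.ne'
  calc 2 * cB1 K * cB2 K = 2 * (cB1 K / cV K) * (cB2 K / cV K) * (cV K) ^ 2 := by
        field_simp
    _ ≤ cv K (cZ K / cV K) * (cV K) ^ 2 := mul_le_mul_of_nonneg_right hlim hV2.le

end Vale.Agent.Lib.P254
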