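import Vale.Agent.Lib.P254.Sec.Disc

namespace Vale.Agent.Lib.P254

/-- Summation by parts for the weights `j - 1` against the increments of a sequence. -/
theorem cf_tele (Xb : ℕ → ℝ) (k : ℕ) :
    ∑ j ∈ Finset.Icc 1 k, ((j:ℝ) - 1) * (Xb j - Xb (j + 1)) =
      (∑ i ∈ Finset.Icc 1 k, Xb i) - Xb 1 - ((k:ℝ) - 1) * Xb (k + 1) := by
  induction k with
  | zero => simp
  | succ k ih =>
    rw [Finset.sum_Icc_succ_top (by omega), Finset.sum_Icc_succ_top (by omega), ih]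
    push_cast
    ring

/-- The discrete step of the section inequality for a fixed number `N` of strips. -/
theorem core_fin_step (N : ℕ) (hN : 3 ≤ N) (Xb Yb : ℕ → ℝ) (R c b1 b2 : ℝ)
    (hX1 : ∀ j, 1 ≤ j → j < N → Xb (j + 1) ≤ Xb j) (hXN : Xb N = 0)
    (hXc : ∀ j, 1 ≤ j → j + 2 ≤ N → Xb (j + 1) - Xb (j + 2) ≤ Xb j - Xb (j + 1))
    (hXR : Xb 1 ≤ R)
    (hY0 : 0 ≤ Yb 1) (hYm : ∀ j, 1 ≤ j → j < N → Yb j ≤ Yb (j + 1))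
    (hYc : ∀ j, 1 ≤ j → j + 2 ≤ N → Yb j + Yb (j + 2) ≤ 2 * Yb (j + 1)) (hYR : Yb N ≤ R)
    (hB1 : (N:ℝ) * b1 ≤ R + ∑ i ∈ Finset.Icc 1 (N - 1), Xb i)
    (hB2 : (N:ℝ) * b2 ≤ ∑ j ∈ Finset.Icc 1 N, Yb j)
    (hst : ∑ j ∈ Finset.Icc 1 (N - 1), Yb j * (Xb j - Xb (j + 1)) ≤ c)
    (h1 : 2 * R ≤ (N:ℝ) * b1) (h2 : R ≤ (N:ℝ) * b2) :
    2 * ((N:ℝ) * b1 - 2 * R) * ((N:ℝ) * b2 - R) ≤ ((N:ℝ) - 1) * ((N:ℝ) - 2) * c := by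
  obtain ⟨n, rfl⟩ : ∃ n : ℕ, N = n + 1 := ⟨N - 1, by omega⟩
  have hn : 2 ≤ n := by omega
  simp only [Nat.add_sub_cancel] at hB1 hst
  have hcheb := disc_cheb n hn (fun j => Xb j - Xb (j + 1)) Yb
    (fun j hj1 hjn => sub_nonneg.2 (hX1 j hj1 (by omega)))
    (fun j hj1 hjn => hXc j hj1 (by omega))
    hY0 (fun j hj1 hjn => hYm j hj1 (by omega)) (fun j hj1 hjn => hYc j hj1 (by omega))
  beta_reduce at hcheb
  rw [cf_tele Xb n, hXN, mul_zero, sub_zero] at hcheb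
  have hS2 : ∑ j ∈ Finset.Icc 1 (n + 1), Yb j = (∑ j ∈ Finset.Icc 1 n, Yb j) + Yb (n + 1) :=
    Finset.sum_Icc_succ_top (by omega) _
  rw [hS2] at hB2
  have hn1 : (((n + 1 : ℕ)) : ℝ) = (n:ℝ) + 1 := by push_cast; ring
  rw [hn1] at hB1 hB2 h1 h2 ⊢
  have hn2 : (2:ℝ) ≤ n := by exact_mod_cast hn
  set S1 := (∑ i ∈ Finset.Icc 1 n, Xb i) - Xb 1 with hS1
  set S2 := ∑ j ∈ Finset.Icc 1 n, Yb j with hS2'
  have hS1ge : ((n:ℝ) + 1) * b1 - 2 * R ≤ S1 := by rw [hS1]; linarith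
  have hS2ge : ((n:ℝ) + 1) * b2 - R ≤ S2 := by linarith
  have hA0 : 0 ≤ ((n:ℝ) + 1) * b1 - 2 * R := by linarith
  have hB0 : 0 ≤ ((n:ℝ) + 1) * b2 - R := by linarith
  have hprod : (((n:ℝ) + 1) * b1 - 2 * R) * (((n:ℝ) + 1) * b2 - R) ≤ S1 * S2 :=
    mul_le_mul hS1ge hS2ge hB0 (le_trans hA0 hS1ge)
  have hnn : 0 ≤ (n:ℝ) * ((n:ℝ) - 1) := mul_nonneg (by linarith) (by linarith)
  have hlast : (n:ℝ) * ((n:ℝ) - 1) * ∑ j ∈ Finset.Icc 1 n, Yb j * (Xb j - Xb (j + 1))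
      ≤ (n:ℝ) * ((n:ℝ) - 1) * c := mul_le_mul_of_nonneg_left hst hnn
  have e : ((n:ℝ) + 1 - 1) * ((n:ℝ) + 1 - 2) * c = (n:ℝ) * ((n:ℝ) - 1) * c := by ring
  rw [e]
  calc 2 * (((n:ℝ) + 1) * b1 - 2 * R) * (((n:ℝ) + 1) * b2 - R)
      = 2 * ((((n:ℝ) + 1) * b1 - 2 * R) * (((n:ℝ) + 1) * b2 - R)) := by ring
    _ ≤ 2 * (S1 * S2) := by linarith
    _ = 2 * S1 * S2 := by ring
    _ ≤ (n:ℝ) * ((n:ℝ) - 1) * ∑ j ∈ Finset.Icc 1 n, Yb j * (Xb j - Xb (j + 1)) := hcheb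
    _ ≤ (n:ℝ) * ((n:ℝ) - 1) * c := hlast

/-- Passage to the limit in the number of strips. -/
theorem core_limit (b1 b2 c R : ℝ) (hb1 : 0 ≤ b1) (hb2 : 0 ≤ b2) (hc : 0 ≤ c)
    (h : ∀ N : ℕ, 3 ≤ N → 2 * R ≤ (N:ℝ) * b1 → R ≤ (N:ℝ) * b2 →
      2 * ((N:ℝ) * b1 - 2 * R) * ((N:ℝ) * b2 - R) ≤ ((N:ℝ) - 1) * ((N:ℝ) - 2) * c) :
    2 * b1 * b2 ≤ c := by
  by_contra hcon
  push Not at hcon
  have hb1pos : 0 < b1 := by
    rcases hb1.eq_or_lt with h0 | h0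
    · exfalso; rw [← h0] at hcon; linarith
    · exact h0
  have hb2pos : 0 < b2 := by
    rcases hb2.eq_or_lt with h0 | h0
    · exfalso; rw [← h0] at hcon; linarith
    · exact h0
  set ε := 2 * b1 * b2 - c with hε
  have hεpos : 0 < ε := by rw [hε]; linarith
  obtain ⟨N, hNgt⟩ := exists_nat_gt
    (max (max 3 (2 * R / b1)) (max (R / b2) (2 * R * (b1 + 2 * b2) / ε)))
  have hN3 : (3:ℝ) < N := lt_of_le_of_lt (le_trans (le_max_left _ _) (le_max_left _ _)) hNgt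
  have hNa : 2 * R / b1 < N :=
    lt_of_le_of_lt (le_trans (le_max_right _ _) (le_max_left _ _)) hNgt
  have hNb : R / b2 < N :=
    lt_of_le_of_lt (le_trans (le_max_left _ _) (le_max_right _ _)) hNgt
  have hNc : 2 * R * (b1 + 2 * b2) / ε < N :=
    lt_of_le_of_lt (le_trans (le_max_right _ _) (le_max_right _ _)) hNgt
  have hN3' : 3 ≤ N := by
    have : (3:ℕ) < N := by exact_mod_cast hN3
    omega
  have hNpos : (0:ℝ) < N := by linarith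
  have h1 : 2 * R ≤ (N:ℝ) * b1 := by
    have := (div_lt_iff₀ hb1pos).1 hNa
    linarith
  have h2 : R ≤ (N:ℝ) * b2 := by
    have := (div_lt_iff₀ hb2pos).1 hNb
    linarith
  have h3 : 2 * R * (b1 + 2 * b2) < (N:ℝ) * ε := (div_lt_iff₀ hεpos).1 hNc
  have hmain := h N hN3' h1 h2
  have hle : ((N:ℝ) - 1) * ((N:ℝ) - 2) * c ≤ (N:ℝ) ^ 2 * c := by
    apply mul_le_mul_of_nonneg_right _ hc
    nlinarith
  have h4 : (N:ℝ) ^ 2 * ε ≤ 2 * (N:ℝ) * R * (b1 + 2 * b2) := by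
    have e : 2 * ((N:ℝ) * b1 - 2 * R) * ((N:ℝ) * b2 - R)
        = (N:ℝ) ^ 2 * (2 * b1 * b2) - 2 * (N:ℝ) * R * (b1 + 2 * b2) + 4 * R ^ 2 := by ring
    have hR2 : 0 ≤ 4 * R ^ 2 := by positivity
    rw [hε]
    nlinarith [hmain, hle, e]
  have h5 : (N:ℝ) * ((N:ℝ) * ε) ≤ (N:ℝ) * (2 * R * (b1 + 2 * b2)) := by
    have e1 : (N:ℝ) * ((N:ℝ) * ε) = (N:ℝ) ^ 2 * ε := by ring
    have e2 : (N:ℝ) * (2 * R * (b1 + 2 * b2)) = 2 * (N:ℝ) * R * (b1 + 2 * b2) := by ring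
    rw [e1, e2]; exact h4
  have h6 : (N:ℝ) * ε ≤ 2 * R * (b1 + 2 * b2) := le_of_mul_le_mul_left h5 hNpos
  linarith

end Vale.Agent.Lib.P254
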