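import Vale.Agent.Lib.P254.Sym.Slice

/-!
# P254, unconditional bodies in dimension three: definitions for the section route

Coordinates of a point of `ℝ^3` are written `![z, x, y]`: `z` is the slicing direction
(coordinate `0`), `x` and `y` are the coordinates `1` and `2` inside a section.
-/

open MeasureTheory Set

namespace Vale.Agent.Lib.P254

/-- Compact convex subsets of `ℝ^3` invariant under the sign change of every coordinate. -/
def Uncond3 (K : Set (Fin 3 → ℝ)) : Prop :=
  IsCompact K ∧ Convex ℝ K ∧ ∀ i : Fin 3, ∀ x ∈ K, Function.update x i (-(x i)) ∈ K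

/-- The top of the fibre of `K` over the point `(z, x)` of the first two coordinates
(zero when the fibre is empty). -/
noncomputable def hgt (K : Set (Fin 3 → ℝ)) (z x : ℝ) : ℝ :=
  sSup {y : ℝ | ![z, x, y] ∈ K}

/-- A quarter of the area of the section of `K` at height `z`. -/
noncomputable def cv (K : Set (Fin 3 → ℝ)) (z : ℝ) : ℝ :=
  ∫ x in Ioi (0:ℝ), hgt K z x

/-- An eighth of the volume of `K`. -/
noncomputable def cV (K : Set (Fin 3 → ℝ)) : ℝ :=
  ∫ z in Ioi (0:ℝ), cv K z

/-- First moment of the coordinate `z` over the positive part of `K`. -/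
noncomputable def cZ (K : Set (Fin 3 → ℝ)) : ℝ :=
  ∫ z in Ioi (0:ℝ), z * cv K z

/-- First moment of the coordinate `x` over the positive part of `K`. -/
noncomputable def cB1 (K : Set (Fin 3 → ℝ)) : ℝ :=
  ∫ z in Ioi (0:ℝ), ∫ x in Ioi (0:ℝ), x * hgt K z x

/-- Twice the first moment of the coordinate `y` over the positive part of `K`. -/
noncomputable def cB2 (K : Set (Fin 3 → ℝ)) : ℝ :=
  ∫ z in Ioi (0:ℝ), ∫ x in Ioi (0:ℝ), (hgt K z x) ^ 2

/-- The integral of `g` over the half line to the right of `c`. -/
noncomputable def tailInt (g : ℝ → ℝ) (c : ℝ) : ℝ :=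
  ∫ x in Ioi c, g x

/-- The quantile point of `g` on the half line `[0,∞)`: the largest `c ≥ 0` such that the part
of the integral of `g` to the right of `c` is at least the fraction `θ` of the whole. -/
noncomputable def quant (g : ℝ → ℝ) (θ : ℝ) : ℝ :=
  sSup {c : ℝ | 0 ≤ c ∧ θ * tailInt g 0 ≤ tailInt g c}

/-- One-dimensional section profiles: nonnegative, nonincreasing on `[0,∞)`, concave on `[0,X]`
and zero to the right of `X`. -/
structure Prof (g : ℝ → ℝ) (X : ℝ) : Prop where
  X_nonneg : 0 ≤ X
  nonneg : ∀ x, 0 ≤ g x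
  anti : AntitoneOn g (Ici 0)
  conc : ConcaveOn ℝ (Icc 0 X) g
  zero : ∀ x, X < x → g x = 0

end Vale.Agent.Lib.P254
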