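import Vale.Agent.Lib.P254.Sec.Defs

namespace Vale.Agent.Lib.P254

/-- Sums over `Finset.Icc 1 k` of the coefficients used in the summation by parts. -/
theorem dc_coeff_sum (y : ℕ → ℝ) (N S : ℝ) (k : ℕ) :
    ∑ j ∈ Finset.Icc 1 k, (N * y j - 2 * ((j:ℝ) - 1) * S) =
      N * (∑ j ∈ Finset.Icc 1 k, y j) - (k:ℝ) * ((k:ℝ) - 1) * S := by
  induction k with
  | zero => simp
  | succ k ih =>
    rw [Finset.sum_Icc_succ_top (by omega), Finset.sum_Icc_succ_top (by omega), ih]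
    push_cast
    ring

/-- A finite Chebyshev-type inequality: a nonincreasing nonnegative weight `d` against a
nondecreasing concave sequence `y`. -/
theorem disc_cheb (n : ℕ) (hn : 2 ≤ n) (d y : ℕ → ℝ)
    (hd0 : ∀ j, 1 ≤ j → j ≤ n → 0 ≤ d j)
    (hd : ∀ j, 1 ≤ j → j < n → d (j + 1) ≤ d j)
    (hy0 : 0 ≤ y 1)
    (hy : ∀ j, 1 ≤ j → j < n → y j ≤ y (j + 1))
    (hyc : ∀ j, 1 ≤ j → j + 2 ≤ n → y j + y (j + 2) ≤ 2 * y (j + 1)) :
    2 * (∑ j ∈ Finset.Icc 1 n, ((j:ℝ) - 1) * d j) * (∑ j ∈ Finset.Icc 1 n, y j) ≤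
      (n:ℝ) * ((n:ℝ) - 1) * ∑ j ∈ Finset.Icc 1 n, y j * d j := by
  have _hd0 := hd0
  have _hy := hy
  obtain ⟨Y, hY⟩ : ∃ Y : ℕ → ℝ, ∀ k, Y k = ∑ j ∈ Finset.Icc 1 k, y j := ⟨_, fun _ => rfl⟩
  have hY0 : Y 0 = 0 := by rw [hY]; simp
  have hYs : ∀ k, Y (k + 1) = Y k + y (k + 1) := by
    intro k
    rw [hY, hY, Finset.sum_Icc_succ_top (by omega)]
  have hY1 : Y 1 = y 1 := by rw [hYs 0, hY0, zero_add]
  -- Step R
  have hR : ∀ k : ℕ, k + 2 ≤ n → 0 ≤ ((k:ℝ) + 1) * y (k + 1) - (k:ℝ) * y (k + 2) := by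
    intro k
    induction k with
    | zero =>
      intro _
      simpa using hy0
    | succ k ih =>
      intro hk
      have h1 := ih (by omega)
      have h2 : y (k + 1) + y (k + 3) ≤ 2 * y (k + 2) := hyc (k + 1) (by omega) (by omega)
      have hk0 : (0:ℝ) ≤ (k:ℝ) + 1 := by positivity
      have h3 := mul_nonneg hk0 (sub_nonneg.mpr h2)
      show 0 ≤ (((k + 1 : ℕ):ℝ) + 1) * y (k + 2) - ((k + 1 : ℕ):ℝ) * y (k + 3)
      push_cast
      nlinarith [h1, h3]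
  -- Step Q
  have hQ : ∀ i : ℕ, i + 1 < n → (i:ℝ) * y (i + 2) ≤ 2 * Y (i + 1) := by
    intro i
    induction i with
    | zero =>
      intro _
      rw [hY1]
      simp only [Nat.cast_zero, zero_mul]
      linarith
    | succ i ih =>
      intro hi
      have h1 := ih (by omega)
      have h2 : 0 ≤ ((i:ℝ) + 1 + 1) * y (i + 2) - ((i:ℝ) + 1) * y (i + 3) := by
        have h := hR (i + 1) (by omega)
        push_cast at h
        exact h
      have h3 : Y (i + 2) = Y (i + 1) + y (i + 2) := hYs (i + 1)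
      show ((i + 1 : ℕ):ℝ) * y (i + 3) ≤ 2 * Y (i + 2)
      push_cast
      rw [h3]
      nlinarith [h1, h2]
  -- Step U
  have hU : ∀ i : ℕ, i + 1 < n → (i:ℝ) * Y (i + 2) ≤ ((i:ℝ) + 2) * Y (i + 1) := by
    intro i hi
    have h1 := hQ i hi
    have h3 : Y (i + 2) = Y (i + 1) + y (i + 2) := hYs (i + 1)
    rw [h3]
    nlinarith [h1]
  obtain ⟨N, hNdef⟩ : ∃ N : ℝ, N = (n:ℝ) * ((n:ℝ) - 1) := ⟨_, rfl⟩
  obtain ⟨S, hSdef⟩ : ∃ S : ℝ, S = Y n := ⟨_, rfl⟩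
  have hn1 : (1:ℝ) ≤ (n:ℝ) := by exact_mod_cast (by omega : 1 ≤ n)
  have hN : 0 ≤ N := by
    rw [hNdef]
    exact mul_nonneg (Nat.cast_nonneg n) (sub_nonneg.mpr hn1)
  -- Step C
  have hC : ∀ t k : ℕ, k + t = n → 1 ≤ k → 0 ≤ N * Y k - (k:ℝ) * ((k:ℝ) - 1) * S := by
    intro t
    induction t with
    | zero =>
      intro k hk _
      have hkn : k = n := by omega
      rw [hkn, hSdef, hNdef]
      exact le_of_eq (by ring)
    | succ t ih =>
      intro k hk hk1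
      obtain ⟨i, rfl⟩ : ∃ i, k = i + 1 := ⟨k - 1, by omega⟩
      have h1 : 0 ≤ N * Y (i + 2) - ((i:ℝ) + 1 + 1) * ((i:ℝ) + 1 + 1 - 1) * S := by
        have h := ih (i + 1 + 1) (by omega) (by omega)
        push_cast at h
        exact h
      have h2 := hU i (by omega)
      have hi0 : (0:ℝ) ≤ (i:ℝ) := Nat.cast_nonneg i
      have hpos : (0:ℝ) < (i:ℝ) + 2 := by positivity
      have h3 : 0 ≤ ((i:ℝ) + 2) * (N * Y (i + 1) - ((i:ℝ) + 1) * (i:ℝ) * S) := by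
        nlinarith [mul_nonneg hi0 h1, mul_le_mul_of_nonneg_left h2 hN]
      have h4 := (mul_nonneg_iff_of_pos_left hpos).mp h3
      push_cast
      linarith [h4]
  -- Step A
  have hA : ∀ m : ℕ, m + 1 ≤ n →
      d (m + 1) * (N * Y (m + 1) - ((m:ℝ) + 1) * (m:ℝ) * S) ≤
        ∑ j ∈ Finset.Icc 1 (m + 1), d j * (N * y j - 2 * ((j:ℝ) - 1) * S) := by
    intro m
    induction m with
    | zero =>
      intro _
      rw [hY1]
      simp
    | succ m ih =>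
      intro hm
      have h1 := ih (by omega)
      have hCm : 0 ≤ N * Y (m + 1) - ((m:ℝ) + 1) * (m:ℝ) * S := by
        have h := hC (n - (m + 1)) (m + 1) (by omega) (by omega)
        push_cast at h
        linarith [h]
      have hdd : d (m + 2) ≤ d (m + 1) := hd (m + 1) (by omega) (by omega)
      have hY2 : Y (m + 2) = Y (m + 1) + y (m + 2) := hYs (m + 1)
      have h5 := mul_le_mul_of_nonneg_right hdd hCm
      rw [Finset.sum_Icc_succ_top (by omega)]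
      show d (m + 2) * (N * Y (m + 2) - (((m + 1 : ℕ):ℝ) + 1) * ((m + 1 : ℕ):ℝ) * S) ≤
        ∑ j ∈ Finset.Icc 1 (m + 1), d j * (N * y j - 2 * ((j:ℝ) - 1) * S) +
          d (m + 2) * (N * y (m + 2) - 2 * (((m + 1 + 1 : ℕ):ℝ) - 1) * S)
      push_cast
      rw [hY2]
      nlinarith [h1, h5]
  have hfin := hA (n - 1) (by omega)
  have hn1' : n - 1 + 1 = n := by omega
  have hc : ((n - 1 : ℕ):ℝ) = (n:ℝ) - 1 := by
    rw [Nat.cast_sub (by omega)]
    simp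
  rw [hn1', hc] at hfin
  have hzero : d n * (N * Y n - ((n:ℝ) - 1 + 1) * ((n:ℝ) - 1) * S) = 0 := by
    rw [hSdef, hNdef]
    ring
  rw [hzero] at hfin
  have key : ∑ j ∈ Finset.Icc 1 n, d j * (N * y j - 2 * ((j:ℝ) - 1) * S) =
      N * (∑ j ∈ Finset.Icc 1 n, y j * d j) -
        2 * (∑ j ∈ Finset.Icc 1 n, ((j:ℝ) - 1) * d j) * S := by
    rw [Finset.mul_sum, Finset.mul_sum, Finset.sum_mul, ← Finset.sum_sub_distrib]
    exact Finset.sum_congr rfl (fun j _ => by ring)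
  rw [key] at hfin
  have hS' : S = ∑ j ∈ Finset.Icc 1 n, y j := by rw [hSdef, hY]
  rw [← hS', ← hNdef]
  linarith [hfin]

end Vale.Agent.Lib.P254
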