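import Vale.Agent.Lib.P254.Sec.HgtA

open MeasureTheory Set

namespace Vale.Agent.Lib.P254

variable {K : Set (Fin 3 → ℝ)}

/-- A nonempty fibre is a symmetric interval. -/
private lemma fb_set_mem (hK : Uncond3 K) {z x : ℝ} (h : ![z, x, 0] ∈ K) :
    {y : ℝ | ![z, x, y] ∈ K} = Icc (-(hgt K z x)) (hgt K z x) := by
  ext y
  simp only [mem_ofPred_eq, mem_Icc]
  rw [mem_iff_hgt hK z x y, abs_le]
  exact ⟨fun hh => hh.2, fun hh => ⟨h, hh⟩⟩

/-- An empty fibre. -/
private lemma fb_set_notMem (hK : Uncond3 K) {z x : ℝ} (h : ![z, x, 0] ∉ K) :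
    {y : ℝ | ![z, x, y] ∈ K} = ∅ := by
  ext y
  simp only [mem_ofPred_eq, mem_empty_iff_false, iff_false]
  intro hy
  exact h ((mem_iff_hgt hK z x y).1 hy).1

/-- The integral of the absolute value over a symmetric interval. -/
private lemma fb_abs_integral {h : ℝ} (hh : 0 ≤ h) : ∫ y in Icc (-h) h, |y| = h ^ 2 := by
  have hle : -h ≤ h := by linarith
  rw [integral_Icc_eq_integral_Ioc, ← intervalIntegral.integral_of_le hle]
  have hi1 : IntervalIntegrable (fun y : ℝ => |y|) volume (-h) 0 :=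
    (continuous_abs).intervalIntegrable _ _
  have hi2 : IntervalIntegrable (fun y : ℝ => |y|) volume 0 h :=
    (continuous_abs).intervalIntegrable _ _
  rw [← intervalIntegral.integral_add_adjacent_intervals hi1 hi2]
  have h1 : ∫ y in (-h)..0, |y| = ∫ y in (-h)..0, -y := by
    apply intervalIntegral.integral_congr
    intro y hy
    rw [uIcc_of_le (by linarith)] at hy
    exact abs_of_nonpos hy.2
  have h2 : ∫ y in (0:ℝ)..h, |y| = ∫ y in (0:ℝ)..h, y := by
    apply intervalIntegral.integral_congr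
    intro y hy
    rw [uIcc_of_le hh] at hy
    exact abs_of_nonneg hy.1
  rw [h1, h2, intervalIntegral.integral_neg, integral_id, integral_id]
  ring

/-- The length of the fibre over `(z, x)`. -/
theorem fibre_vol (hK : Uncond3 K) (z x : ℝ) :
    (volume {y : ℝ | ![z, x, y] ∈ K}).toReal = 2 * hgt K z x := by
  by_cases h : ![z, x, 0] ∈ K
  · rw [fb_set_mem hK h, Real.volume_Icc, ENNReal.toReal_ofReal]
    · ring
    · have := hgt_nonneg hK z x
      linarith
  · rw [fb_set_notMem hK h, hgt_eq_zero_of_notMem hK h]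
    simp

/-- The first absolute moment of the fibre over `(z, x)`. -/
theorem fibre_abs (hK : Uncond3 K) (z x : ℝ) :
    ∫ y in {y : ℝ | ![z, x, y] ∈ K}, |y| = (hgt K z x) ^ 2 := by
  by_cases h : ![z, x, 0] ∈ K
  · rw [fb_set_mem hK h]
    exact fb_abs_integral (hgt_nonneg hK z x)
  · rw [fb_set_notMem hK h, hgt_eq_zero_of_notMem hK h]
    simp

end Vale.Agent.Lib.P254
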