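import Vale.Agent.Lib.P254.Sec.Moment
import Vale.Agent.Lib.P254.Sym.Berwald3
import Vale.Agent.Lib.P254.Sym.Axis

/-!
# P254, unconditional convex bodies in dimension three: the final step of the section route

From the bound `m2 K 0 * m2 K 1 * m2 K 2 < 9/8000 * |K|^5` for the second moments of an
unconditional convex body `K ⊆ ℝ^3` to the comparison of the isotropic constants with the
simplex.
-/

open MeasureTheory Set

namespace Vale.Agent.Lib.P254

/-- The ratio `det Σ_K / |K|²` of an unconditional convex body in `ℝ^3` is strictly below the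
common value `9/8000` of the ratio of all tetrahedra. -/
theorem sec3_ratio_lt {K : Set (Fin 3 → ℝ)} (hK : IsCompact K) (hc : Convex ℝ K)
    (hi : (interior K).Nonempty)
    (hsign : ∀ i : Fin 3, ∀ x ∈ K, Function.update x i (-(x i)) ∈ K) :
    (covMatrix K).det / (vol K) ^ 2 < 9 / 8000 ∧ 0 ≤ (covMatrix K).det / (vol K) ^ 2 := by
  have hV : 0 < vol K := vol_pos_of_interior hK hi
  have hU : Uncond3 K := ⟨hK, hc, hsign⟩
  have hp := sec_moment_bound hU hV (berwald3 hK hc hsign 1) (berwald3 hK hc hsign 2)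
    (sqrt_concave_vol_sec hK hc (hsign 0))
  have hm : ∀ i : Fin 3, 0 ≤ m2 K i := fun i => integral_nonneg fun x => sq_nonneg (x i)
  have hdet : (covMatrix K).det =
      ((vol K)⁻¹ * m2 K 0) * ((vol K)⁻¹ * m2 K 1) * ((vol K)⁻¹ * m2 K 2) := by
    rw [covMatrix_of_flip hsign, Matrix.det_diagonal, Fin.prod_univ_three]
  have hratio : (covMatrix K).det / (vol K) ^ 2 = (m2 K 0 * m2 K 1 * m2 K 2) / (vol K) ^ 5 := by
    rw [hdet]
    field_simp
  rw [hratio]
  have h0 := hm 0
  have h1 := hm 1
  have h2 := hm 2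
  refine ⟨?_, by positivity⟩
  rw [div_lt_iff₀ (by positivity)]
  exact hp

/-- **Strong isotropic constant inequality for unconditional convex bodies in `ℝ^3`.** -/
theorem sec3_isotropic_lt (K : Set (Fin 3 → ℝ)) (hK : IsCompact K) (hc : Convex ℝ K)
    (hi : (interior K).Nonempty)
    (hsign : ∀ i : Fin 3, ∀ x ∈ K, Function.update x i (-(x i)) ∈ K)
    (T : Fin 4 → Fin 3 → ℝ) (hT : AffineIndependent ℝ T) :
    isotropicConstant K < isotropicConstant (convexHull ℝ (Set.range T)) ∧
      (covMatrix K).det / (vol K) ^ 2 < 9 / 8000 := by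
  obtain ⟨h1, h0⟩ := sec3_ratio_lt hK hc hi hsign
  refine ⟨?_, h1⟩
  unfold isotropicConstant
  rw [ratio_general_simplex T hT]
  have hnum : (9 / 8000 : ℝ) = simplexRatio 3 := by
    norm_num [simplexRatio, Nat.factorial]
  have hpos : (0:ℝ) < 1 / (2 * ((3 : ℕ) : ℝ)) := by norm_num
  rw [hnum] at h1
  exact Real.rpow_lt_rpow h0 h1 hpos

end Vale.Agent.Lib.P254
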