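import Vale.Agent.Lib.P254.Sec.Defs

open MeasureTheory Set

namespace Vale.Agent.Lib.P254

variable {K : Set (Fin 3 → ℝ)}

/-- Adjoining a first coordinate is continuous. -/
lemma fu_continuous_cons {n : ℕ} (t : ℝ) :
    Continuous (fun y : Fin n → ℝ => (Fin.cons t y : Fin (n+1) → ℝ)) :=
  Continuous.finCons continuous_const continuous_id

/-- A point of `ℝ^3` built by adjoining two coordinates to a point of `ℝ^1`. -/
lemma fu_cons_eq (z x : ℝ) (u : Fin 1 → ℝ) :
    (Fin.cons z (Fin.cons x u : Fin 2 → ℝ) : Fin 3 → ℝ) = ![z, x, u 0] := by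
  ext i
  fin_cases i
  · rfl
  · rfl
  · rfl

/-- The iterated section over the point with coordinates z, x is the preimage of the fibre
under the identification
of `ℝ^1` with `ℝ`. -/
lemma fu_sec_sec (K : Set (Fin 3 → ℝ)) (z x : ℝ) :
    sec (sec K z) x = (MeasurableEquiv.funUnique (Fin 1) ℝ) ⁻¹' {y : ℝ | ![z, x, y] ∈ K} := by
  ext u
  change (Fin.cons z (Fin.cons x u : Fin 2 → ℝ) : Fin 3 → ℝ) ∈ K ↔ ![z, x, u default] ∈ K
  rw [fu_cons_eq]
  rfl

/-- The integral over an iterated section as an integral over the fibre. -/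
lemma fu_inner (K : Set (Fin 3 → ℝ)) (f : (Fin 3 → ℝ) → ℝ) (z x : ℝ) :
    ∫ u in sec (sec K z) x, f (Fin.cons z (Fin.cons x u : Fin 2 → ℝ))
      = ∫ y in {y : ℝ | ![z, x, y] ∈ K}, f ![z, x, y] := by
  rw [fu_sec_sec]
  have h := (volume_preserving_funUnique (Fin 1) ℝ).setIntegral_preimage_emb
    (MeasurableEquiv.funUnique (Fin 1) ℝ).measurableEmbedding
    (fun y : ℝ => f ![z, x, y]) {y : ℝ | ![z, x, y] ∈ K}
  rw [← h]
  congr 1
  funext u
  change f (Fin.cons z (Fin.cons x u : Fin 2 → ℝ)) = f ![z, x, u default]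
  rw [fu_cons_eq]
  rfl

/-- Fubini in the three coordinates for a compact set. -/
theorem integral_fub3 (hK : IsCompact K) (f : (Fin 3 → ℝ) → ℝ) (hf : Continuous f) :
    ∫ p in K, f p = ∫ z, ∫ x, ∫ y in {y : ℝ | ![z, x, y] ∈ K}, f ![z, x, y] := by
  rw [integral_slice hK f hf]
  congr 1
  funext z
  rw [integral_slice (isCompact_sec hK z) (fun q : Fin 2 → ℝ => f (Fin.cons z q))
    (hf.comp (fu_continuous_cons z))]
  congr 1
  funext x
  exact fu_inner K f z x

/-- The area of a section as an integral of fibre lengths. -/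
theorem vol_sec_fub (hK : IsCompact K) (z : ℝ) :
    vol (sec K z) = ∫ x, (volume {y : ℝ | ![z, x, y] ∈ K}).toReal := by
  rw [vol_slice (isCompact_sec hK z)]
  congr 1
  funext x
  change (volume (sec (sec K z) x)).toReal = _
  rw [fu_sec_sec]
  exact congrArg ENNReal.toReal
    ((volume_preserving_funUnique (Fin 1) ℝ).measure_preimage_equiv {y : ℝ | ![z, x, y] ∈ K})

end Vale.Agent.Lib.P254
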