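import Vale.Agent.Lib.P254.Sec.Defs

open MeasureTheory Set

namespace Vale.Agent.Lib.P254

/-- The integral of an even function over the line is twice its integral over the half line. -/
theorem integral_even_half (φ : ℝ → ℝ) (h : ∀ x, φ (-x) = φ x) :
    ∫ x, φ x = 2 * ∫ x in Ioi (0:ℝ), φ x := by
  have hfun : (fun t => φ |t|) = φ := by
    funext t
    rcases abs_cases t with ⟨ht, _⟩ | ⟨ht, _⟩
    · rw [ht]
    · rw [ht, h]
  have h2 := integral_comp_abs (f := φ)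
  rw [hfun] at h2
  exact h2

/-- The integral over the plane of a function even in both variables is four times its
integral over the positive quadrant. -/
theorem integral_quadrant (φ : ℝ → ℝ → ℝ) (hz : ∀ z x, φ (-z) x = φ z x)
    (hx : ∀ z x, φ z (-x) = φ z x) :
    ∫ z, ∫ x, φ z x = 4 * ∫ z in Ioi (0:ℝ), ∫ x in Ioi (0:ℝ), φ z x := by
  have h1 : ∫ z, ∫ x, φ z x = ∫ z, 2 * ∫ x in Ioi (0:ℝ), φ z x :=
    integral_congr_ae (Filter.Eventually.of_forall
      (fun z => integral_even_half (φ z) (hx z)))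
  have hev : ∀ z, (2 * ∫ x in Ioi (0:ℝ), φ (-z) x) = 2 * ∫ x in Ioi (0:ℝ), φ z x := by
    intro z
    have e : ∫ x in Ioi (0:ℝ), φ (-z) x = ∫ x in Ioi (0:ℝ), φ z x :=
      setIntegral_congr_fun measurableSet_Ioi (fun x _ => hz z x)
    rw [e]
  have h2 : ∫ z, 2 * ∫ x in Ioi (0:ℝ), φ z x
      = 2 * ∫ z in Ioi (0:ℝ), 2 * ∫ x in Ioi (0:ℝ), φ z x :=
    integral_even_half (fun z => 2 * ∫ x in Ioi (0:ℝ), φ z x) hev
  have h3 : ∫ z in Ioi (0:ℝ), 2 * ∫ x in Ioi (0:ℝ), φ z x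
      = 2 * ∫ z in Ioi (0:ℝ), ∫ x in Ioi (0:ℝ), φ z x :=
    integral_const_mul 2 (fun z => ∫ x in Ioi (0:ℝ), φ z x)
  rw [h1, h2, h3]
  ring

end Vale.Agent.Lib.P254
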