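import Vale.Agent.Lib.P254.Sec.Fib
import Vale.Agent.Lib.P254.Sec.Fub3
import Vale.Agent.Lib.P254.Sec.Quad
import Vale.Agent.Lib.P254.Sec.Meas

open MeasureTheory Set

namespace Vale.Agent.Lib.P254

variable {K : Set (Fin 3 → ℝ)}

theorem gl_hgt_neg_left (hK : Uncond3 K) (z x : ℝ) : hgt K (-z) x = hgt K z x := by
  rw [hgt_abs hK (-z) x, hgt_abs hK z x, abs_neg]

theorem gl_hgt_neg_right (hK : Uncond3 K) (z x : ℝ) : hgt K z (-x) = hgt K z x := by
  rw [hgt_abs hK z (-x), hgt_abs hK z x, abs_neg]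

/-- The integral of a constant over the fibre. -/
theorem gl_fibre_const (hK : Uncond3 K) (z x c : ℝ) :
    ∫ _y in {y : ℝ | ![z, x, y] ∈ K}, c = 2 * hgt K z x * c := by
  rw [setIntegral_const, smul_eq_mul]
  have h : (volume : Measure ℝ).real {y : ℝ | ![z, x, y] ∈ K}
      = (volume {y : ℝ | ![z, x, y] ∈ K}).toReal := rfl
  rw [h, fibre_vol hK z x]

/-- Integrals over the positive quadrant: a constant factor `2` inside comes out. -/
theorem gl_quadrant_two (φ : ℝ → ℝ → ℝ) :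
    ∫ z in Ioi (0:ℝ), ∫ x in Ioi (0:ℝ), 2 * φ z x
      = 2 * ∫ z in Ioi (0:ℝ), ∫ x in Ioi (0:ℝ), φ z x := by
  have h1 : (fun z => ∫ x in Ioi (0:ℝ), 2 * φ z x)
      = fun z => 2 * ∫ x in Ioi (0:ℝ), φ z x := by
    funext z
    exact integral_const_mul 2 (fun x => φ z x)
  rw [h1]
  exact integral_const_mul 2 (fun z => ∫ x in Ioi (0:ℝ), φ z x)

theorem vol_eq_cV (hK : Uncond3 K) : vol K = 8 * cV K := by
  have h0 : vol K = ∫ _p in K, (1:ℝ) := by
    rw [setIntegral_const, smul_eq_mul, mul_one]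
    rfl
  have h1 : ∫ _p in K, (1:ℝ) = ∫ z, ∫ x, ∫ _y in {y : ℝ | ![z, x, y] ∈ K}, (1:ℝ) :=
    integral_fub3 hK.1 (fun _ => (1:ℝ)) continuous_const
  have h2 : (fun z : ℝ => ∫ x, ∫ _y in {y : ℝ | ![z, x, y] ∈ K}, (1:ℝ))
      = fun z => ∫ x, 2 * hgt K z x := by
    funext z
    congr 1
    funext x
    rw [gl_fibre_const hK z x 1, mul_one]
  have h3 : ∫ z, ∫ x, 2 * hgt K z x
      = 4 * ∫ z in Ioi (0:ℝ), ∫ x in Ioi (0:ℝ), 2 * hgt K z x :=
    integral_quadrant (fun z x => 2 * hgt K z x)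
      (fun z x => by rw [gl_hgt_neg_left hK]) (fun z x => by rw [gl_hgt_neg_right hK])
  have h4 : ∫ z in Ioi (0:ℝ), ∫ x in Ioi (0:ℝ), hgt K z x = cV K := rfl
  rw [h0, h1, h2, h3, gl_quadrant_two (fun z x => hgt K z x), h4]
  ring

theorem abs0_eq_cZ (hK : Uncond3 K) : ∫ p in K, |p 0| = 8 * cZ K := by
  have h1 : ∫ p in K, |p 0|
      = ∫ z, ∫ x, ∫ y in {y : ℝ | ![z, x, y] ∈ K}, |(![z, x, y] : Fin 3 → ℝ) 0| :=
    integral_fub3 hK.1 (fun p => |p 0|) (continuous_abs.comp (continuous_apply 0))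
  have h2 : (fun z : ℝ => ∫ x, ∫ y in {y : ℝ | ![z, x, y] ∈ K}, |(![z, x, y] : Fin 3 → ℝ) 0|)
      = fun z => ∫ x, 2 * (|z| * hgt K z x) := by
    funext z
    congr 1
    funext x
    have e : (fun y : ℝ => |(![z, x, y] : Fin 3 → ℝ) 0|) = fun _ => |z| := by
      funext y
      rfl
    rw [e, gl_fibre_const hK z x |z|]
    ring
  have h3 : ∫ z, ∫ x, 2 * (|z| * hgt K z x)
      = 4 * ∫ z in Ioi (0:ℝ), ∫ x in Ioi (0:ℝ), 2 * (|z| * hgt K z x) :=
    integral_quadrant (fun z x => 2 * (|z| * hgt K z x))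
      (fun z x => by rw [gl_hgt_neg_left hK, abs_neg])
      (fun z x => by rw [gl_hgt_neg_right hK])
  have h4 : ∫ z in Ioi (0:ℝ), ∫ x in Ioi (0:ℝ), |z| * hgt K z x = cZ K := by
    unfold cZ
    apply setIntegral_congr_fun measurableSet_Ioi
    intro z hz
    have hz0 : (0:ℝ) < z := hz
    show ∫ x in Ioi (0:ℝ), |z| * hgt K z x = z * cv K z
    rw [abs_of_pos hz0]
    exact integral_const_mul z (fun x => hgt K z x)
  rw [h1, h2, h3, gl_quadrant_two (fun z x => |z| * hgt K z x), h4]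
  ring

theorem abs1_eq_cB1 (hK : Uncond3 K) : ∫ p in K, |p 1| = 8 * cB1 K := by
  have h1 : ∫ p in K, |p 1|
      = ∫ z, ∫ x, ∫ y in {y : ℝ | ![z, x, y] ∈ K}, |(![z, x, y] : Fin 3 → ℝ) 1| :=
    integral_fub3 hK.1 (fun p => |p 1|) (continuous_abs.comp (continuous_apply 1))
  have h2 : (fun z : ℝ => ∫ x, ∫ y in {y : ℝ | ![z, x, y] ∈ K}, |(![z, x, y] : Fin 3 → ℝ) 1|)
      = fun z => ∫ x, 2 * (|x| * hgt K z x) := by
    funext z
    congr 1
    funext x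
    have e : (fun y : ℝ => |(![z, x, y] : Fin 3 → ℝ) 1|) = fun _ => |x| := by
      funext y
      rfl
    rw [e, gl_fibre_const hK z x |x|]
    ring
  have h3 : ∫ z, ∫ x, 2 * (|x| * hgt K z x)
      = 4 * ∫ z in Ioi (0:ℝ), ∫ x in Ioi (0:ℝ), 2 * (|x| * hgt K z x) :=
    integral_quadrant (fun z x => 2 * (|x| * hgt K z x))
      (fun z x => by rw [gl_hgt_neg_left hK])
      (fun z x => by rw [gl_hgt_neg_right hK, abs_neg])
  have h4 : ∫ z in Ioi (0:ℝ), ∫ x in Ioi (0:ℝ), |x| * hgt K z x = cB1 K := by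
    unfold cB1
    apply setIntegral_congr_fun measurableSet_Ioi
    intro z _
    show ∫ x in Ioi (0:ℝ), |x| * hgt K z x = ∫ x in Ioi (0:ℝ), x * hgt K z x
    apply setIntegral_congr_fun measurableSet_Ioi
    intro x hx
    have hx0 : (0:ℝ) < x := hx
    show |x| * hgt K z x = x * hgt K z x
    rw [abs_of_pos hx0]
  rw [h1, h2, h3, gl_quadrant_two (fun z x => |x| * hgt K z x), h4]
  ring

theorem abs2_eq_cB2 (hK : Uncond3 K) : ∫ p in K, |p 2| = 4 * cB2 K := by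
  have h1 : ∫ p in K, |p 2|
      = ∫ z, ∫ x, ∫ y in {y : ℝ | ![z, x, y] ∈ K}, |(![z, x, y] : Fin 3 → ℝ) 2| :=
    integral_fub3 hK.1 (fun p => |p 2|) (continuous_abs.comp (continuous_apply 2))
  have h2 : (fun z : ℝ => ∫ x, ∫ y in {y : ℝ | ![z, x, y] ∈ K}, |(![z, x, y] : Fin 3 → ℝ) 2|)
      = fun z => ∫ x, (hgt K z x) ^ 2 := by
    funext z
    congr 1
    funext x
    have e : (fun y : ℝ => |(![z, x, y] : Fin 3 → ℝ) 2|) = fun y => |y| := by
      funext y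
      rfl
    rw [e, fibre_abs hK z x]
  have h3 : ∫ z, ∫ x, (hgt K z x) ^ 2
      = 4 * ∫ z in Ioi (0:ℝ), ∫ x in Ioi (0:ℝ), (hgt K z x) ^ 2 :=
    integral_quadrant (fun z x => (hgt K z x) ^ 2)
      (fun z x => by rw [gl_hgt_neg_left hK])
      (fun z x => by rw [gl_hgt_neg_right hK])
  have h4 : ∫ z in Ioi (0:ℝ), ∫ x in Ioi (0:ℝ), (hgt K z x) ^ 2 = cB2 K := rfl
  rw [h1, h2, h3, h4]

theorem vol_sec_eq_cv (hK : Uncond3 K) (z : ℝ) : vol (sec K z) = 4 * cv K z := by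
  have h1 : vol (sec K z) = ∫ x, (volume {y : ℝ | ![z, x, y] ∈ K}).toReal :=
    vol_sec_fub hK.1 z
  have h2 : (fun x : ℝ => (volume {y : ℝ | ![z, x, y] ∈ K}).toReal)
      = fun x => 2 * hgt K z x := by
    funext x
    exact fibre_vol hK z x
  have h3 : ∫ x, 2 * hgt K z x = 2 * ∫ x in Ioi (0:ℝ), 2 * hgt K z x :=
    integral_even_half (fun x => 2 * hgt K z x) (fun x => by rw [gl_hgt_neg_right hK])
  have h4 : ∫ x in Ioi (0:ℝ), 2 * hgt K z x = 2 * cv K z :=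
    integral_const_mul 2 (fun x => hgt K z x)
  rw [h1, h2, h3, h4]
  ring

end Vale.Agent.Lib.P254
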