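import Vale.Agent.Lib.P254.Sec.Defs

open MeasureTheory Set

namespace Vale.Agent.Lib.P254

variable {K : Set (Fin 3 → ℝ)}

private lemma ha_comb {a b : ℝ} (h : |a| ≤ |b|) :
    ∃ t s : ℝ, 0 ≤ t ∧ 0 ≤ s ∧ t + s = 1 ∧ t * b + s * (-b) = a := by
  by_cases hb : b = 0
  · subst hb
    have ha : a = 0 := by
      have : |a| ≤ 0 := by simpa using h
      exact abs_eq_zero.1 (le_antisymm this (abs_nonneg a))
    exact ⟨1, 0, by norm_num, le_refl 0, by norm_num, by simp [ha]⟩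
  · have hb' : 0 < |b| := abs_pos.2 hb
    have hq : |a / b| ≤ 1 := by
      rw [abs_div, div_le_one hb']
      exact h
    obtain ⟨h1, h2⟩ := abs_le.1 hq
    refine ⟨(1 + a / b) / 2, (1 - a / b) / 2, by linarith, by linarith, by ring, ?_⟩
    field_simp
    ring

private lemma ha_upd (hK : Uncond3 K) {p : Fin 3 → ℝ} (hp : p ∈ K) (i : Fin 3) {c : ℝ}
    (hc : |c| ≤ |p i|) : Function.update p i c ∈ K := by
  obtain ⟨t, s, ht, hs, hts, he⟩ := ha_comb hc
  have h := hK.2.1 hp (hK.2.2 i p hp) ht hs hts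
  have e : Function.update p i c = t • p + s • Function.update p i (-(p i)) := by
    ext j
    by_cases hj : j = i
    · subst hj
      simp only [Function.update_self, Pi.add_apply, Pi.smul_apply, smul_eq_mul]
      linarith
    · simp only [Function.update_of_ne hj, Pi.add_apply, Pi.smul_apply, smul_eq_mul]
      calc p j = (t + s) * p j := by rw [hts, one_mul]
        _ = t * p j + s * p j := by ring
  rw [e]
  exact h

private lemma ha_u0 (a b c d : ℝ) : Function.update ![a, b, c] 0 d = ![d, b, c] := by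
  ext j
  fin_cases j <;> simp [Function.update]

private lemma ha_u1 (a b c d : ℝ) : Function.update ![a, b, c] 1 d = ![a, d, c] := by
  ext j
  fin_cases j <;> simp [Function.update]

private lemma ha_u2 (a b c d : ℝ) : Function.update ![a, b, c] 2 d = ![a, b, d] := by
  ext j
  fin_cases j <;> simp [Function.update]

private lemma ha_s0 (hK : Uncond3 K) {z z' x y : ℝ} (h : ![z', x, y] ∈ K) (hz : |z| ≤ |z'|) :
    ![z, x, y] ∈ K := by
  have := ha_upd hK h 0 (c := z) (by simpa using hz)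
  rwa [ha_u0] at this

private lemma ha_s1 (hK : Uncond3 K) {z x x' y : ℝ} (h : ![z, x', y] ∈ K) (hx : |x| ≤ |x'|) :
    ![z, x, y] ∈ K := by
  have := ha_upd hK h 1 (c := x) (by simpa using hx)
  rwa [ha_u1] at this

private lemma ha_s2 (hK : Uncond3 K) {z x y y' : ℝ} (h : ![z, x, y'] ∈ K) (hy : |y| ≤ |y'|) :
    ![z, x, y] ∈ K := by
  have := ha_upd hK h 2 (c := y) (by simpa using hy)
  rwa [ha_u2] at this

private lemma ha_cont (z x : ℝ) : Continuous (fun y : ℝ => (![z, x, y] : Fin 3 → ℝ)) := by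
  refine continuous_pi fun i => ?_
  fin_cases i
  · simpa using continuous_const
  · simpa using continuous_const
  · simpa using continuous_id'

private lemma ha_closed (hK : Uncond3 K) (z x : ℝ) : IsClosed {y : ℝ | ![z, x, y] ∈ K} :=
  hK.1.isClosed.preimage (ha_cont z x)

private lemma ha_norm (hK : Uncond3 K) :
    ∃ C : ℝ, 0 ≤ C ∧ ∀ p ∈ K, ∀ i : Fin 3, |p i| ≤ C := by
  obtain ⟨C, hC⟩ := hK.1.isBounded.exists_norm_le
  refine ⟨max C 0, le_max_right _ _, fun p hp i => ?_⟩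
  have h1 := norm_le_pi_norm p i
  rw [Real.norm_eq_abs] at h1
  exact le_trans h1 (le_trans (hC p hp) (le_max_left _ _))

private lemma ha_bdd (hK : Uncond3 K) (z x : ℝ) : BddAbove {y : ℝ | ![z, x, y] ∈ K} := by
  obtain ⟨C, -, hC⟩ := ha_norm hK
  refine ⟨C, fun y hy => ?_⟩
  have := hC _ hy 2
  simp at this
  exact le_trans (le_abs_self y) this

theorem hgt_nonneg (hK : Uncond3 K) (z x : ℝ) : 0 ≤ hgt K z x := by
  unfold hgt
  by_cases hne : {y : ℝ | ![z, x, y] ∈ K}.Nonempty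
  · obtain ⟨y, hy⟩ := hne
    have h0 : (0 : ℝ) ∈ {y : ℝ | ![z, x, y] ∈ K} :=
      ha_s2 hK hy (by simp)
    exact le_csSup (ha_bdd hK z x) h0
  · rw [Set.not_nonempty_iff_eq_empty] at hne
    rw [hne, Real.sSup_empty]

/-- The top of a nonempty fibre belongs to the body. -/
theorem hgt_mem (hK : Uncond3 K) {z x : ℝ} (h : ![z, x, 0] ∈ K) : ![z, x, hgt K z x] ∈ K := by
  have := (ha_closed hK z x).csSup_mem ⟨0, h⟩ (ha_bdd hK z x)
  exact this

/-- The fibre over `(z, x)` is the symmetric interval of half length `hgt K z x` (or empty). -/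
theorem mem_iff_hgt (hK : Uncond3 K) (z x y : ℝ) :
    ![z, x, y] ∈ K ↔ ![z, x, 0] ∈ K ∧ |y| ≤ hgt K z x := by
  constructor
  · intro h
    refine ⟨ha_s2 hK h (by simp), ?_⟩
    have h1 : |y| ∈ {y : ℝ | ![z, x, y] ∈ K} := ha_s2 hK h (by simp)
    exact le_csSup (ha_bdd hK z x) h1
  · rintro ⟨h0, hy⟩
    have h1 := hgt_mem hK h0
    refine ha_s2 hK h1 ?_
    rw [abs_of_nonneg (hgt_nonneg hK z x)]
    exact hy

theorem hgt_eq_zero_of_notMem (hK : Uncond3 K) {z x : ℝ} (h : ![z, x, 0] ∉ K) :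
    hgt K z x = 0 := by
  have he : {y : ℝ | ![z, x, y] ∈ K} = ∅ := by
    ext y
    simp only [Set.mem_ofPred_eq, mem_empty_iff_false, iff_false]
    intro hy
    exact h (ha_s2 hK hy (by simp))
  unfold hgt
  rw [he, Real.sSup_empty]

theorem hgt_abs (hK : Uncond3 K) (z x : ℝ) : hgt K z x = hgt K |z| |x| := by
  have he : {y : ℝ | ![z, x, y] ∈ K} = {y : ℝ | ![|z|, |x|, y] ∈ K} := by
    ext y
    simp only [Set.mem_ofPred_eq]
    constructor
    · intro h
      exact ha_s1 hK (ha_s0 hK h (by simp)) (by simp)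
    · intro h
      exact ha_s1 hK (ha_s0 hK h (by simp)) (by simp)
  unfold hgt
  rw [he]

/-- The body is a corner: the shadow and the fibre tops are monotone. -/
theorem shadow_mono (hK : Uncond3 K) {z x z' x' : ℝ} (hz : |z| ≤ |z'|) (hx : |x| ≤ |x'|)
    (h : ![z', x', 0] ∈ K) : ![z, x, 0] ∈ K :=
  ha_s1 hK (ha_s0 hK h hz) hx

theorem hgt_anti (hK : Uncond3 K) {z x z' x' : ℝ} (hz : |z| ≤ |z'|) (hx : |x| ≤ |x'|) :
    hgt K z' x' ≤ hgt K z x := by
  by_cases h : ![z', x', 0] ∈ K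
  · have h1 := hgt_mem hK h
    have h2 : hgt K z' x' ∈ {y : ℝ | ![z, x, y] ∈ K} := ha_s1 hK (ha_s0 hK h1 hz) hx
    exact le_csSup (ha_bdd hK z x) h2
  · rw [hgt_eq_zero_of_notMem hK h]
    exact hgt_nonneg hK z x

/-- A uniform bound for the body. -/
theorem hgt_bound (hK : Uncond3 K) :
    ∃ R : ℝ, 0 ≤ R ∧ (∀ z x, hgt K z x ≤ R) ∧ (∀ z x, R < |z| → hgt K z x = 0) ∧
      (∀ z x, R < |x| → hgt K z x = 0) ∧ ∀ z x, ![z, x, 0] ∈ K → |z| ≤ R ∧ |x| ≤ R := by
  obtain ⟨C, hC0, hC⟩ := ha_norm hK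
  have key : ∀ z x, ![z, x, 0] ∈ K → |z| ≤ C ∧ |x| ≤ C := by
    intro z x h
    have h0 := hC _ h 0
    have h1 := hC _ h 1
    simp at h0 h1
    exact ⟨h0, h1⟩
  refine ⟨C, hC0, ?_, ?_, ?_, key⟩
  · intro z x
    by_cases h : ![z, x, 0] ∈ K
    · have h2 := hC _ (hgt_mem hK h) 2
      simp at h2
      exact le_trans (le_abs_self _) h2
    · rw [hgt_eq_zero_of_notMem hK h]
      exact hC0
  · intro z x hz
    apply hgt_eq_zero_of_notMem hK
    intro h
    exact absurd (key z x h).1 (not_le.2 hz)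
  · intro z x hx
    apply hgt_eq_zero_of_notMem hK
    intro h
    exact absurd (key z x h).2 (not_le.2 hx)

/-- The fibre top is concave on the shadow. -/
theorem hgt_concave (hK : Uncond3 K) {z₁ x₁ z₂ x₂ a b : ℝ} (h₁ : ![z₁, x₁, 0] ∈ K)
    (h₂ : ![z₂, x₂, 0] ∈ K) (ha : 0 ≤ a) (hb : 0 ≤ b) (hab : a + b = 1) :
    ![a * z₁ + b * z₂, a * x₁ + b * x₂, 0] ∈ K ∧
      a * hgt K z₁ x₁ + b * hgt K z₂ x₂ ≤ hgt K (a * z₁ + b * z₂) (a * x₁ + b * x₂) := by
  have h := hK.2.1 (hgt_mem hK h₁) (hgt_mem hK h₂) ha hb hab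
  have e : a • (![z₁, x₁, hgt K z₁ x₁] : Fin 3 → ℝ) + b • ![z₂, x₂, hgt K z₂ x₂]
      = ![a * z₁ + b * z₂, a * x₁ + b * x₂, a * hgt K z₁ x₁ + b * hgt K z₂ x₂] := by
    ext j
    fin_cases j <;> simp
  rw [e] at h
  obtain ⟨h0, h3⟩ := (mem_iff_hgt hK _ _ _).1 h
  exact ⟨h0, le_trans (le_abs_self _) h3⟩

end Vale.Agent.Lib.P254
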