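import Vale.Agent.Lib.P254.Sec.Defs

namespace Vale.Agent.Lib.P254

/-- The polynomial inequality behind the profile inequality. -/
theorem j_alg (α β m l2 r2 : ℝ) (hα : m + 1 / 2 ≤ α) (hl : l2 ≤ m - 1 / 6) (hm : 1 / 2 ≤ m)
    (hmβ : m ≤ 3 / 4 * β ^ 2) (hβ : 0 < β) (hr : r2 * β ≤ 8 / 5 * m ^ 2) :
    20 / 9 * (l2 + r2 + α + β) < (α + β) ^ 3 := by
  have hβ1 : 81 / 100 ≤ β := by
    by_contra hcon
    rw [not_le] at hcon
    nlinarith [mul_pos hβ hβ]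
  obtain ⟨a, rfl⟩ : ∃ a, m = 1 / 2 + a := ⟨m - 1 / 2, by ring⟩
  obtain ⟨b, rfl⟩ : ∃ b, β = 81 / 100 + b := ⟨β - 81 / 100, by ring⟩
  obtain ⟨e, rfl⟩ : ∃ e, α = 1 / 2 + a + 1 / 2 + e := ⟨α - (1 / 2 + a + 1 / 2), by ring⟩
  have ha : 0 ≤ a := by linarith
  have hb : 0 ≤ b := by linarith
  have he : 0 ≤ e := by linarith
  have hβ' : 0 < 81 / 100 + b := hβ
  -- the main polynomial inequality, all coefficients positive
  have hP : 0 < (81 / 100 + b) * (1 / 2 + a + 1 / 2 + (81 / 100 + b)) ^ 3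
      - 20 / 9 * (2 * (1 / 2 + a) * (81 / 100 + b) + (81 / 100 + b) / 3 + (81 / 100 + b) ^ 2
        + 8 / 5 * (1 / 2 + a) ^ 2) := by
    have e1 : (81 / 100 + b) * (1 / 2 + a + 1 / 2 + (81 / 100 + b)) ^ 3
      - 20 / 9 * (2 * (1 / 2 + a) * (81 / 100 + b) + (81 / 100 + b) / 3 + (81 / 100 + b) ^ 2
        + 8 / 5 * (1 / 2 + a) ^ 2)
        = 50581189 / 900000000 + 24730991 / 3375000 * b + 540197 / 45000 * b ^ 2
          + 156 / 25 * b ^ 3 + b ^ 4 + 7248307 / 9000000 * a + 1276241 / 90000 * (a * b)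
          + 1329 / 100 * (a * b ^ 2) + 3 * (a * b ^ 3) + 75847 / 90000 * a ^ 2
          + 393 / 50 * (a ^ 2 * b) + 3 * (a ^ 2 * b ^ 2) + 81 / 100 * a ^ 3 + a ^ 3 * b := by
      ring
    rw [e1]
    positivity
  -- monotonicity in the excess e
  have hs : 181 / 100 ≤ 1 / 2 + a + 1 / 2 + (81 / 100 + b) := by linarith
  have hE : (1 / 2 + a + 1 / 2 + (81 / 100 + b)) ^ 3 + 20 / 9 * e
      ≤ (1 / 2 + a + 1 / 2 + e + (81 / 100 + b)) ^ 3 := by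
    nlinarith [mul_nonneg he (mul_nonneg (by linarith : (0:ℝ) ≤ 1 / 2 + a + 1 / 2 + (81 / 100 + b))
      (by linarith : (0:ℝ) ≤ 1 / 2 + a + 1 / 2 + (81 / 100 + b))), mul_nonneg he he,
      mul_nonneg (mul_nonneg he he) he,
      mul_nonneg (mul_nonneg he he) (by linarith : (0:ℝ) ≤ 1 / 2 + a + 1 / 2 + (81 / 100 + b)),
      mul_nonneg he (by nlinarith : (0:ℝ) ≤ (1 / 2 + a + 1 / 2 + (81 / 100 + b)) ^ 2 - 1)]
  -- multiply the goal by β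
  have key : (81 / 100 + b) * (20 / 9 * (l2 + r2 + (1 / 2 + a + 1 / 2 + e) + (81 / 100 + b)))
      < (81 / 100 + b) * (1 / 2 + a + 1 / 2 + e + (81 / 100 + b)) ^ 3 := by
    have h1 : (81 / 100 + b) * l2 ≤ (81 / 100 + b) * (1 / 2 + a - 1 / 6) :=
      mul_le_mul_of_nonneg_left hl hβ'.le
    have h2 : (81 / 100 + b) * ((1 / 2 + a + 1 / 2 + (81 / 100 + b)) ^ 3 + 20 / 9 * e)
        ≤ (81 / 100 + b) * (1 / 2 + a + 1 / 2 + e + (81 / 100 + b)) ^ 3 :=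
      mul_le_mul_of_nonneg_left hE hβ'.le
    nlinarith [h1, h2, hP, hr]
  exact lt_of_mul_lt_mul_left key hβ'.le

end Vale.Agent.Lib.P254
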