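import Vale.Agent.Lib.P254.Sec.JOne
import Vale.Agent.Lib.P254.Sym.Induct

open MeasureTheory Set

namespace Vale.Agent.Lib.P254

variable {K : Set (Fin 3 → ℝ)}

/-- An even function supported in `[-a, a]` has integral twice its integral over `[0, a]`. -/
lemma jg_even_integral (f : ℝ → ℝ) (a : ℝ) (ha : 0 ≤ a) (heven : ∀ t, f (-t) = f t)
    (hsupp : ∀ t, a < |t| → f t = 0) :
    ∫ t, f t = 2 * ∫ t in (0:ℝ)..a, f t := by
  have h1 : ∫ t, f t = ∫ t, f |t| := by
    congr 1
    funext t
    rcases abs_cases t with ⟨h, _⟩ | ⟨h, _⟩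
    · rw [h]
    · rw [h, heven]
  rw [h1, integral_comp_abs, intervalIntegral.integral_of_le ha]
  congr 1
  refine setIntegral_eq_of_subset_of_forall_sdiff_eq_zero measurableSet_Ioi Ioc_subset_Ioi_self ?_
  intro x hx
  apply hsupp
  have hx0 : 0 < x := hx.1
  have hxa : ¬ (x ∈ Ioc 0 a) := hx.2
  rw [abs_of_pos hx0]
  by_contra h
  push Not at h
  exact hxa ⟨hx0, h⟩

/-- Sections of an unconditional set at opposite heights coincide. -/
lemma jg_sec_neg (hK : Uncond3 K) (t : ℝ) : sec K (-t) = sec K t := by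
  ext y
  constructor
  · intro hy
    have h := hK.2.2 0 _ (mem_sec.1 hy)
    rw [Fin.cons_zero, Fin.update_cons_zero, neg_neg] at h
    exact mem_sec.2 h
  · intro hy
    have h := hK.2.2 0 _ (mem_sec.1 hy)
    rw [Fin.cons_zero, Fin.update_cons_zero] at h
    exact mem_sec.2 h

/-- The profile inequality for the section areas of an unconditional convex body, given the
concavity of the square root of the section area. -/
theorem profile_geo (hK : Uncond3 K) (hV : 0 < vol K)
    (hBM : ∃ a : ℝ, 0 ≤ a ∧ ConcaveOn ℝ (Icc (-a) a) (fun t => Real.sqrt (vol (sec K t))) ∧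
      ∀ t, a < |t| → vol (sec K t) = 0) :
    80 / 9 * (vol (sec K ((∫ p in K, |p 0|) / vol K))) ^ 2 * m2 K 0 < (vol K) ^ 3 := by
  obtain ⟨a, ha, hconc, hsupp⟩ := hBM
  have hKc : IsCompact K := hK.1
  have hA0 : ∀ t, 0 ≤ vol (sec K t) := fun t => ENNReal.toReal_nonneg
  have hAev : ∀ t, vol (sec K (-t)) = vol (sec K t) := fun t => by rw [jg_sec_neg hK t]
  -- slicing identities
  have hV1 : vol K = ∫ t, vol (sec K t) := vol_slice hKc
  have hF1 : ∫ p in K, |p 0| = ∫ t, |t| * vol (sec K t) := by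
    rw [integral_slice hKc (fun x => |x 0|) (by fun_prop)]
    congr 1
    ext t
    simp only [Fin.cons_zero]
    rw [setIntegral_const]
    simp [vol, Measure.real, mul_comm]
  have hX1 : m2 K 0 = ∫ t, t ^ 2 * vol (sec K t) := m2_zero_slice hKc
  -- reduction to the interval from 0 to a
  have hV2 : vol K = 2 * ∫ t in (0:ℝ)..a, vol (sec K t) := by
    rw [hV1]
    exact jg_even_integral (fun t => vol (sec K t)) a ha hAev hsupp
  have hF2 : ∫ p in K, |p 0| = 2 * ∫ t in (0:ℝ)..a, t * vol (sec K t) := by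
    rw [hF1, jg_even_integral (fun t => |t| * vol (sec K t)) a ha (fun t => by simp [hAev])
      (fun t ht => by simp [hsupp t ht])]
    congr 1
    apply intervalIntegral.integral_congr
    intro t ht
    rw [uIcc_of_le ha] at ht
    simp only [abs_of_nonneg ht.1]
  have hX2 : m2 K 0 = 2 * ∫ t in (0:ℝ)..a, t ^ 2 * vol (sec K t) := by
    rw [hX1]
    exact jg_even_integral (fun t => t ^ 2 * vol (sec K t)) a ha (fun t => by simp [hAev])
      (fun t ht => by simp [hsupp t ht])
  have hapos : 0 < a := by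
    rcases ha.lt_or_eq with h | h
    · exact h
    · exfalso
      rw [← h] at hV2
      simp at hV2
      linarith
  -- the profile
  obtain ⟨r, hr⟩ : ∃ r : ℝ → ℝ, r = fun t => Real.sqrt (vol (sec K t)) := ⟨_, rfl⟩
  rw [← hr] at hconc
  have hrsq : ∀ t, (r t) ^ 2 = vol (sec K t) := fun t => by
    rw [hr]
    exact Real.sq_sqrt (hA0 t)
  have hrev : ∀ t, r (-t) = r t := fun t => by
    rw [hr]
    simp only [hAev]
  have hr0 : ∀ t ∈ Icc 0 a, 0 ≤ r t := fun t _ => by
    rw [hr]
    exact Real.sqrt_nonneg _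
  have hc0 : ConcaveOn ℝ (Icc 0 a) r :=
    hconc.subset (Icc_subset_Icc (by linarith) le_rfl) (convex_Icc 0 a)
  have han : AntitoneOn r (Icc 0 a) := by
    intro s hs t ht hst
    rcases eq_or_lt_of_le (le_trans hs.1 hst) with h0 | hpos
    · have hst' : s = t := le_antisymm hst (by rw [← h0]; exact hs.1)
      rw [hst']
    · have hx : (-t) ∈ Icc (-a) a := ⟨by linarith [ht.2], by linarith [ht.1, ht.2]⟩
      have hy : t ∈ Icc (-a) a := ⟨by linarith [ht.1, ha], ht.2⟩
      have hl0 : 0 ≤ (t - s) / (2 * t) := div_nonneg (by linarith) (by linarith)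
      have hl1 : 0 ≤ 1 - (t - s) / (2 * t) := by
        rw [sub_nonneg, div_le_one (by linarith)]
        linarith [hs.1]
      have h := hconc.2 hx hy hl0 hl1 (by ring)
      simp only [smul_eq_mul] at h
      have e : (t - s) / (2 * t) * (-t) + (1 - (t - s) / (2 * t)) * t = s := by
        field_simp
        ring
      rw [e, hrev t] at h
      have e2 : (t - s) / (2 * t) * r t + (1 - (t - s) / (2 * t)) * r t = r t := by ring
      rw [e2] at h
      exact h
  have hVr : ∫ t in (0:ℝ)..a, (r t) ^ 2 = vol K / 2 := by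
    simp only [hrsq]
    linarith [hV2]
  have hFr : ∫ t in (0:ℝ)..a, t * (r t) ^ 2 = (∫ p in K, |p 0|) / 2 := by
    simp only [hrsq]
    linarith [hF2]
  have hXr : ∫ t in (0:ℝ)..a, t ^ 2 * (r t) ^ 2 = m2 K 0 / 2 := by
    simp only [hrsq]
    linarith [hX2]
  have hpos' : 0 < ∫ t in (0:ℝ)..a, (r t) ^ 2 := by
    rw [hVr]
    linarith
  have key := profile_ineq r a hapos hc0 han hr0 hpos'
  rw [hVr, hFr, hXr] at key
  have hb : (∫ p in K, |p 0|) / 2 / (vol K / 2) = (∫ p in K, |p 0|) / vol K := by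
    field_simp
  rw [hb] at key
  have hr4 : (r ((∫ p in K, |p 0|) / vol K)) ^ 4 =
      (vol (sec K ((∫ p in K, |p 0|) / vol K))) ^ 2 := by
    have h2 := hrsq ((∫ p in K, |p 0|) / vol K)
    calc (r ((∫ p in K, |p 0|) / vol K)) ^ 4
        = ((r ((∫ p in K, |p 0|) / vol K)) ^ 2) ^ 2 := by ring
      _ = (vol (sec K ((∫ p in K, |p 0|) / vol K))) ^ 2 := by rw [h2]
  rw [hr4] at key
  nlinarith [key]

end Vale.Agent.Lib.P254
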