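import Vale.Agent.Lib.P254.Sec.Ra
import Vale.Agent.Lib.P254.Sec.Ber1
import Vale.Agent.Lib.P254.Sec.JAlg

open MeasureTheory Set

namespace Vale.Agent.Lib.P254

/-- The square of a nonnegative nonincreasing function on `[0,a]` is interval integrable. -/
lemma jo_sq_ii (r : ℝ → ℝ) (a : ℝ) (ha : 0 ≤ a) (han : AntitoneOn r (Icc 0 a))
    (h0 : ∀ t ∈ Icc 0 a, 0 ≤ r t) : IntervalIntegrable (fun t => (r t) ^ 2) volume 0 a := by
  apply AntitoneOn.intervalIntegrable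
  rw [uIcc_of_le ha]
  intro x hx y hy hxy
  exact pow_le_pow_left₀ (h0 y hy) (han hx hy hxy) 2

/-- Integrability of the first two moments of an interval integrable function. -/
lemma jo_ii {v : ℝ → ℝ} {x y : ℝ} (hv : IntervalIntegrable v volume x y) :
    IntervalIntegrable (fun t => t * v t) volume x y ∧
      IntervalIntegrable (fun t => t ^ 2 * v t) volume x y :=
  ⟨hv.continuousOn_mul (g := fun t : ℝ => t) continuous_id.continuousOn,
    hv.continuousOn_mul (g := fun t : ℝ => t ^ 2) (continuous_pow 2).continuousOn⟩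

/-- Integral of a quadratic weight against `v` in terms of the three moments. -/
lemma jo_lin {v : ℝ → ℝ} {x y : ℝ} (hv : IntervalIntegrable v volume x y) (c0 c1 c2 : ℝ) :
    ∫ t in x..y, (c0 + c1 * t + c2 * t ^ 2) * v t =
      c0 * (∫ t in x..y, v t) + c1 * (∫ t in x..y, t * v t)
        + c2 * (∫ t in x..y, t ^ 2 * v t) := by
  obtain ⟨h1, h2⟩ := jo_ii hv
  have e : (fun t : ℝ => (c0 + c1 * t + c2 * t ^ 2) * v t)
      = fun t : ℝ => (c0 * v t + c1 * (t * v t)) + c2 * (t ^ 2 * v t) := by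
    funext t; ring
  rw [e, intervalIntegral.integral_add ((hv.const_mul c0).add (h1.const_mul c1))
    (h2.const_mul c2), intervalIntegral.integral_add (hv.const_mul c0) (h1.const_mul c1),
    intervalIntegral.integral_const_mul, intervalIntegral.integral_const_mul,
    intervalIntegral.integral_const_mul]

/-- Integral of a quadratic weight times a constant. -/
lemma jo_poly (c0 c1 c2 w b : ℝ) :
    ∫ t in (0:ℝ)..b, (c0 + c1 * t + c2 * t ^ 2) * w =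
      w * (c0 * b + c1 * b ^ 2 / 2 + c2 * b ^ 3 / 3) := by
  have hd : ∀ t ∈ Set.uIcc 0 b,
      HasDerivAt (fun t : ℝ => w * (c0 * t + c1 * t ^ 2 / 2 + c2 * t ^ 3 / 3))
        ((c0 + c1 * t + c2 * t ^ 2) * w) t := by
    intro t _
    have h1 : HasDerivAt (fun t : ℝ => c0 * t) c0 t := by
      simpa using (hasDerivAt_id t).const_mul c0
    have h2 : HasDerivAt (fun t : ℝ => c1 * t ^ 2 / 2) (c1 * t) t := by
      have := ((hasDerivAt_pow 2 t).const_mul c1).div_const 2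
      exact this.congr_deriv (by norm_num; ring)
    have h3 : HasDerivAt (fun t : ℝ => c2 * t ^ 3 / 3) (c2 * t ^ 2) t := by
      have := ((hasDerivAt_pow 3 t).const_mul c2).div_const 3
      exact this.congr_deriv (by norm_num; ring)
    exact (((h1.add h2).add h3).const_mul w).congr_deriv (by ring)
  rw [intervalIntegral.integral_eq_sub_of_hasDerivAt hd
    (Continuous.intervalIntegrable (by fun_prop) _ _)]
  ring

/-- Lower bound for a nonnegatively weighted integral of a function bounded below. -/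
lemma jo_left {v : ℝ → ℝ} {b : ℝ} (hb : 0 ≤ b) (hv : IntervalIntegrable v volume 0 b) (w : ℝ)
    (hge : ∀ t ∈ Icc 0 b, w ≤ v t) (c0 c1 c2 : ℝ)
    (hw : ∀ t ∈ Icc 0 b, 0 ≤ c0 + c1 * t + c2 * t ^ 2) :
    w * (c0 * b + c1 * b ^ 2 / 2 + c2 * b ^ 3 / 3) ≤
      c0 * (∫ t in (0:ℝ)..b, v t) + c1 * (∫ t in (0:ℝ)..b, t * v t)
        + c2 * (∫ t in (0:ℝ)..b, t ^ 2 * v t) := by
  rw [← jo_lin hv, ← jo_poly]
  apply intervalIntegral.integral_mono_on hb
  · exact Continuous.intervalIntegrable (by fun_prop) _ _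
  · exact hv.continuousOn_mul (g := fun t : ℝ => c0 + c1 * t + c2 * t ^ 2)
      (by fun_prop : Continuous fun t : ℝ => c0 + c1 * t + c2 * t ^ 2).continuousOn
  · intro t ht
    exact mul_le_mul_of_nonneg_left (hge t ht) (hw t ht)

/-- Translation of the integration variable. -/
lemma jo_shift (f : ℝ → ℝ) (b a : ℝ) :
    ∫ s in (0:ℝ)..(a - b), f (b + s) = ∫ t in b..a, f t := by
  have h := intervalIntegral.integral_comp_add_left (a := (0:ℝ)) (b := a - b) f b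
  rw [h, add_zero, add_sub_cancel]

/-- The value of a concave nonincreasing nonnegative function with positive square integral is
positive before the right end point. -/
lemma jo_pos (r : ℝ → ℝ) (a : ℝ) (ha : 0 < a) (hc : ConcaveOn ℝ (Icc 0 a) r)
    (han : AntitoneOn r (Icc 0 a)) (h0 : ∀ t ∈ Icc 0 a, 0 ≤ r t)
    (hV : 0 < ∫ t in (0:ℝ)..a, (r t) ^ 2) : ∀ t ∈ Ico 0 a, 0 < r t := by
  have h0mem : (0:ℝ) ∈ Icc 0 a := ⟨le_rfl, ha.le⟩
  have hamem : a ∈ Icc 0 a := ⟨ha.le, le_rfl⟩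
  have hr0 : 0 < r 0 := by
    by_contra hcon
    have hr00 : r 0 = 0 := le_antisymm (not_lt.mp hcon) (h0 0 h0mem)
    have hz : ∀ t ∈ Icc 0 a, r t = 0 := fun t ht =>
      le_antisymm (hr00 ▸ han h0mem ht ht.1) (h0 t ht)
    have e : ∫ t in (0:ℝ)..a, (r t) ^ 2 = ∫ t in (0:ℝ)..a, (0:ℝ) :=
      intervalIntegral.integral_congr (fun t ht => by
        rw [uIcc_of_le ha.le] at ht
        simp [hz t ht])
    rw [e] at hV
    simp at hV
  intro t ht
  have hp : 0 ≤ 1 - t / a := by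
    rw [sub_nonneg, div_le_one ha]
    exact ht.2.le
  have hq : 0 ≤ t / a := div_nonneg ht.1 ha.le
  have key := hc.2 h0mem hamem hp hq (by ring)
  simp only [smul_eq_mul] at key
  have e : (1 - t / a) * 0 + t / a * a = t := by
    rw [mul_zero, zero_add, div_mul_cancel₀ _ ha.ne']
  rw [e] at key
  have h1 : 0 < 1 - t / a := by
    rw [sub_pos, div_lt_one ha]
    exact ht.2
  nlinarith [h0 a hamem, mul_pos h1 hr0, mul_nonneg hq (h0 a hamem)]

/-- The part to the right of `b`: the cone comparison and the sharp Berwald inequality for the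
translated profile, written with the moments over `[b, a]`. -/
lemma jo_right (r : ℝ → ℝ) (a b : ℝ) (hb0 : 0 ≤ b) (hba : b ≤ a)
    (hc : ConcaveOn ℝ (Icc 0 a) r) (han : AntitoneOn r (Icc 0 a))
    (h0 : ∀ t ∈ Icc 0 a, 0 ≤ r t) :
    (r b) ^ 2 * ((∫ t in b..a, t * (r t) ^ 2) - b * (∫ t in b..a, (r t) ^ 2))
        ≤ 3 / 4 * (∫ t in b..a, (r t) ^ 2) ^ 2 ∧
      (∫ t in b..a, (r t) ^ 2) * ((∫ t in b..a, t ^ 2 * (r t) ^ 2)
          - 2 * b * (∫ t in b..a, t * (r t) ^ 2) + b ^ 2 * (∫ t in b..a, (r t) ^ 2))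
        ≤ 8 / 5 * ((∫ t in b..a, t * (r t) ^ 2) - b * (∫ t in b..a, (r t) ^ 2)) ^ 2 := by
  have ha : 0 ≤ a := hb0.trans hba
  have hv : IntervalIntegrable (fun t => (r t) ^ 2) volume 0 a :=
    jo_sq_ii r a ha han h0
  have hvba : IntervalIntegrable (fun t => (r t) ^ 2) volume b a :=
    hv.mono_set (by
      rw [uIcc_of_le hba, uIcc_of_le ha]
      exact Icc_subset_Icc hb0 le_rfl)
  have hab' : 0 ≤ a - b := sub_nonneg.mpr hba
  have hc' : ConcaveOn ℝ (Icc 0 (a - b)) (fun s => r (b + s)) := by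
    refine ⟨convex_Icc _ _, ?_⟩
    intro x hx y hy p q hp hq hpq
    have hx' : b + x ∈ Icc 0 a := ⟨by linarith [hx.1, hb0], by linarith [hx.2]⟩
    have hy' : b + y ∈ Icc 0 a := ⟨by linarith [hy.1, hb0], by linarith [hy.2]⟩
    have key := hc.2 hx' hy' hp hq hpq
    have e : p • (b + x) + q • (b + y) = b + (p • x + q • y) := by
      simp only [smul_eq_mul]
      have h1 : p * b + q * b = b := by rw [← add_mul, hpq, one_mul]
      linarith
    rw [e] at key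
    exact key
  have han' : AntitoneOn (fun s => r (b + s)) (Icc 0 (a - b)) := by
    intro x hx y hy hxy
    exact han ⟨by linarith [hx.1, hb0], by linarith [hx.2]⟩
      ⟨by linarith [hy.1, hb0], by linarith [hy.2]⟩ (by linarith)
  have h0' : ∀ s ∈ Icc 0 (a - b), 0 ≤ (fun s => r (b + s)) s := fun s hs =>
    h0 (b + s) ⟨by linarith [hs.1, hb0], by linarith [hs.2]⟩
  have cc := cone_cross (fun s => r (b + s)) (a - b) hab' hc' han' h0'
  have bw := berwald_one (fun s => r (b + s)) (a - b) hab' hc' han' h0'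
  simp only [add_zero] at cc bw
  have S0 : ∫ s in (0:ℝ)..(a - b), (r (b + s)) ^ 2 = ∫ t in b..a, (r t) ^ 2 :=
    jo_shift (fun t => (r t) ^ 2) b a
  have S1 : ∫ s in (0:ℝ)..(a - b), s * (r (b + s)) ^ 2
      = (∫ t in b..a, t * (r t) ^ 2) - b * (∫ t in b..a, (r t) ^ 2) := by
    have e := jo_shift (fun t => (-b + 1 * t + 0 * t ^ 2) * (r t) ^ 2) b a
    rw [jo_lin hvba (-b) 1 0] at e
    have e1 : ∫ s in (0:ℝ)..(a - b), s * (r (b + s)) ^ 2
        = ∫ s in (0:ℝ)..(a - b), (-b + 1 * (b + s) + 0 * (b + s) ^ 2) * (r (b + s)) ^ 2 :=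
      intervalIntegral.integral_congr (fun s _ => by ring)
    rw [e1, e]
    ring
  have S2 : ∫ s in (0:ℝ)..(a - b), s ^ 2 * (r (b + s)) ^ 2
      = (∫ t in b..a, t ^ 2 * (r t) ^ 2) - 2 * b * (∫ t in b..a, t * (r t) ^ 2)
        + b ^ 2 * (∫ t in b..a, (r t) ^ 2) := by
    have e := jo_shift (fun t => (b ^ 2 + (-(2 * b)) * t + 1 * t ^ 2) * (r t) ^ 2) b a
    rw [jo_lin hvba (b ^ 2) (-(2 * b)) 1] at e
    have e1 : ∫ s in (0:ℝ)..(a - b), s ^ 2 * (r (b + s)) ^ 2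
        = ∫ s in (0:ℝ)..(a - b),
            (b ^ 2 + (-(2 * b)) * (b + s) + 1 * (b + s) ^ 2) * (r (b + s)) ^ 2 :=
      intervalIntegral.integral_congr (fun s _ => by ring)
    rw [e1, e]
    ring
  rw [S0, S1] at cc
  rw [S0, S1, S2] at bw
  exact ⟨cc, bw⟩

/-- The algebraic assembly of the profile inequality from the moment inequalities. -/
lemma jo_final (b vb A0 A1 A2 B0 B1 B2 V Z Q : ℝ) (hb0 : 0 < b) (hvb : 0 < vb)
    (hVs : A0 + B0 = V) (hZs : A1 + B1 = Z) (hQs : A2 + B2 = Q) (hbV : b * V = Z)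
    (h3a : vb * b ^ 2 / 2 ≤ A1) (h3b : vb * b ^ 3 / 6 ≤ b * A1 - A2)
    (h3c : vb * b ^ 2 / 2 ≤ b * A0 - A1)
    (cc : vb * (B1 - b * B0) ≤ 3 / 4 * B0 ^ 2)
    (bw : B0 * (B2 - 2 * b * B1 + b ^ 2 * B0) ≤ 8 / 5 * (B1 - b * B0) ^ 2)
    (hB0nn : 0 ≤ B0) : 20 / 9 * vb ^ 2 * Q < V ^ 3 := by
  have hcen : B1 - b * B0 = b * A0 - A1 := by linear_combination hZs - hbV - b * hVs
  rw [hcen] at cc bw
  have hc1 : 0 < vb * b := mul_pos hvb hb0
  have hc2 : 0 < vb * b ^ 2 := by positivity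
  have hc3 : 0 < vb * b ^ 3 := by positivity
  have hmpos : 0 < b * A0 - A1 := by linarith
  have hB0pos : 0 < B0 := by
    by_contra h
    have hB00 : B0 = 0 := le_antisymm (not_lt.mp h) hB0nn
    rw [hB00] at cc
    nlinarith [mul_pos hvb hmpos]
  obtain ⟨α, hα⟩ : ∃ α, A0 = α * (vb * b) := ⟨A0 / (vb * b), (div_mul_cancel₀ _ hc1.ne').symm⟩
  obtain ⟨β, hβ⟩ : ∃ β, B0 = β * (vb * b) := ⟨B0 / (vb * b), (div_mul_cancel₀ _ hc1.ne').symm⟩
  obtain ⟨m', hm'⟩ : ∃ m', b * A0 - A1 = m' * (vb * b ^ 2) :=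
    ⟨(b * A0 - A1) / (vb * b ^ 2), (div_mul_cancel₀ _ hc2.ne').symm⟩
  obtain ⟨l2, hl2'⟩ : ∃ l2, b ^ 2 * A0 - 2 * b * A1 + A2 = l2 * (vb * b ^ 3) :=
    ⟨(b ^ 2 * A0 - 2 * b * A1 + A2) / (vb * b ^ 3), (div_mul_cancel₀ _ hc3.ne').symm⟩
  obtain ⟨r2, hr2'⟩ : ∃ r2, B2 - 2 * b * B1 + b ^ 2 * B0 = r2 * (vb * b ^ 3) :=
    ⟨(B2 - 2 * b * B1 + b ^ 2 * B0) / (vb * b ^ 3), (div_mul_cancel₀ _ hc3.ne').symm⟩
  have eA : b * A0 = α * (vb * b ^ 2) := by rw [hα]; ring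
  have em : b ^ 2 * A0 - b * A1 = m' * (vb * b ^ 3) := by linear_combination b * hm'
  have Hα : m' + 1 / 2 ≤ α := by
    have h : (vb * b ^ 2) * (m' + 1 / 2) ≤ (vb * b ^ 2) * α := by linarith
    exact le_of_mul_le_mul_left h hc2
  have Hl : l2 ≤ m' - 1 / 6 := by
    have h : (vb * b ^ 3) * l2 ≤ (vb * b ^ 3) * (m' - 1 / 6) := by linarith
    exact le_of_mul_le_mul_left h hc3
  have Hm : 1 / 2 ≤ m' := by
    have h : (vb * b ^ 2) * (1 / 2) ≤ (vb * b ^ 2) * m' := by linarith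
    exact le_of_mul_le_mul_left h hc2
  have Hmβ : m' ≤ 3 / 4 * β ^ 2 := by
    have e1 : vb * (b * A0 - A1) = (vb ^ 2 * b ^ 2) * m' := by linear_combination vb * hm'
    have e2 : B0 ^ 2 = (vb ^ 2 * b ^ 2) * β ^ 2 := by rw [hβ]; ring
    have h : (vb ^ 2 * b ^ 2) * m' ≤ (vb ^ 2 * b ^ 2) * (3 / 4 * β ^ 2) := by linarith
    exact le_of_mul_le_mul_left h (by positivity)
  have Hβ : 0 < β := by
    by_contra h
    have h1 : 0 ≤ -β * (vb * b) := mul_nonneg (neg_nonneg.mpr (not_lt.mp h)) hc1.le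
    have h2 : 0 < β * (vb * b) := hβ ▸ hB0pos
    linarith
  have Hr : r2 * β ≤ 8 / 5 * m' ^ 2 := by
    have e3 : B0 * (B2 - 2 * b * B1 + b ^ 2 * B0) = (vb ^ 2 * b ^ 4) * (r2 * β) := by
      rw [hr2', hβ]; ring
    have e4 : (b * A0 - A1) ^ 2 = (vb ^ 2 * b ^ 4) * m' ^ 2 := by rw [hm']; ring
    have h : (vb ^ 2 * b ^ 4) * (r2 * β) ≤ (vb ^ 2 * b ^ 4) * (8 / 5 * m' ^ 2) := by linarith
    exact le_of_mul_le_mul_left h (by positivity)
  have H := j_alg α β m' l2 r2 Hα Hl Hm Hmβ Hβ Hr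
  have hfin : (vb * b) ^ 3 * (20 / 9 * (l2 + r2 + α + β)) < (vb * b) ^ 3 * (α + β) ^ 3 :=
    mul_lt_mul_of_pos_left H (by positivity)
  have hQ' : Q = (b ^ 2 * A0 - 2 * b * A1 + A2) + (B2 - 2 * b * B1 + b ^ 2 * B0)
      + b ^ 2 * (A0 + B0) := by
    linear_combination (-1 : ℝ) * hQs + 2 * b * hZs - 2 * b ^ 2 * hVs - 2 * b * hbV
  have eL : (vb * b) ^ 3 * (20 / 9 * (l2 + r2 + α + β)) = 20 / 9 * vb ^ 2 * Q := by
    linear_combination (-(20 / 9) * vb ^ 2) * hl2' - (20 / 9) * vb ^ 2 * hr2'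
      - (20 / 9) * vb ^ 2 * b ^ 2 * hα - (20 / 9) * vb ^ 2 * b ^ 2 * hβ - (20 / 9) * vb ^ 2 * hQ'
  have eR : (vb * b) ^ 3 * (α + β) ^ 3 = V ^ 3 := by
    rw [← hVs, hα, hβ]; ring
  rw [eL, eR] at hfin
  exact hfin

/-- **Profile inequality.** For `v = r²` with `r ≥ 0` concave and nonincreasing on `[0,a]`,
`V = ∫ v`, `b = ∫ t v / V`:  `(20/9) v(b)² ∫ t² v < V³`. -/
theorem profile_ineq (r : ℝ → ℝ) (a : ℝ) (ha : 0 < a) (hc : ConcaveOn ℝ (Icc 0 a) r)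
    (han : AntitoneOn r (Icc 0 a)) (h0 : ∀ t ∈ Icc 0 a, 0 ≤ r t)
    (hV : 0 < ∫ t in (0:ℝ)..a, (r t) ^ 2) :
    20 / 9 * (r ((∫ t in (0:ℝ)..a, t * (r t) ^ 2) / (∫ t in (0:ℝ)..a, (r t) ^ 2))) ^ 4 *
        (∫ t in (0:ℝ)..a, t ^ 2 * (r t) ^ 2) < (∫ t in (0:ℝ)..a, (r t) ^ 2) ^ 3 := by
  have hv : IntervalIntegrable (fun t => (r t) ^ 2) volume 0 a :=
    jo_sq_ii r a ha.le han h0
  obtain ⟨hv1, hv2⟩ := jo_ii hv
  have hrpos := jo_pos r a ha hc han h0 hV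
  have hZpos : 0 < ∫ t in (0:ℝ)..a, t * (r t) ^ 2 := by
    apply intervalIntegral.intervalIntegral_pos_of_pos_on hv1 _ ha
    intro t ht
    exact mul_pos ht.1 (pow_pos (hrpos t ⟨ht.1.le, ht.2⟩) 2)
  have hZle : (∫ t in (0:ℝ)..a, t * (r t) ^ 2) ≤ a * ∫ t in (0:ℝ)..a, (r t) ^ 2 := by
    rw [← intervalIntegral.integral_const_mul]
    apply intervalIntegral.integral_mono_on ha.le hv1 (hv.const_mul a)
    intro t ht
    exact mul_le_mul_of_nonneg_right ht.2 (sq_nonneg _)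
  generalize hVdef : (∫ t in (0:ℝ)..a, (r t) ^ 2) = V at hV hZle ⊢
  generalize hZdef : (∫ t in (0:ℝ)..a, t * (r t) ^ 2) = Z at hZpos hZle ⊢
  generalize hQdef : (∫ t in (0:ℝ)..a, t ^ 2 * (r t) ^ 2) = Q
  obtain ⟨b, hbdef⟩ : ∃ b, b = Z / V := ⟨_, rfl⟩
  rw [← hbdef]
  have hb0 : 0 < b := hbdef ▸ div_pos hZpos hV
  have hba : b ≤ a := by
    rw [hbdef, div_le_iff₀ hV]
    exact hZle
  have hbmem : b ∈ Icc 0 a := ⟨hb0.le, hba⟩
  have hbV : b * V = Z := by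
    rw [hbdef]
    exact div_mul_cancel₀ _ hV.ne'
  rcases (h0 b hbmem).eq_or_lt with hrb | hrb
  · rw [← hrb]
    have e : (20:ℝ) / 9 * 0 ^ 4 * Q = 0 := by ring
    rw [e]
    exact pow_pos hV 3
  have hvb : 0 < (r b) ^ 2 := pow_pos hrb 2
  have hv0b : IntervalIntegrable (fun t => (r t) ^ 2) volume 0 b :=
    hv.mono_set (by
      rw [uIcc_of_le hb0.le, uIcc_of_le ha.le]
      exact Icc_subset_Icc le_rfl hba)
  have hvba : IntervalIntegrable (fun t => (r t) ^ 2) volume b a :=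
    hv.mono_set (by
      rw [uIcc_of_le hba, uIcc_of_le ha.le]
      exact Icc_subset_Icc hb0.le le_rfl)
  obtain ⟨hl1, hl2⟩ := jo_ii hv0b
  obtain ⟨hr1, hr2⟩ := jo_ii hvba
  have hVs : (∫ t in (0:ℝ)..b, (r t) ^ 2) + (∫ t in b..a, (r t) ^ 2) = V := by
    rw [← hVdef]
    exact intervalIntegral.integral_add_adjacent_intervals hv0b hvba
  have hZs : (∫ t in (0:ℝ)..b, t * (r t) ^ 2) + (∫ t in b..a, t * (r t) ^ 2) = Z := by
    rw [← hZdef]
    exact intervalIntegral.integral_add_adjacent_intervals hl1 hr1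
  have hQs : (∫ t in (0:ℝ)..b, t ^ 2 * (r t) ^ 2) + (∫ t in b..a, t ^ 2 * (r t) ^ 2) = Q := by
    rw [← hQdef]
    exact intervalIntegral.integral_add_adjacent_intervals hl2 hr2
  have hB0nn : 0 ≤ ∫ t in b..a, (r t) ^ 2 :=
    intervalIntegral.integral_nonneg hba (fun t _ => sq_nonneg _)
  -- the left part
  have hge : ∀ t ∈ Icc 0 b, (r b) ^ 2 ≤ (r t) ^ 2 := fun t ht =>
    pow_le_pow_left₀ hrb.le (han ⟨ht.1, ht.2.trans hba⟩ hbmem ht.2) 2
  have h3a := jo_left hb0.le hv0b ((r b) ^ 2) hge 0 1 0 (fun t ht => by nlinarith [ht.1])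
  have h3b := jo_left hb0.le hv0b ((r b) ^ 2) hge 0 b (-1)
    (fun t ht => by nlinarith [ht.1, ht.2])
  have h3c := jo_left hb0.le hv0b ((r b) ^ 2) hge b (-1) 0
    (fun t ht => by nlinarith [ht.1, ht.2])
  -- the right part
  obtain ⟨cc, bw⟩ := jo_right r a b hb0.le hba hc han h0
  have e4 : (r b) ^ 4 = ((r b) ^ 2) ^ 2 := by ring
  rw [e4]
  exact jo_final b ((r b) ^ 2) _ _ _ _ _ _ V Z Q hb0 hvb hVs hZs hQs hbV
    (by linarith) (by linarith) (by linarith) cc bw hB0nn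

end Vale.Agent.Lib.P254
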