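import Vale.Agent.Lib.P254.Sec.SecIneq
import Vale.Agent.Lib.P254.Sec.JGeo

open MeasureTheory Set

namespace Vale.Agent.Lib.P254

variable {K : Set (Fin 3 → ℝ)}

/-- Pure algebra behind `sec_moment_bound`. -/
theorem moment_alg (m0 m1 m2' A W P1 P2 : ℝ) (hW : 0 < W) (hm0 : 0 ≤ m0) (hm1 : 0 ≤ m1)
    (hm2 : 0 ≤ m2') (hA : 0 ≤ A) (hP1 : 0 ≤ P1) (hP2 : 0 ≤ P2)
    (h1 : 16 * P1 * P2 ≤ A * W ^ 2) (hB1 : m1 * W ≤ 8 / 5 * P1 ^ 2)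
    (hB2 : m2' * W ≤ 8 / 5 * P2 ^ 2) (h2 : 80 / 9 * A ^ 2 * m0 < W ^ 3) :
    m0 * m1 * m2' < 9 / 8000 * W ^ 5 := by
  have hPP : 0 ≤ P1 * P2 := mul_nonneg hP1 hP2
  have e1 : (m1 * W) * (m2' * W) ≤ (8 / 5 * P1 ^ 2) * (8 / 5 * P2 ^ 2) :=
    mul_le_mul hB1 hB2 (mul_nonneg hm2 hW.le) (by positivity)
  have e2 : (16 * (P1 * P2)) ^ 2 ≤ (A * W ^ 2) ^ 2 := by
    apply pow_le_pow_left₀ (by positivity)
    linarith
  have e3 : m1 * m2' * W ^ 2 ≤ A ^ 2 * W ^ 4 / 100 := by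
    nlinarith [e1, e2]
  have e4 : m1 * m2' ≤ A ^ 2 * W ^ 2 / 100 := by
    have hW2 : 0 < W ^ 2 := by positivity
    have : m1 * m2' * W ^ 2 ≤ (A ^ 2 * W ^ 2 / 100) * W ^ 2 := by
      calc m1 * m2' * W ^ 2 ≤ A ^ 2 * W ^ 4 / 100 := e3
        _ = (A ^ 2 * W ^ 2 / 100) * W ^ 2 := by ring
    exact le_of_mul_le_mul_right this hW2
  have e5 : m0 * (m1 * m2') ≤ m0 * (A ^ 2 * W ^ 2 / 100) := mul_le_mul_of_nonneg_left e4 hm0
  have hW2 : 0 < W ^ 2 := by positivity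
  have e6 : 80 / 9 * A ^ 2 * m0 * W ^ 2 < W ^ 3 * W ^ 2 := mul_lt_mul_of_pos_right h2 hW2
  nlinarith [e5, e6]

/-- The product of the three second moments of an unconditional convex body in `ℝ^3`, given
the sharp Berwald bounds for the coordinates `1, 2` and the concavity of the square root of
the section area in the direction `0`. -/
theorem sec_moment_bound (hK : Uncond3 K) (hV : 0 < vol K)
    (hB1 : m2 K 1 * vol K ≤ 8 / 5 * (∫ p in K, |p 1|) ^ 2)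
    (hB2 : m2 K 2 * vol K ≤ 8 / 5 * (∫ p in K, |p 2|) ^ 2)
    (hBM : ∃ a : ℝ, 0 ≤ a ∧ ConcaveOn ℝ (Icc (-a) a) (fun t => Real.sqrt (vol (sec K t))) ∧
      ∀ t, a < |t| → vol (sec K t) = 0) :
    m2 K 0 * m2 K 1 * m2 K 2 < 9 / 8000 * (vol K) ^ 5 := by
  have h1 := sec_ineq hK hV
  have h2 := profile_geo hK hV hBM
  have hm : ∀ i : Fin 3, 0 ≤ m2 K i := fun i => integral_nonneg fun x => sq_nonneg (x i)
  have hA : 0 ≤ vol (sec K ((∫ p in K, |p 0|) / vol K)) := ENNReal.toReal_nonneg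
  have hP : ∀ i : Fin 3, 0 ≤ ∫ p in K, |p i| := fun i => integral_nonneg fun x => abs_nonneg (x i)
  exact moment_alg _ _ _ _ _ _ _ hV (hm 0) (hm 1) (hm 2) hA (hP 1) (hP 2) h1 hB1 hB2 h2

end Vale.Agent.Lib.P254
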