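import Vale.Agent.Lib.P254.Sec.Defs

open MeasureTheory Set

namespace Vale.Agent.Lib.P254

variable {g : ℝ → ℝ} {X : ℝ}

/-- A profile is integrable on the half line. -/
theorem Prof.integrableOn (hg : Prof g X) : IntegrableOn g (Ioi 0) := by
  have h1 : IntegrableOn g (Icc 0 X) :=
    (hg.anti.mono Icc_subset_Ici_self).integrableOn_isCompact isCompact_Icc
  have h2 : IntegrableOn g (Ioi X) := by
    refine (integrableOn_zero : IntegrableOn (fun _ => (0:ℝ)) (Ioi X)).congr_fun ?_
      measurableSet_Ioi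
    intro x hx
    exact (hg.zero x hx).symm
  refine (h1.union h2).mono_set ?_
  intro x hx
  by_cases h : x ≤ X
  · exact Or.inl ⟨le_of_lt hx, h⟩
  · exact Or.inr (not_le.mp h)

/-- A profile is integrable on every half line to the right of a nonnegative point. -/
theorem qa_integrableOn_Ioi (hg : Prof g X) {c : ℝ} (hc : 0 ≤ c) : IntegrableOn g (Ioi c) :=
  hg.integrableOn.mono_set (Ioi_subset_Ioi hc)

/-- A profile is integrable on bounded intervals of the half line. -/
theorem qa_integrableOn_Ioc (hg : Prof g X) {c c' : ℝ} (hc : 0 ≤ c) :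
    IntegrableOn g (Ioc c c') :=
  (qa_integrableOn_Ioi hg hc).mono_set Ioc_subset_Ioi_self

/-- The difference of two tail integrals is an integral over a bounded interval. -/
theorem qa_tail_split (hg : Prof g X) {c c' : ℝ} (hc : 0 ≤ c) (hcc : c ≤ c') :
    tailInt g c = (∫ x in Ioc c c', g x) + tailInt g c' := by
  unfold tailInt
  rw [← Ioc_union_Ioi_eq_Ioi hcc]
  exact setIntegral_union (Set.disjoint_left.mpr (fun x hx hx' => not_lt.mpr hx.2 hx'))
    measurableSet_Ioi (qa_integrableOn_Ioc hg hc) (qa_integrableOn_Ioi hg (hc.trans hcc))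

/-- A profile is bounded by its value at the origin on the half line. -/
theorem qa_le_zero (hg : Prof g X) {x : ℝ} (hx : 0 ≤ x) : g x ≤ g 0 :=
  hg.anti (mem_Ici.mpr le_rfl) (mem_Ici.mpr hx) hx

theorem qa_Ioc_nonneg (hg : Prof g X) (c c' : ℝ) : 0 ≤ ∫ x in Ioc c c', g x :=
  setIntegral_nonneg measurableSet_Ioc (fun x _ => hg.nonneg x)

theorem qa_Ioc_le (hg : Prof g X) {c c' : ℝ} (hc : 0 ≤ c) (hcc : c ≤ c') :
    ∫ x in Ioc c c', g x ≤ g 0 * (c' - c) := by
  have h := norm_setIntegral_le_of_norm_le_const (μ := volume) (s := Ioc c c') (f := g)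
    (C := g 0) (by simp) (fun x hx => by
      rw [Real.norm_eq_abs, abs_of_nonneg (hg.nonneg x)]
      exact qa_le_zero hg (hc.trans hx.1.le))
  rw [Real.volume_real_Ioc_of_le hcc] at h
  exact (Real.le_norm_self _).trans h

/-- The tail integral of a profile is antitone on the half line. -/
theorem qa_tail_anti (hg : Prof g X) {c c' : ℝ} (hc : 0 ≤ c) (hcc : c ≤ c') :
    tailInt g c' ≤ tailInt g c := by
  rw [qa_tail_split hg hc hcc]
  linarith [qa_Ioc_nonneg hg c c']

/-- The tail integral of a profile is Lipschitz on the half line. -/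
theorem qa_tail_lip (hg : Prof g X) {c c' : ℝ} (hc : 0 ≤ c) (hcc : c ≤ c') :
    tailInt g c - tailInt g c' ≤ g 0 * (c' - c) := by
  rw [qa_tail_split hg hc hcc]
  linarith [qa_Ioc_le hg hc hcc]

/-- The tail integral of a profile vanishes to the right of the support. -/
theorem qa_tail_zero (hg : Prof g X) {c : ℝ} (hc : X ≤ c) : tailInt g c = 0 := by
  unfold tailInt
  exact setIntegral_eq_zero_of_forall_eq_zero (fun x hx => hg.zero x (lt_of_le_of_lt hc hx))

theorem qa_tail_nonneg (hnn : ∀ x, 0 ≤ g x) (c : ℝ) : 0 ≤ tailInt g c := by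
  unfold tailInt
  exact setIntegral_nonneg measurableSet_Ioi (fun x _ => hnn x)

/-- The tail integral of a profile is continuous on the half line. -/
theorem Prof.continuousOn_tailInt (hg : Prof g X) : ContinuousOn (tailInt g) (Ici 0) := by
  have hL : LipschitzOnWith (Real.toNNReal (g 0)) (tailInt g) (Ici 0) := by
    refine LipschitzOnWith.of_dist_le_mul ?_
    intro c hc c' hc'
    rw [Real.coe_toNNReal _ (hg.nonneg 0), Real.dist_eq, Real.dist_eq]
    rcases le_total c c' with h | h
    · have h1 := qa_tail_anti hg hc h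
      have h2 := qa_tail_lip hg hc h
      rw [abs_of_nonneg (by linarith), abs_of_nonpos (by linarith)]
      linarith
    · have h1 := qa_tail_anti hg hc' h
      have h2 := qa_tail_lip hg hc' h
      rw [abs_of_nonpos (by linarith), abs_of_nonneg (by linarith)]
      linarith
  exact hL.continuousOn

/-- The set whose supremum is the quantile point contains the origin. -/
theorem qa_zero_mem (hv : 0 < tailInt g 0) {θ : ℝ} (h1 : θ ≤ 1) :
    (0:ℝ) ∈ {c : ℝ | 0 ≤ c ∧ θ * tailInt g 0 ≤ tailInt g c} := by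
  refine ⟨le_rfl, ?_⟩
  nlinarith

/-- The set whose supremum is the quantile point is bounded above by the end of the
support. -/
theorem qa_le_X (hg : Prof g X) (hv : 0 < tailInt g 0) {θ : ℝ} (h0 : 0 < θ) {c : ℝ}
    (hc : c ∈ {c : ℝ | 0 ≤ c ∧ θ * tailInt g 0 ≤ tailInt g c}) : c ≤ X := by
  by_contra hcon
  have hX : X ≤ c := (not_le.mp hcon).le
  have h2 := hc.2
  rw [qa_tail_zero hg hX] at h2
  have : 0 < θ * tailInt g 0 := mul_pos h0 hv
  linarith

theorem qa_bddAbove (hg : Prof g X) (hv : 0 < tailInt g 0) {θ : ℝ} (h0 : 0 < θ) :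
    BddAbove {c : ℝ | 0 ≤ c ∧ θ * tailInt g 0 ≤ tailInt g c} :=
  ⟨X, fun _ hc => qa_le_X hg hv h0 hc⟩

theorem quant_mem (hg : Prof g X) (hv : 0 < tailInt g 0) {θ : ℝ} (h0 : 0 < θ) (h1 : θ ≤ 1) :
    0 ≤ quant g θ ∧ quant g θ ≤ X := by
  unfold quant
  constructor
  · exact le_csSup (qa_bddAbove hg hv h0) (qa_zero_mem hv h1)
  · exact csSup_le ⟨0, qa_zero_mem hv h1⟩ (fun _ hc => qa_le_X hg hv h0 hc)

/-- The quantile point belongs to the set whose supremum it is. -/
theorem qa_quant_mem_set (hg : Prof g X) (hv : 0 < tailInt g 0) {θ : ℝ} (h0 : 0 < θ)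
    (h1 : θ ≤ 1) : quant g θ ∈ {c : ℝ | 0 ≤ c ∧ θ * tailInt g 0 ≤ tailInt g c} := by
  have hcl : IsClosed {c : ℝ | 0 ≤ c ∧ θ * tailInt g 0 ≤ tailInt g c} := by
    have h := hg.continuousOn_tailInt.preimage_isClosed_of_isClosed isClosed_Ici
      (isClosed_Ici (a := θ * tailInt g 0))
    have heq : {c : ℝ | 0 ≤ c ∧ θ * tailInt g 0 ≤ tailInt g c}
        = Ici 0 ∩ tailInt g ⁻¹' Ici (θ * tailInt g 0) := by
      ext c
      exact Iff.rfl
    rw [heq]
    exact h
  exact hcl.csSup_mem ⟨0, qa_zero_mem hv h1⟩ (qa_bddAbove hg hv h0)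

/-- The quantile point cuts off exactly the fraction `θ` of the integral. -/
theorem quant_tail (hg : Prof g X) (hv : 0 < tailInt g 0) {θ : ℝ} (h0 : 0 < θ) (h1 : θ ≤ 1) :
    tailInt g (quant g θ) = θ * tailInt g 0 := by
  have hmem := qa_quant_mem_set hg hv h0 h1
  have hq0 : 0 ≤ quant g θ := hmem.1
  have hge : θ * tailInt g 0 ≤ tailInt g (quant g θ) := hmem.2
  by_contra hne
  have hgt : θ * tailInt g 0 < tailInt g (quant g θ) := lt_of_le_of_ne hge (Ne.symm hne)
  have hg0 : 0 ≤ g 0 := hg.nonneg 0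
  have hd : 0 < (tailInt g (quant g θ) - θ * tailInt g 0) / (g 0 + 1) :=
    div_pos (by linarith) (by linarith)
  have hlip := qa_tail_lip hg hq0
    (le_add_of_nonneg_right hd.le :
      quant g θ ≤ quant g θ + (tailInt g (quant g θ) - θ * tailInt g 0) / (g 0 + 1))
  have hbd : g 0 * ((tailInt g (quant g θ) - θ * tailInt g 0) / (g 0 + 1))
      ≤ tailInt g (quant g θ) - θ * tailInt g 0 := by
    have h3 : (g 0 + 1) * ((tailInt g (quant g θ) - θ * tailInt g 0) / (g 0 + 1))
        = tailInt g (quant g θ) - θ * tailInt g 0 := by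
      field_simp
    nlinarith
  have hin : quant g θ + (tailInt g (quant g θ) - θ * tailInt g 0) / (g 0 + 1)
      ∈ {c : ℝ | 0 ≤ c ∧ θ * tailInt g 0 ≤ tailInt g c} := by
    refine ⟨by linarith, ?_⟩
    rw [add_sub_cancel_left] at hlip
    linarith
  have hle : quant g θ + (tailInt g (quant g θ) - θ * tailInt g 0) / (g 0 + 1) ≤ quant g θ :=
    le_csSup (qa_bddAbove hg hv h0) hin
  linarith

theorem quant_anti (hg : Prof g X) (hv : 0 < tailInt g 0) {θ θ' : ℝ} (h0 : 0 < θ)
    (h : θ ≤ θ') (h1 : θ' ≤ 1) : quant g θ' ≤ quant g θ := by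
  unfold quant
  refine csSup_le_csSup (qa_bddAbove hg hv h0) ⟨0, qa_zero_mem hv h1⟩ ?_
  intro c hc
  refine ⟨hc.1, le_trans ?_ hc.2⟩
  exact mul_le_mul_of_nonneg_right h hv.le

theorem quant_one (hg : Prof g X) (hv : 0 < tailInt g 0) : quant g 1 = 0 := by
  have hmem := quant_mem hg hv one_pos le_rfl
  have htail := quant_tail hg hv one_pos le_rfl
  rw [one_mul] at htail
  by_contra hne
  have hq : 0 < quant g 1 := lt_of_le_of_ne hmem.1 (Ne.symm hne)
  have hsplit := qa_tail_split hg le_rfl hq.le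
  have hI : ∫ x in Ioc 0 (quant g 1), g x = 0 := by linarith
  have hlow : g (quant g 1) * quant g 1 ≤ ∫ x in Ioc 0 (quant g 1), g x := by
    have hmono := setIntegral_mono_on (μ := volume) (s := Ioc 0 (quant g 1))
      (f := fun _ => g (quant g 1)) (g := g) (integrableOn_const (by simp))
      (qa_integrableOn_Ioc hg le_rfl) measurableSet_Ioc
      (fun x hx => hg.anti (mem_Ici.mpr hx.1.le) (mem_Ici.mpr hq.le) hx.2)
    rw [setIntegral_const, Real.volume_real_Ioc_of_le hq.le, sub_zero, smul_eq_mul,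
      mul_comm] at hmono
    exact hmono
  rw [hI] at hlow
  have hgq : g (quant g 1) = 0 := by
    have h1 := hg.nonneg (quant g 1)
    nlinarith
  have hz : tailInt g (quant g 1) = 0 := by
    unfold tailInt
    refine setIntegral_eq_zero_of_forall_eq_zero (fun x hx => ?_)
    have h2 : g x ≤ g (quant g 1) :=
      hg.anti (mem_Ici.mpr hq.le) (mem_Ici.mpr (hq.le.trans (le_of_lt hx))) (le_of_lt hx)
    have h3 := hg.nonneg x
    linarith
  linarith

/-- Degenerate case: when the whole integral vanishes the quantile point is `0`. -/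
theorem quant_of_tail_zero (hnn : ∀ x, 0 ≤ g x) (hv : tailInt g 0 = 0) (θ : ℝ) :
    quant g θ = 0 := by
  unfold quant
  refine Real.sSup_of_not_bddAbove ?_
  rintro ⟨B, hB⟩
  have hin : max B 0 + 1 ∈ {c : ℝ | 0 ≤ c ∧ θ * tailInt g 0 ≤ tailInt g c} := by
    refine ⟨by positivity, ?_⟩
    rw [hv, mul_zero]
    exact qa_tail_nonneg hnn _
  have h1 := hB hin
  have h2 := le_max_left B 0
  linarith

/-- Characterisation used for measurability: for `c > 0` the quantile point is at least `c`
exactly when the tail to the right of `c` still has the fraction `θ`. -/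
theorem le_quant_iff (hg : Prof g X) (hv : 0 < tailInt g 0) {θ : ℝ} (h0 : 0 < θ) (h1 : θ ≤ 1)
    {c : ℝ} (hc : 0 ≤ c) : c ≤ quant g θ ↔ θ * tailInt g 0 ≤ tailInt g c := by
  constructor
  · intro h
    rw [← quant_tail hg hv h0 h1]
    exact qa_tail_anti hg hc h
  · intro h
    exact le_csSup (qa_bddAbove hg hv h0) ⟨hc, h⟩

end Vale.Agent.Lib.P254
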