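import Vale.Agent.Lib.P254.Sec.Defs

open MeasureTheory Set

namespace Vale.Agent.Lib.P254

/-- Three-point chord inequality for a concave function. -/
private lemma ra_chord_le {f : ℝ → ℝ} {s : Set ℝ} (hf : ConcaveOn ℝ s f) {x y z : ℝ}
    (hx : x ∈ s) (hz : z ∈ s) (hxy : x ≤ y) (hyz : y ≤ z) :
    (z - y) * f x + (y - x) * f z ≤ (z - x) * f y := by
  rcases eq_or_lt_of_le (hxy.trans hyz) with h | h
  · have hy : y = x := le_antisymm (h ▸ hyz) hxy
    subst hy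
    subst h
    simp
  · have hzx : 0 < z - x := sub_pos.mpr h
    have hne : z - x ≠ 0 := hzx.ne'
    have hsum : (z - y) / (z - x) + (y - x) / (z - x) = 1 := by
      rw [← add_div, div_eq_one_iff_eq hne]; ring
    have key := hf.2 hx hz (div_nonneg (sub_nonneg.mpr hyz) hzx.le)
      (div_nonneg (sub_nonneg.mpr hxy) hzx.le) hsum
    have e : ((z - y) / (z - x)) • x + ((y - x) / (z - x)) • z = y := by
      simp only [smul_eq_mul]
      field_simp
      ring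
    rw [e] at key
    simp only [smul_eq_mul] at key
    have h2 := mul_le_mul_of_nonneg_left key hzx.le
    have e2 : (z - x) * ((z - y) / (z - x) * f x + (y - x) / (z - x) * f z)
        = (z - y) * f x + (y - x) * f z := by
      field_simp
    linarith

/-- Integral of a cubic polynomial. -/
private lemma ra_int_cubic (c0 c1 c2 c3 x y : ℝ) :
    ∫ t in x..y, (c0 + c1 * t + c2 * t ^ 2 + c3 * t ^ 3) =
      c0 * (y - x) + c1 * (y ^ 2 - x ^ 2) / 2 + c2 * (y ^ 3 - x ^ 3) / 3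
        + c3 * (y ^ 4 - x ^ 4) / 4 := by
  have hd : ∀ t ∈ Set.uIcc x y,
      HasDerivAt (fun t : ℝ => c0 * t + c1 * t ^ 2 / 2 + c2 * t ^ 3 / 3 + c3 * t ^ 4 / 4)
        (c0 + c1 * t + c2 * t ^ 2 + c3 * t ^ 3) t := by
    intro t _
    have h1 : HasDerivAt (fun t : ℝ => c0 * t) c0 t := by
      simpa using (hasDerivAt_id t).const_mul c0
    have h2 : HasDerivAt (fun t : ℝ => c1 * t ^ 2 / 2) (c1 * t) t := by
      have := ((hasDerivAt_pow 2 t).const_mul c1).div_const 2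
      exact this.congr_deriv (by norm_num; ring)
    have h3 : HasDerivAt (fun t : ℝ => c2 * t ^ 3 / 3) (c2 * t ^ 2) t := by
      have := ((hasDerivAt_pow 3 t).const_mul c2).div_const 3
      exact this.congr_deriv (by norm_num; ring)
    have h4 : HasDerivAt (fun t : ℝ => c3 * t ^ 4 / 4) (c3 * t ^ 3) t := by
      have := ((hasDerivAt_pow 4 t).const_mul c3).div_const 4
      exact this.congr_deriv (by norm_num; ring)
    exact ((h1.add h2).add h3).add h4
  rw [intervalIntegral.integral_eq_sub_of_hasDerivAt hd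
    (Continuous.intervalIntegrable (by fun_prop) _ _)]
  ring

/-- Integral of an affine weight against `v` in terms of the two moments. -/
private lemma ra_int_lin_mul {v : ℝ → ℝ} {a : ℝ} (hv : IntervalIntegrable v volume 0 a)
    (p0 p1 : ℝ) :
    ∫ t in (0:ℝ)..a, (p0 + p1 * t) * v t =
      p0 * (∫ t in (0:ℝ)..a, v t) + p1 * (∫ t in (0:ℝ)..a, t * v t) := by
  have h1 : IntervalIntegrable (fun t : ℝ => t * v t) volume 0 a :=
    hv.continuousOn_mul (g := fun t : ℝ => t) continuous_id.continuousOn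
  have e : (fun t : ℝ => (p0 + p1 * t) * v t)
      = fun t : ℝ => p0 * v t + p1 * (t * v t) := by
    funext t; ring
  rw [e, intervalIntegral.integral_add (hv.const_mul p0) (h1.const_mul p1),
    intervalIntegral.integral_const_mul, intervalIntegral.integral_const_mul]

/-- The square of a nonnegative nonincreasing function on `[0,a]` is interval integrable. -/
private lemma ra_sq_intervalIntegrable (r : ℝ → ℝ) (a : ℝ) (ha : 0 ≤ a)
    (han : AntitoneOn r (Icc 0 a)) (h0 : ∀ t ∈ Icc 0 a, 0 ≤ r t) :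
    IntervalIntegrable (fun t => (r t) ^ 2) volume 0 a := by
  apply AntitoneOn.intervalIntegrable
  rw [uIcc_of_le ha]
  intro x hx y hy hxy
  exact pow_le_pow_left₀ (h0 y hy) (han hx hy hxy) 2

/-- A concave function on `[0, T]` that vanishes at `0` changes sign at most once, from
nonnegative to nonpositive. -/
private lemma ra_one_crossing {D : ℝ → ℝ} {T : ℝ} (hT : 0 ≤ T)
    (hD : ConcaveOn ℝ (Icc 0 T) D) (hD0 : D 0 = 0) :
    ∃ s : ℝ, 0 ≤ s ∧ s ≤ T ∧ ∀ t ∈ Icc 0 T, (t - s) * D t ≤ 0 := by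
  have h0mem : (0:ℝ) ∈ Icc 0 T := ⟨le_rfl, hT⟩
  by_cases hall : ∀ t ∈ Icc 0 T, 0 ≤ D t
  · refine ⟨T, hT, le_rfl, fun t ht => ?_⟩
    exact mul_nonpos_of_nonpos_of_nonneg (by linarith [ht.2]) (hall t ht)
  · push Not at hall
    set S : Set ℝ := {t ∈ Icc 0 T | D t < 0} with hS
    have hne : S.Nonempty := by
      obtain ⟨t, ht, hlt⟩ := hall
      exact ⟨t, ht, hlt⟩
    have hbb : BddBelow S := ⟨0, fun t ht => ht.1.1⟩
    have hs0 : 0 ≤ sInf S := le_csInf hne (fun t ht => ht.1.1)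
    have hsT : sInf S ≤ T := by
      obtain ⟨t, ht⟩ := hne
      exact le_trans (csInf_le hbb ht) ht.1.2
    refine ⟨sInf S, hs0, hsT, fun t ht => ?_⟩
    rcases lt_trichotomy t (sInf S) with h1 | h1 | h1
    · have hDt : 0 ≤ D t := by
        by_contra h
        push Not at h
        have hmem : t ∈ S := ⟨ht, h⟩
        exact absurd (csInf_le hbb hmem) (not_le.mpr h1)
      exact mul_nonpos_of_nonpos_of_nonneg (by linarith) hDt
    · rw [h1]; simp
    · obtain ⟨t1, ht1S, ht1t⟩ := exists_lt_of_csInf_lt hne h1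
      have ht1 : t1 ∈ Icc 0 T := ht1S.1
      have hDt1 : D t1 < 0 := ht1S.2
      have hc := ra_chord_le hD h0mem ht ht1.1 ht1t.le
      rw [hD0] at hc
      have ht1pos : 0 < t1 := by
        rcases ht1.1.eq_or_lt with h | h
        · exfalso
          rw [← h, hD0] at hDt1
          exact lt_irrefl 0 hDt1
        · exact h
      have htpos : 0 < t := lt_of_lt_of_le ht1pos ht1t.le
      have hDt : D t ≤ 0 := by
        by_contra h
        push Not at h
        have h2 : 0 < t1 * D t := mul_pos ht1pos h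
        have h3 : t * D t1 < 0 := mul_neg_of_pos_of_neg htpos hDt1
        nlinarith
      exact mul_nonpos_of_nonneg_of_nonpos (by linarith) hDt

/-- Single crossing with a cone: for a nonnegative concave nonincreasing `r` on `[0,T]` the
first moment of `r²` is at most `3/4` of the square of its integral, in units of `r 0`. -/
theorem cone_cross (r : ℝ → ℝ) (T : ℝ) (hT : 0 ≤ T) (hc : ConcaveOn ℝ (Icc 0 T) r)
    (ha : AntitoneOn r (Icc 0 T)) (h0 : ∀ t ∈ Icc 0 T, 0 ≤ r t) :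
    (r 0) ^ 2 * ∫ t in (0:ℝ)..T, t * (r t) ^ 2 ≤ 3 / 4 * (∫ t in (0:ℝ)..T, (r t) ^ 2) ^ 2 := by
  have h0mem : (0:ℝ) ∈ Icc 0 T := ⟨le_rfl, hT⟩
  have hTmem : T ∈ Icc 0 T := ⟨hT, le_rfl⟩
  have hv := ra_sq_intervalIntegrable r T hT ha h0
  set ρ := r 0 with hρ
  have hρ0 : 0 ≤ ρ := h0 0 h0mem
  set B := ∫ t in (0:ℝ)..T, (r t) ^ 2 with hB
  set m := ∫ t in (0:ℝ)..T, t * (r t) ^ 2 with hm
  rcases hT.eq_or_lt with hT0 | hTpos
  · have hm0 : m = 0 := by rw [hm, ← hT0]; simp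
    rw [hm0]
    nlinarith [sq_nonneg B]
  rcases hρ0.eq_or_lt with hρz | hρpos
  · rw [← hρz]
    nlinarith [sq_nonneg B]
  -- FACT 1: ρ^2 * T ≤ 3 * B
  have hfact1 : ρ ^ 2 * T ≤ 3 * B := by
    have hpt : ∀ t ∈ Icc 0 T, 0 ≤ T ^ 2 * (r t) ^ 2 - ρ ^ 2 * (T - t) ^ 2 := by
      intro t ht
      have hcl := ra_chord_le hc h0mem hTmem ht.1 ht.2
      have hrT := h0 T hTmem
      have h1 : ρ * (T - t) ≤ T * r t := by
        nlinarith [mul_nonneg ht.1 hrT]
      have h1' : 0 ≤ ρ * (T - t) := mul_nonneg hρ0 (by linarith [ht.2])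
      have h2 : (ρ * (T - t)) ^ 2 ≤ (T * r t) ^ 2 := pow_le_pow_left₀ h1' h1 2
      nlinarith [h2]
    have hint := intervalIntegral.integral_nonneg (μ := volume) hT hpt
    have e : (fun t : ℝ => T ^ 2 * (r t) ^ 2 - ρ ^ 2 * (T - t) ^ 2)
        = fun t : ℝ => (T ^ 2 + 0 * t) * (r t) ^ 2
            - (ρ ^ 2 * T ^ 2 + (-2 * ρ ^ 2 * T) * t + ρ ^ 2 * t ^ 2 + 0 * t ^ 3) := by
      funext t; ring
    rw [e, intervalIntegral.integral_sub
      (hv.continuousOn_mul (g := fun t : ℝ => T ^ 2 + 0 * t) (by fun_prop))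
      (Continuous.intervalIntegrable (by fun_prop) _ _),
      ra_int_lin_mul hv, ra_int_cubic] at hint
    have h2 : 0 ≤ T ^ 2 * (3 * B - ρ ^ 2 * T) := by
      have e2 : T ^ 2 * (3 * B - ρ ^ 2 * T) = 3 * (T ^ 2 * B + 0 * m -
          (ρ ^ 2 * T ^ 2 * (T - 0) + (-2 * ρ ^ 2 * T) * (T ^ 2 - 0 ^ 2) / 2
            + ρ ^ 2 * (T ^ 3 - 0 ^ 3) / 3 + 0 * (T ^ 4 - 0 ^ 4) / 4)) := by
        ring
      rw [e2]
      exact mul_nonneg (by norm_num) hint
    by_contra hneg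
    push Not at hneg
    have : 0 < T ^ 2 := by positivity
    nlinarith [mul_pos this (sub_pos.mpr hneg)]
  have hBpos : 0 < B := by nlinarith [mul_pos (pow_pos hρpos 2) hTpos]
  -- the cone ρ * (1 - κ * t), κ = ρ^2 / (3 B), of the same mass; L = 1/κ ≥ T
  set κ := ρ ^ 2 / (3 * B) with hκ
  have hκpos : 0 < κ := by rw [hκ]; positivity
  have hκB : 3 * B * κ = ρ ^ 2 := by
    rw [hκ]; field_simp
  set L := κ⁻¹ with hL
  have hLpos : 0 < L := inv_pos.mpr hκpos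
  have hκL : κ * L = 1 := mul_inv_cancel₀ hκpos.ne'
  have hκT : κ * T ≤ 1 := by
    have : 3 * B * (κ * T) ≤ 3 * B * 1 := by
      have e : 3 * B * (κ * T) = ρ ^ 2 * T := by rw [← hκB]; ring
      rw [e]; linarith
    exact le_of_mul_le_mul_left this (by positivity)
  have hTL : T ≤ L := by
    have h1 : κ * T ≤ κ * L := by rw [hκL]; exact hκT
    exact le_of_mul_le_mul_left h1 hκpos
  -- crossing point
  have hDconc : ConcaveOn ℝ (Icc 0 T) (fun t => r t - ρ * (1 - κ * t)) := by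
    refine hc.sub ⟨convex_Icc 0 T, ?_⟩
    intro x _ y _ p q _ _ hpq
    have hq : q = 1 - p := by linarith
    subst hq
    simp only [smul_eq_mul]
    apply le_of_eq
    ring
  have hD0 : (fun t => r t - ρ * (1 - κ * t)) 0 = 0 := by
    simp [hρ]
  obtain ⟨s, hs0, hsT, hcross⟩ := ra_one_crossing hT hDconc hD0
  have hcross2 : ∀ t ∈ Icc 0 T, (t - s) * ((r t) ^ 2 - (ρ * (1 - κ * t)) ^ 2) ≤ 0 := by
    intro t ht
    have h1 := hcross t ht
    have hκt : κ * t ≤ 1 := le_trans (mul_le_mul_of_nonneg_left ht.2 hκpos.le) hκT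
    have h2 : 0 ≤ r t + ρ * (1 - κ * t) :=
      add_nonneg (h0 t ht) (mul_nonneg hρ0 (by linarith))
    have e : (t - s) * ((r t) ^ 2 - (ρ * (1 - κ * t)) ^ 2)
        = ((t - s) * (r t - ρ * (1 - κ * t))) * (r t + ρ * (1 - κ * t)) := by ring
    rw [e]
    exact mul_nonpos_of_nonpos_of_nonneg h1 h2
  -- (I1)
  have hI1 : 0 ≤ ∫ t in (0:ℝ)..T, -((t - s) * ((r t) ^ 2 - (ρ * (1 - κ * t)) ^ 2)) :=
    intervalIntegral.integral_nonneg hT (fun t ht => neg_nonneg.mpr (hcross2 t ht))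
  have e1 : (fun t : ℝ => -((t - s) * ((r t) ^ 2 - (ρ * (1 - κ * t)) ^ 2)))
      = fun t : ℝ => (-(ρ ^ 2 * s) + ρ ^ 2 * (1 + 2 * s * κ) * t
            + ρ ^ 2 * (-2 * κ - s * κ ^ 2) * t ^ 2 + ρ ^ 2 * κ ^ 2 * t ^ 3)
          - (-s + 1 * t) * (r t) ^ 2 := by
    funext t; ring
  rw [e1, intervalIntegral.integral_sub
    (Continuous.intervalIntegrable (by fun_prop) _ _)
    (hv.continuousOn_mul (g := fun t : ℝ => -s + 1 * t) (by fun_prop)),
    ra_int_lin_mul hv, ra_int_cubic] at hI1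
  -- (I2)
  have hI2 : 0 ≤ ∫ t in T..L, (-(ρ ^ 2 * s) + ρ ^ 2 * (1 + 2 * s * κ) * t
            + ρ ^ 2 * (-2 * κ - s * κ ^ 2) * t ^ 2 + ρ ^ 2 * κ ^ 2 * t ^ 3) := by
    refine intervalIntegral.integral_nonneg hTL (fun t ht => ?_)
    have e : -(ρ ^ 2 * s) + ρ ^ 2 * (1 + 2 * s * κ) * t
            + ρ ^ 2 * (-2 * κ - s * κ ^ 2) * t ^ 2 + ρ ^ 2 * κ ^ 2 * t ^ 3
          = (t - s) * (ρ * (1 - κ * t)) ^ 2 := by ring
    rw [e]
    exact mul_nonneg (by linarith [ht.1]) (sq_nonneg _)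
  rw [ra_int_cubic] at hI2
  -- conclusion
  have hkey : -(ρ ^ 2 * s) * (L - 0) + ρ ^ 2 * (1 + 2 * s * κ) * (L ^ 2 - 0 ^ 2) / 2
        + ρ ^ 2 * (-2 * κ - s * κ ^ 2) * (L ^ 3 - 0 ^ 3) / 3
        + ρ ^ 2 * κ ^ 2 * (L ^ 4 - 0 ^ 4) / 4
      = ρ ^ 2 * (L ^ 2 / 12 - s * L / 3) := by
    linear_combination (ρ ^ 2 * (s * L - 2 * L ^ 2 / 3 - s * L / 3 * (κ * L + 1)
      + L ^ 2 / 4 * (κ * L + 1))) * hκL
  have hsB : ρ ^ 2 * (s * L / 3) = s * B := by
    rw [← hκB]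
    linear_combination (s * B) * hκL
  have hmle : m ≤ ρ ^ 2 * (L ^ 2 / 12) := by
    have hsum : 0 ≤ ρ ^ 2 * (L ^ 2 / 12 - s * L / 3) - (-s * B + 1 * m) := by
      rw [← hkey]
      linarith
    linarith
  have hfin : ρ ^ 2 * (ρ ^ 2 * (L ^ 2 / 12)) = 3 / 4 * B ^ 2 := by
    rw [← hκB]
    linear_combination (3 / 4 * B ^ 2 * (κ * L + 1)) * hκL
  calc ρ ^ 2 * m ≤ ρ ^ 2 * (ρ ^ 2 * (L ^ 2 / 12)) :=
        mul_le_mul_of_nonneg_left hmle (sq_nonneg ρ)
    _ = 3 / 4 * B ^ 2 := hfin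

end Vale.Agent.Lib.P254
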