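import Vale.Agent.Lib.P254.Sec.Core
import Vale.Agent.Lib.P254.Sec.Glue

open MeasureTheory Set

namespace Vale.Agent.Lib.P254

variable {K : Set (Fin 3 → ℝ)}

/-- **Section inequality.** For an unconditional convex body in `ℝ^3` the section through the
height of the centroid of the positive part satisfies
`16 (∫_K |x₁|)(∫_K |x₂|) ≤ |K ∩ {x₀ = b₀}| · |K|²`. -/
theorem sec_ineq (hK : Uncond3 K) (hV : 0 < vol K) :
    16 * (∫ p in K, |p 1|) * (∫ p in K, |p 2|) ≤
      vol (sec K ((∫ p in K, |p 0|) / vol K)) * (vol K) ^ 2 := by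
  have hv := vol_eq_cV hK
  have hcV : 0 < cV K := by rw [hv] at hV; linarith
  have hb : (∫ p in K, |p 0|) / vol K = cZ K / cV K := by
    rw [abs0_eq_cZ hK, hv]
    field_simp
  rw [hb, abs1_eq_cB1 hK, abs2_eq_cB2 hK, vol_sec_eq_cv hK, hv]
  have hc := sec_core hK hcV
  nlinarith [hc]

end Vale.Agent.Lib.P254
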